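import Vale.Agent.Lib.P371.Lattice

/-!
Assembling the lattice bound.
-/

set_option linter.unusedSectionVars false
set_option linter.unusedSimpArgs false
set_option linter.unusedVariables false

open Matrix MeasureTheory Set Filter Topology
open scoped ComplexOrder Real

namespace Vale.Agent.P371

variable {σ τ : Type*} [Fintype σ] [Fintype τ] [DecidableEq σ] [DecidableEq τ]

/-- The Green kernel is positive definite. -/
lemma gK_form_nonneg (x : σ → ℝ) {κ : ℝ} (hκ : 0 < κ) (u : σ → ℝ) :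
    0 ≤ ∑ i, ∑ j, u i * u j * gK x κ i j := by
  have h1 := energy_integral hκ x (τ := Unit) (fun a => (u a.1 : ℂ))
  have h2 : 0 ≤ ∫ y, ∑ α : Unit, ∑ i, ∑ j,
      (star (((u (i, α).1 : ℝ) : ℂ)) * ((u (j, α).1 : ℝ) : ℂ)).re *
        (gd κ (y - x i) * gd κ (y - x j) + κ ^ 2 * (gk κ (y - x i) * gk κ (y - x j))) := by
    apply integral_nonneg
    intro y
    have := energy_density (τ := Unit) x (fun a => (u a.1 : ℂ)) κ y
    simp only at this ⊢
    rw [← this]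
    exact Finset.sum_nonneg (fun α _ => by positivity)
  rw [h1] at h2
  simp only [Finset.univ_unique, Finset.sum_singleton] at h2
  refine h2.trans (le_of_eq ?_)
  refine Finset.sum_congr rfl (fun i _ => Finset.sum_congr rfl (fun j _ => ?_))
  rw [gK_eq_gk]
  congr 1
  simp [Complex.mul_re]

lemma kerG_gK_psd (x : σ → ℝ) {κ : ℝ} (hκ : 0 < κ) :
    (kerG (gK x κ) : Matrix (σ × τ) (σ × τ) ℂ).PosSemidef :=
  kerG_psd (gK_symm x κ) (gK_form_nonneg x hκ)

lemma MM_psd {x : σ → ℝ} {Rb : σ → Matrix τ τ ℂ} (hRb : ∀ i, (Rb i).IsHermitian) {κ : ℝ}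
    (hκ : 0 < κ) : (MM x Rb κ).PosSemidef := by
  have h := (kerG_gK_psd (τ := τ) x hκ).conjTranspose_mul_mul_same (blk Rb)
  rw [(blk_herm hRb).eq] at h
  exact h

lemma rtr_MM {x : σ → ℝ} {Rb : σ → Matrix τ τ ℂ} {κ : ℝ} (hκ : 0 < κ) :
    rtr (MM x Rb κ) = (∑ i, rtr (Rb i * Rb i)) / (2 * κ) := by
  unfold MM
  rw [Matrix.mul_assoc, rtr_mul_comm, Matrix.mul_assoc, blk_mul, rtr_kerG_mul_blk,
    Finset.sum_div]
  refine Finset.sum_congr rfl (fun i _ => ?_)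
  have : gK x κ i i = 1 / (2 * κ) := by
    unfold gK
    simp
  rw [this]
  ring

/-- The positive trace is controlled by the full trace. -/
lemma FF_le {x : σ → ℝ} {Rb : σ → Matrix τ τ ℂ} (hRb : ∀ i, (Rb i).IsHermitian) {κ : ℝ}
    (hκ : 0 < κ) : FF x Rb κ ≤ (∑ i, rtr (Rb i * Rb i)) / (2 * κ) := by
  have hTop := AA_top (x := x) hRb κ
  rw [FF_eq (x := x) hRb κ, ← rtr_MM hκ]
  have h1 := rtr_mul_nonneg hTop.hP1 (MM_psd (x := x) hRb hκ)
  rw [Matrix.sub_mul, Matrix.one_mul, rtr_sub] at h1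
  have h2 := rtr_nonneg hTop.hP
  linarith

lemma hsumint {ι : Type*} (s : Finset ι) {f : ι → ℝ → ℝ} {a b : ℝ}
    (h : ∀ i ∈ s, IntervalIntegrable (f i) volume a b) :
    IntervalIntegrable (fun κ => ∑ i ∈ s, f i κ) volume a b :=
  ⟨integrable_finsetSum _ (fun i hi => (h i hi).1),
    integrable_finsetSum _ (fun i hi => (h i hi).2)⟩

lemma integral_split {T : σ → τ → ℝ → ℝ} {P : ℝ → ℝ} {a b Δ c e : ℝ}
    (hT : ∀ i k, IntervalIntegrable (T i k) volume a b) (hP : IntervalIntegrable P volume a b) :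
    ∫ κ in a..b, ((∑ i, Δ * ∑ k, (c * T i k κ)) + e * P κ) =
      (∑ i, Δ * ∑ k, (c * ∫ κ in a..b, T i k κ)) + e * ∫ κ in a..b, P κ := by
  have hI0 : ∀ i k, IntervalIntegrable (fun κ => c * T i k κ) volume a b :=
    fun i k => (hT i k).const_mul c
  have hI1 : ∀ i, IntervalIntegrable (fun κ => Δ * ∑ k, (c * T i k κ)) volume a b := by
    intro i
    apply IntervalIntegrable.const_mul
    exact hsumint (f := fun k κ => c * T i k κ) _ (fun k _ => hI0 i k)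
  have hF : IntervalIntegrable (fun κ => ∑ i, Δ * ∑ k, (c * T i k κ)) volume a b :=
    hsumint (f := fun i κ => Δ * ∑ k, (c * T i k κ)) _ (fun i _ => hI1 i)
  rw [intervalIntegral.integral_add hF (hP.const_mul e), intervalIntegral.integral_const_mul,
    intervalIntegral.integral_finsetSum (fun i _ => hI1 i)]
  congr 1
  refine Finset.sum_congr rfl (fun i _ => ?_)
  rw [intervalIntegral.integral_const_mul,
    intervalIntegral.integral_finsetSum (fun k _ => hI0 i k)]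
  congr 1
  refine Finset.sum_congr rfl (fun k _ => ?_)
  rw [intervalIntegral.integral_const_mul]

/-- Integral of the density. -/
lemma rho_integral {γ : ℝ} (hγ : 1 / 2 < γ) {Δ M₀ : ℝ} (hΔ : 0 ≤ Δ) (hM₀ : 0 ≤ M₀)
    {w : σ → τ → ℝ} (hw : ∀ i k, 0 ≤ w i k) {a b : ℝ} (ha : 0 < a) (hab : a ≤ b) :
    ∫ κ in a..b, rhoK γ Δ M₀ w κ ≤
      Cst γ * (∑ i, Δ * ∑ k, (w i k) ^ (γ + 1 / 2)) + (γ + 1 / 2) * (M₀ * Δ / π ^ 2) * b ^ (2 * γ) := by
  have h0γ : 0 < γ := by linarith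
  have h1γ : 0 < γ + 1 / 2 := by linarith
  have hs := sPar_pos hγ
  have hπ : 0 < π ^ 2 := by positivity
  have hb : 0 < b := lt_of_lt_of_le ha hab
  have hsub : uIcc a b ⊆ Ioi 0 := by
    rw [uIcc_of_le hab]
    exact fun t ht => lt_of_lt_of_le ha ht.1
  set term : ℝ → ℝ → ℝ := fun v κ => κ ^ (2 * γ - 1) * ((1 / (sPar γ * κ)) * Bb γ v κ) with hterm
  have htermint : ∀ v, 0 ≤ v → IntervalIntegrable (term v) volume a b := by
    intro v hv
    apply ContinuousOn.intervalIntegrable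
    intro κ hκ
    have hκ0 : κ ≠ 0 := (show 0 < κ from hsub hκ).ne'
    apply ContinuousAt.continuousWithinAt
    simp only [hterm]
    apply ContinuousAt.mul
    · exact Real.continuousAt_rpow_const _ _ (Or.inl hκ0)
    · apply ContinuousAt.mul
      · apply ContinuousAt.div continuousAt_const (by fun_prop)
        exact mul_ne_zero hs.ne' hκ0
      · exact (Bb_continuous hγ hv).continuousAt
  set pow : ℝ → ℝ := fun κ => κ ^ (2 * γ - 1) with hpow
  have hpowint : IntervalIntegrable pow volume a b := by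
    apply ContinuousOn.intervalIntegrable
    intro κ hκ
    have hκ0 : κ ≠ 0 := (show 0 < κ from hsub hκ).ne'
    exact (Real.continuousAt_rpow_const _ _ (Or.inl hκ0)).continuousWithinAt
  have hexpand : ∀ κ, rhoK γ Δ M₀ w κ =
      ∑ i, Δ * ∑ k, (2 * γ * (γ + 1 / 2) * term (w i k) κ) +
        ((γ + 1 / 2) * (M₀ * Δ / π ^ 2) * (2 * γ)) * pow κ := by
    intro κ
    unfold rhoK
    simp only [hterm, hpow]
    have e1 : ∑ i, Δ * ∑ k, (2 * γ * (γ + 1 / 2) *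
        (κ ^ (2 * γ - 1) * ((1 / (sPar γ * κ)) * Bb γ (w i k) κ))) =
        2 * γ * (γ + 1 / 2) * κ ^ (2 * γ - 1) * (1 / (sPar γ * κ)) *
          ∑ i, Δ * ∑ k, Bb γ (w i k) κ := by
      rw [Finset.mul_sum]
      refine Finset.sum_congr rfl (fun i _ => ?_)
      rw [Finset.mul_sum, Finset.mul_sum, Finset.mul_sum]
      refine Finset.sum_congr rfl (fun k _ => ?_)
      ring
    rw [e1]
    ring
  have hintegr : ∫ κ in a..b, rhoK γ Δ M₀ w κ =
      ∑ i, Δ * ∑ k, (2 * γ * (γ + 1 / 2) * ∫ κ in a..b, term (w i k) κ) +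
        ((γ + 1 / 2) * (M₀ * Δ / π ^ 2) * (2 * γ)) * ∫ κ in a..b, pow κ := by
    simp only [hexpand]
    exact integral_split (fun i k => htermint _ (hw i k)) hpowint
  have hpowval : ∫ κ in a..b, pow κ = (b ^ (2 * γ) - a ^ (2 * γ)) / (2 * γ) := by
    simp only [hpow]
    rw [integral_rpow (Or.inl (by linarith))]
    have : 2 * γ - 1 + 1 = 2 * γ := by ring
    rw [this]
  rw [hintegr, hpowval]
  have h1 : ∑ i, Δ * ∑ k, (2 * γ * (γ + 1 / 2) * ∫ κ in a..b, term (w i k) κ) ≤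
      Cst γ * (∑ i, Δ * ∑ k, (w i k) ^ (γ + 1 / 2)) := by
    rw [Finset.mul_sum]
    refine Finset.sum_le_sum (fun i _ => ?_)
    rw [mul_left_comm]
    refine mul_le_mul_of_nonneg_left ?_ hΔ
    rw [Finset.mul_sum]
    refine Finset.sum_le_sum (fun k _ => ?_)
    exact Bb_integral hγ (hw i k) ha hab
  have h2 : ((γ + 1 / 2) * (M₀ * Δ / π ^ 2) * (2 * γ)) * ((b ^ (2 * γ) - a ^ (2 * γ)) / (2 * γ)) ≤
      (γ + 1 / 2) * (M₀ * Δ / π ^ 2) * b ^ (2 * γ) := by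
    have e : ((γ + 1 / 2) * (M₀ * Δ / π ^ 2) * (2 * γ)) * ((b ^ (2 * γ) - a ^ (2 * γ)) / (2 * γ)) =
        (γ + 1 / 2) * (M₀ * Δ / π ^ 2) * (b ^ (2 * γ) - a ^ (2 * γ)) := by
      field_simp
    rw [e]
    have hc : 0 ≤ (γ + 1 / 2) * (M₀ * Δ / π ^ 2) := by positivity
    refine mul_le_mul_of_nonneg_left ?_ hc
    have : 0 ≤ a ^ (2 * γ) := Real.rpow_nonneg ha.le _
    linarith
  linarith


lemma Cst_pos {γ : ℝ} (hγ : 1 / 2 < γ) : 0 < Cst γ := by
  unfold Cst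
  have h0 : 0 < γ := by linarith
  have hp : 0 < γ + 1 / 2 := by linarith
  have hq : 0 < γ - 1 / 2 := by linarith
  have hπ := Real.pi_pos
  have hs : 0 < Real.sin (π / (2 * (γ + 1 / 2))) := by
    apply Real.sin_pos_of_pos_of_lt_pi
    · positivity
    · rw [div_lt_iff₀ (by positivity)]
      nlinarith
  have h1 : 0 < γ ^ (1 - 2 * γ) := Real.rpow_pos_of_pos h0 _
  have h2 : 0 < ((γ + 1 / 2) * (γ - 1 / 2)) ^ (γ - 1 / 2) := Real.rpow_pos_of_pos (by positivity) _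
  have h3 : 0 < (π / (2 * (γ + 1 / 2) * Real.sin (π / (2 * (γ + 1 / 2))))) ^ (γ + 1 / 2) :=
    Real.rpow_pos_of_pos (by positivity) _
  positivity

section final

variable {W : ℝ → Matrix τ τ ℂ} (hWm : ∀ α β, Measurable (fun y => W y α β))
  (hWpsd : ∀ y, (W y).PosSemidef) {γ : ℝ} (hγ : 1 / 2 < γ)
  (hint : Integrable (fun y => ∑ α, ((hWpsd y).1.eigenvalues α) ^ (γ + 1 / 2)))

include hWm hWpsd hγ hint in
/-- **The bound for a fixed mesh.** -/
theorem finite_bound {n : ℕ} {ψ ψ' : Fin n → ℝ → τ → ℂ}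
    (hd : ∀ k α y, HasDerivAt (fun y => ψ k y α) (ψ' k y α) y)
    (hc' : ∀ k α, Continuous (fun y => ψ' k y α))
    {L : ℝ} (hL : 0 < L) (hsupp : ∀ k y α, L ≤ |y| → ψ k y α = 0)
    (hsupp' : ∀ k y α, L ≤ |y| → ψ' k y α = 0)
    {M : ℝ} (hMnn : 0 ≤ M) (hM0 : ∀ k y α, ‖ψ k y α‖ ≤ M) (hM1 : ∀ k y α, ‖ψ' k y α‖ ≤ M)
    (hON : ∀ d : Fin n → ℂ, ∫ y, ∑ α, ‖∑ k, d k * ψ k y α‖ ^ 2 = ∑ k, ‖d k‖ ^ 2)
    (hIkin : ∀ d : Fin n → ℂ, Integrable (fun y => ∑ α, ‖∑ k, d k * ψ' k y α‖ ^ 2))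
    (hIpot : ∀ d : Fin n → ℂ, Integrable (fun y => ∑ α, ‖∑ k, d k * ψ k y α‖ ^ 2))
    {Q : Matrix (Fin n) (Fin n) ℂ} (hQH : Q.IsHermitian)
    (hQform : ∀ d : Fin n → ℂ, (star d ⬝ᵥ (Q *ᵥ d)).re =
      (∫ y, ∑ α, ‖∑ k, d k * ψ' k y α‖ ^ 2) -
        ∫ y, (star (fun α => ∑ k, d k * ψ k y α) ⬝ᵥ (W y *ᵥ (fun α => ∑ k, d k * ψ k y α))).re)
    {ML C₀ : ℝ} (hML : ML = ∫ y in (-L)..L, rtr (W y))
    (hC₀ : C₀ = 2 * (Fintype.card τ : ℝ) ^ 2 * n * M ^ 2 * ML)
    {N : ℕ} (hN : 0 < N) {a b : ℝ} (ha : 0 < a) (hab : a ≤ b)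
    (hb : ∀ j, Real.sqrt (max (-hQH.eigenvalues j) 0) ≤ b) :
    ∑ j, (max (-hQH.eigenvalues j - (C₀ + 1) * dlt L N) 0) ^ γ ≤
      (γ + 1 / 2) * (a ^ (2 * γ - 1) * ML / 2) + n * a ^ (2 * γ) +
        Cst γ * (∫ y, ∑ α, ((hWpsd y).1.eigenvalues α) ^ (γ + 1 / 2)) +
        (γ + 1 / 2) * (ML * dlt L N / π ^ 2) * b ^ (2 * γ) := by
  have h0γ : 0 < γ := by linarith
  have hp : (1:ℝ) ≤ γ + 1 / 2 := by linarith
  have hΔ := dlt_pos hL hN
  set Δ := dlt L N with hΔdef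
  have hMLnn : 0 ≤ ML := by
    rw [hML]
    exact intervalIntegral.integral_nonneg (by linarith) (fun y _ => rtr_nonneg (hWpsd y))
  have hC₀nn : 0 ≤ C₀ := by
    rw [hC₀]
    positivity
  have hcell : ∀ i : Fin N, (cellM W (cc L N i) (cc L N ((i : ℕ) + 1))).PosSemidef :=
    fun i => cellM_psd hWm hWpsd hp hint (cc_le_succ hΔ.le _)
  choose Rb hRbpsd hRR using fun i => exists_sqrt (hcell i)
  have hRb : ∀ i, (Rb i).IsHermitian := fun i => (hRbpsd i).1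
  set B : Fin N → Matrix τ τ ℂ := fun i =>
    ((Δ⁻¹ : ℝ) : ℂ) • cellM W (cc L N i) (cc L N ((i : ℕ) + 1)) with hBdef
  have hΔinv : (0 : ℂ) ≤ ((Δ⁻¹ : ℝ) : ℂ) := by
    have : (0 : ℝ) ≤ Δ⁻¹ := by positivity
    exact_mod_cast this
  have hB : ∀ i, (B i).PosSemidef := fun i => (hcell i).smul hΔinv
  have hΔc : ((Δ : ℝ) : ℂ) ≠ 0 := by exact_mod_cast hΔ.ne'
  have hscale : ∀ i : Fin N, cellM W (cc L N i) (cc L N ((i : ℕ) + 1)) = ((Δ : ℝ) : ℂ) • B i := by
    intro i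
    simp only [hBdef]
    rw [smul_smul, ← Complex.ofReal_mul, mul_inv_cancel₀ hΔ.ne', Complex.ofReal_one, one_smul]
  have hRB : ∀ i, Rb i * Rb i = ((Δ : ℝ) : ℂ) • B i := fun i => by rw [hRR i, hscale i]
  have hBe : ∀ i : Fin N, cellM W (cc L N i) (cc L N ((i : ℕ) + 1)) =
      ((cc L N ((i : ℕ) + 1) - cc L N i : ℝ) : ℂ) • B i := by
    intro i
    have : cc L N ((i : ℕ) + 1) - cc L N i = Δ := by
      rw [cc_succ]
      ring
    rw [this]
    exact hscale i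
  -- the lattice comparison
  have hH : ∀ d : Fin n → ℂ, (∫ y, ∑ α, ‖∑ k, d k * ψ' k y α‖ ^ 2) - (star d ⬝ᵥ (Q *ᵥ d)).re ≤
      (∑ a, ‖(blk Rb *ᵥ (fun a : Fin N × τ => ∑ k, d k * ψ k (xx L N a.1) a.2)) a‖ ^ 2) +
        (C₀ * Δ) * ∑ k, ‖d k‖ ^ 2 := by
    intro d
    have h := lattice_H hWm hWpsd hp hint hd hL hsupp hMnn hM0 hM1 hN hRb hRR d
    rw [← hML, ← hΔdef] at h
    rw [hQform d]
    have e : 2 * (Fintype.card τ : ℝ) ^ 2 * n * M ^ 2 * Δ * ML = C₀ * Δ := by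
      rw [hC₀]
      ring
    rw [e] at h
    linarith
  set E' : ℝ := (C₀ + 1) * Δ with hE'
  have hE'nn : 0 ≤ E' := by positivity
  have hEE : C₀ * Δ < E' := by
    simp only [hE']
    nlinarith
  set τ' : Fin n → ℝ := fun j => Real.sqrt (max (-hQH.eigenvalues j - E') 0) with hτ'
  have hτ0 : ∀ j, 0 ≤ τ' j := fun j => Real.sqrt_nonneg _
  have hcount : ∀ κ, 0 < κ → ((Finset.univ.filter fun j => κ ≤ τ' j).card : ℝ) ≤
      rtr (PP (xx L N) Rb κ) := by
    intro κ hκ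
    have h := count_lemma hRb hd hc' hsupp hsupp' (xx_abs hL hN) hON hIkin hIpot hQH hH hκ hEE
    refine le_trans ?_ h
    have hsub : (Finset.univ.filter fun j => κ ≤ τ' j) ⊆
        (Finset.univ.filter fun j => hQH.eigenvalues j ≤ -κ ^ 2 - E') := by
      intro j hj
      rw [Finset.mem_filter] at hj ⊢
      refine ⟨Finset.mem_univ j, ?_⟩
      have h1 : κ ≤ Real.sqrt (max (-hQH.eigenvalues j - E') 0) := hj.2
      have h2 : κ ^ 2 ≤ max (-hQH.eigenvalues j - E') 0 := by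
        exact (Real.le_sqrt' hκ).mp h1
      have hκ2 : 0 < κ ^ 2 := by positivity
      rcases le_total (-hQH.eigenvalues j - E') 0 with h3 | h3
      · rw [max_eq_right h3] at h2
        linarith
      · rw [max_eq_left h3] at h2
        linarith
    exact_mod_cast Finset.card_le_card hsub
  have hdini := dini_main hγ hΔ (x := xx L N) (fun i j hij => xx_per i j hij) hRb hB hRB τ' hτ0
    hcount ha hab
  -- the pieces
  have hM₀ : ∑ i, rtr (Rb i * Rb i) = ML := by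
    rw [hML, ← sum_cells (rtr_intervalIntegrable hWm hWpsd hp hint) hN]
    refine Finset.sum_congr rfl (fun i _ => ?_)
    rw [hRR i, rtr_cellM hWm hWpsd hp hint]
  rw [hM₀] at hdini
  have hFF := FF_le (x := xx L N) hRb ha
  rw [hM₀] at hFF
  have hapow : a ^ (2 * γ) = a ^ (2 * γ - 1) * a := by
    rw [← Real.rpow_add_one ha.ne']
    congr 1
    ring
  have hFFa : a ^ (2 * γ) * FF (xx L N) Rb a ≤ a ^ (2 * γ - 1) * ML / 2 := by
    have h1 : 0 ≤ a ^ (2 * γ) := Real.rpow_nonneg ha.le _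
    refine (mul_le_mul_of_nonneg_left hFF h1).trans (le_of_eq ?_)
    rw [hapow]
    field_simp
  have hT2 : TT τ' (2 * γ) a ≤ n * a ^ (2 * γ) := by
    unfold TT
    calc ∑ j, (min (τ' j) a) ^ (2 * γ) ≤ ∑ _j : Fin n, a ^ (2 * γ) := by
          refine Finset.sum_le_sum (fun j _ => ?_)
          exact Real.rpow_le_rpow (le_min (hτ0 j) ha.le) (min_le_right _ _) (by linarith)
      _ = _ := by simp
  have hτb : ∀ j, τ' j ≤ b := by
    intro j
    refine le_trans ?_ (hb j)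
    apply Real.sqrt_le_sqrt
    apply max_le_max_right
    linarith
  have hT1 : TT τ' (2 * γ) b = ∑ j, (max (-hQH.eigenvalues j - E') 0) ^ γ := by
    unfold TT
    refine Finset.sum_congr rfl (fun j _ => ?_)
    rw [min_eq_left (hτb j)]
    simp only [hτ']
    rw [Real.sqrt_eq_rpow, ← Real.rpow_mul (le_max_right _ _)]
    congr 1
    ring
  have hrho := rho_integral (σ := Fin N) (τ := τ) hγ hΔ.le hMLnn
    (w := fun i k => (hB i).1.eigenvalues k) (fun i k => (hB i).eigenvalues_nonneg k) ha hab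
  -- Jensen
  set I : ℝ := ∫ y, ∑ α, ((hWpsd y).1.eigenvalues α) ^ (γ + 1 / 2) with hI
  have hJ : ∑ i, Δ * ∑ k, ((hB i).1.eigenvalues k) ^ (γ + 1 / 2) ≤ I := by
    have h1 : ∀ i : Fin N, Δ * ∑ k, ((hB i).1.eigenvalues k) ^ (γ + 1 / 2) ≤
        ∫ y in cc L N i..cc L N ((i : ℕ) + 1), ∑ α, ((hWpsd y).1.eigenvalues α) ^ (γ + 1 / 2) := by
      intro i
      have hlt : cc L N i < cc L N ((i : ℕ) + 1) := by
        rw [cc_succ]
        linarith
      have := trace_jensen hWm hWpsd hp hint hlt (hB i) (hBe i)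
      have he : cc L N ((i : ℕ) + 1) - cc L N i = Δ := by
        rw [cc_succ]
        ring
      rwa [he] at this
    refine (Finset.sum_le_sum (fun i _ => h1 i)).trans ?_
    rw [sum_cells (fun u v => hint.intervalIntegrable) hN,
      intervalIntegral.integral_of_le (by linarith)]
    apply setIntegral_le_integral hint
    exact Eventually.of_forall (fun y => Finset.sum_nonneg
      (fun α _ => Real.rpow_nonneg ((hWpsd y).eigenvalues_nonneg α) _))
  have hCst := Cst_pos hγ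
  have hrho2 := mul_le_mul_of_nonneg_left hJ hCst.le
  have hFF2 := mul_le_mul_of_nonneg_left hFFa (by linarith : (0:ℝ) ≤ γ + 1 / 2)
  rw [hT1] at hdini
  linarith

end final

end Vale.Agent.P371
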