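import Vale.Agent.Lib.P371.Key

/-!
Block matrices on `σ × τ`: scalar kernels tensored with the identity, block diagonal matrices.
-/

set_option linter.unusedSectionVars false
set_option linter.unusedSimpArgs false
set_option linter.unusedVariables false

open Matrix
open scoped ComplexOrder

namespace Vale.Agent.P371

variable {σ τ : Type*} [Fintype σ] [Fintype τ] [DecidableEq σ] [DecidableEq τ]

/-- real scalar kernel tensored with the identity on `τ` -/
def kerG (h : σ → σ → ℝ) : Matrix (σ × τ) (σ × τ) ℂ :=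
  fun a b => if a.2 = b.2 then ((h a.1 b.1 : ℝ) : ℂ) else 0

/-- block diagonal matrix -/
def blk (Q : σ → Matrix τ τ ℂ) : Matrix (σ × τ) (σ × τ) ℂ :=
  fun a b => if a.1 = b.1 then Q a.1 a.2 b.2 else 0

/-- diagonal matrix depending only on the site -/
noncomputable def dg (f : σ → ℝ) : Matrix (σ × τ) (σ × τ) ℂ :=
  diagonal (fun a => (f a.1 : ℂ))

lemma blk_mul (Q Q' : σ → Matrix τ τ ℂ) : blk Q * blk Q' = blk (fun i => Q i * Q' i) := by
  ext a b
  simp only [Matrix.mul_apply, blk, Fintype.sum_prod_type]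
  by_cases hab : a.1 = b.1
  · rw [Finset.sum_eq_single a.1]
    · simp [hab]
    · intro i _ hi
      have : a.1 ≠ i := fun h => hi h.symm
      simp [this]
    · simp
  · simp only [hab, if_false]
    refine Finset.sum_eq_zero (fun i _ => Finset.sum_eq_zero (fun β _ => ?_))
    by_cases h1 : a.1 = i
    · have : ¬ i = b.1 := fun h => hab (h1.trans h)
      simp [this]
    · simp [h1]

lemma blk_add (Q Q' : σ → Matrix τ τ ℂ) : blk Q + blk Q' = blk (fun i => Q i + Q' i) := by
  ext a b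
  simp only [Matrix.add_apply, blk]
  split_ifs <;> simp

lemma blk_sub (Q Q' : σ → Matrix τ τ ℂ) : blk Q - blk Q' = blk (fun i => Q i - Q' i) := by
  ext a b
  simp only [Matrix.sub_apply, blk]
  split_ifs <;> simp

lemma blk_smul (c : ℂ) (Q : σ → Matrix τ τ ℂ) : c • blk Q = blk (fun i => c • Q i) := by
  ext a b
  simp only [Matrix.smul_apply, blk]
  split_ifs <;> simp

lemma blk_one : blk (fun _ : σ => (1 : Matrix τ τ ℂ)) = 1 := by
  ext a b
  simp only [blk, Matrix.one_apply]
  by_cases h1 : a.1 = b.1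
  · by_cases h2 : a.2 = b.2
    · have : a = b := Prod.ext h1 h2
      simp [this]
    · have : a ≠ b := fun h => h2 (by rw [h])
      simp [h1, h2, this]
  · have : a ≠ b := fun h => h1 (by rw [h])
    simp [h1, this]

lemma blk_herm {Q : σ → Matrix τ τ ℂ} (hQ : ∀ i, (Q i).IsHermitian) : (blk Q).IsHermitian := by
  ext a b
  simp only [conjTranspose_apply, blk]
  by_cases h1 : a.1 = b.1
  · rw [if_pos h1.symm, if_pos h1, h1]
    exact (hQ b.1).apply a.2 b.2
  · have h2 : ¬ b.1 = a.1 := fun h => h1 h.symm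
    simp [h1, h2]

lemma blk_psd {Q : σ → Matrix τ τ ℂ} (hQ : ∀ i, (Q i).PosSemidef) : (blk Q).PosSemidef := by
  choose T hT hTT using fun i => exists_sqrt (hQ i)
  have hh : (blk T)ᴴ = blk T := blk_herm (fun i => (hT i).1)
  have : blk Q = (blk T)ᴴ * blk T := by
    rw [hh, blk_mul]
    congr 1
    ext1 i
    exact (hTT i).symm
  rw [this]
  exact posSemidef_conjTranspose_mul_self _

lemma kerG_herm {h : σ → σ → ℝ} (hh : ∀ i j, h i j = h j i) :
    (kerG h : Matrix (σ × τ) (σ × τ) ℂ).IsHermitian := by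
  ext a b
  simp only [conjTranspose_apply, kerG]
  by_cases h1 : a.2 = b.2
  · have h2 : b.2 = a.2 := h1.symm
    simp [h1, hh a.1 b.1]
  · have h2 : ¬ b.2 = a.2 := fun h => h1 h.symm
    simp [h1, h2]

lemma kerG_add (h h' : σ → σ → ℝ) :
    (kerG h + kerG h' : Matrix (σ × τ) (σ × τ) ℂ) = kerG (fun i j => h i j + h' i j) := by
  ext a b
  simp only [Matrix.add_apply, kerG]
  split_ifs <;> simp

lemma kerG_sub (h h' : σ → σ → ℝ) :
    (kerG h - kerG h' : Matrix (σ × τ) (σ × τ) ℂ) = kerG (fun i j => h i j - h' i j) := by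
  ext a b
  simp only [Matrix.sub_apply, kerG]
  split_ifs <;> simp

lemma kerG_smul (c : ℝ) (h : σ → σ → ℝ) :
    ((c : ℂ) • kerG h : Matrix (σ × τ) (σ × τ) ℂ) = kerG (fun i j => c * h i j) := by
  ext a b
  simp only [Matrix.smul_apply, kerG, smul_eq_mul]
  split_ifs <;> simp

lemma kerG_delta :
    (kerG (fun i j => if i = j then 1 else 0) : Matrix (σ × τ) (σ × τ) ℂ) = 1 := by
  ext a b
  simp only [kerG, Matrix.one_apply]
  by_cases h1 : a.1 = b.1
  · by_cases h2 : a.2 = b.2
    · have : a = b := Prod.ext h1 h2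
      simp [this]
    · have : a ≠ b := fun h => h2 (by rw [h])
      simp [h2, this]
  · have : a ≠ b := fun h => h1 (by rw [h])
    simp [h1, this]

/-- A real positive semidefinite kernel gives a positive semidefinite matrix. -/
lemma kerG_psd {h : σ → σ → ℝ} (hh : ∀ i j, h i j = h j i)
    (hpos : ∀ u : σ → ℝ, 0 ≤ ∑ i, ∑ j, u i * u j * h i j) :
    (kerG h : Matrix (σ × τ) (σ × τ) ℂ).PosSemidef := by
  refine PosSemidef.of_dotProduct_mulVec_nonneg (kerG_herm hh) ?_
  intro v
  -- expand the form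
  have hform : star v ⬝ᵥ ((kerG h : Matrix (σ × τ) (σ × τ) ℂ) *ᵥ v) =
      ∑ α, ∑ i, ∑ j, (star (v (i, α)) * v (j, α)) * (h i j : ℂ) := by
    simp only [dotProduct, mulVec, Fintype.sum_prod_type, Pi.star_apply, kerG]
    rw [Finset.sum_comm]
    refine Finset.sum_congr rfl (fun α _ => ?_)
    refine Finset.sum_congr rfl (fun i _ => ?_)
    rw [Finset.mul_sum]
    refine Finset.sum_congr rfl (fun j _ => ?_)
    rw [Finset.sum_eq_single α]
    · simp; ring
    · intro β _ hβ
      have : ¬ α = β := fun h => hβ h.symm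
      simp [this]
    · simp
  rw [hform]
  refine Finset.sum_nonneg (fun α _ => ?_)
  -- for fixed `α`, split into real and imaginary parts
  have hre : ∀ (z w : ℂ) (r : ℝ), ((star z * w) * (r : ℂ)).re = (z.re * w.re + z.im * w.im) * r := by
    intro z w r
    simp only [Complex.mul_re, Complex.mul_im, Complex.ofReal_re, Complex.ofReal_im,
      Complex.star_def, Complex.conj_re, Complex.conj_im]
    ring
  have him : ∀ (z w : ℂ) (r : ℝ), ((star z * w) * (r : ℂ)).im = (z.re * w.im - z.im * w.re) * r := by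
    intro z w r
    simp only [Complex.mul_re, Complex.mul_im, Complex.ofReal_re, Complex.ofReal_im,
      Complex.star_def, Complex.conj_re, Complex.conj_im]
    ring
  have hsplit : ∑ i, ∑ j, (star (v (i, α)) * v (j, α)) * (h i j : ℂ) =
      (((∑ i, ∑ j, (v (i, α)).re * (v (j, α)).re * h i j) +
        (∑ i, ∑ j, (v (i, α)).im * (v (j, α)).im * h i j) : ℝ) : ℂ) := by
    apply Complex.ext
    · simp only [Complex.re_sum, Complex.ofReal_re, hre, ← Finset.sum_add_distrib]
      refine Finset.sum_congr rfl (fun i _ => Finset.sum_congr rfl (fun j _ => ?_))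
      ring
    · simp only [Complex.im_sum, Complex.ofReal_im, him]
      have hcancel : ∑ i, ∑ j, ((v (i, α)).re * (v (j, α)).im - (v (i, α)).im * (v (j, α)).re) * h i j
          = 0 := by
        have h1 : ∑ i, ∑ j, ((v (i, α)).re * (v (j, α)).im - (v (i, α)).im * (v (j, α)).re) * h i j =
            ∑ i, ∑ j, ((v (i, α)).re * (v (j, α)).im) * h i j -
              ∑ i, ∑ j, ((v (i, α)).im * (v (j, α)).re) * h i j := by
          simp only [sub_mul, Finset.sum_sub_distrib]
        rw [h1, sub_eq_zero, Finset.sum_comm]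
        refine Finset.sum_congr rfl (fun i _ => Finset.sum_congr rfl (fun j _ => ?_))
        rw [hh j i]
        ring
      exact hcancel
  rw [hsplit]
  have := add_nonneg (hpos (fun i => (v (i, α)).re)) (hpos (fun i => (v (i, α)).im))
  exact_mod_cast this

lemma dg_mul_blk (f : σ → ℝ) (Q : σ → Matrix τ τ ℂ) :
    (dg f : Matrix (σ × τ) (σ × τ) ℂ) * blk Q = blk Q * dg f := by
  ext a b
  simp only [dg, Matrix.diagonal_mul, Matrix.mul_diagonal, blk]
  by_cases h : a.1 = b.1
  · simp [h]; ring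
  · simp [h]

lemma dg_mul_kerG (f : σ → ℝ) (h : σ → σ → ℝ) :
    (dg f : Matrix (σ × τ) (σ × τ) ℂ) * kerG h = kerG (fun i j => f i * h i j) := by
  ext a b
  simp only [dg, Matrix.diagonal_mul, kerG]
  split_ifs <;> simp

lemma kerG_mul_dg (f : σ → ℝ) (h : σ → σ → ℝ) :
    (kerG h : Matrix (σ × τ) (σ × τ) ℂ) * dg f = kerG (fun i j => h i j * f j) := by
  ext a b
  simp only [dg, Matrix.mul_diagonal, kerG]
  split_ifs <;> simp

lemma dg_herm (f : σ → ℝ) : (dg f : Matrix (σ × τ) (σ × τ) ℂ).IsHermitian := by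
  ext a b
  simp only [conjTranspose_apply, dg, Matrix.diagonal_apply]
  by_cases h : a = b
  · simp [h]
  · have h' : ¬ b = a := fun e => h e.symm
    simp [h, h']

/-- The sum-of-squares identity for block conjugated kernels. -/
lemma sos_identity (f : σ → ℝ) (h : σ → σ → ℝ) (Q : σ → Matrix τ τ ℂ) :
    let Φ : Matrix (σ × τ) (σ × τ) ℂ := dg f
    let R : Matrix (σ × τ) (σ × τ) ℂ := blk Q
    let M : Matrix (σ × τ) (σ × τ) ℂ := R * kerG h * R
    Φ * Φ * M + M * (Φ * Φ) - (2:ℂ) • (Φ * M * Φ) =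
      R * kerG (fun i j => h i j * (f i - f j) ^ 2) * R := by
  intro Φ R M
  have hc : Φ * R = R * Φ := dg_mul_blk f Q
  have hc' : R * Φ = Φ * R := hc.symm
  have e1 : Φ * Φ * M = R * (Φ * (Φ * kerG h)) * R := by
    calc Φ * Φ * M = Φ * (Φ * R) * kerG h * R := by simp only [M, Matrix.mul_assoc]
      _ = Φ * (R * Φ) * kerG h * R := by rw [hc]
      _ = (Φ * R) * Φ * kerG h * R := by simp only [Matrix.mul_assoc]
      _ = (R * Φ) * Φ * kerG h * R := by rw [hc]
      _ = _ := by simp only [Matrix.mul_assoc]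
  have e2 : M * (Φ * Φ) = R * (kerG h * Φ * Φ) * R := by
    calc M * (Φ * Φ) = R * kerG h * (R * Φ) * Φ := by simp only [M, Matrix.mul_assoc]
      _ = R * kerG h * (Φ * R) * Φ := by rw [hc']
      _ = R * kerG h * Φ * (R * Φ) := by simp only [Matrix.mul_assoc]
      _ = R * kerG h * Φ * (Φ * R) := by rw [hc']
      _ = _ := by simp only [Matrix.mul_assoc]
  have e3 : Φ * M * Φ = R * (Φ * kerG h * Φ) * R := by
    calc Φ * M * Φ = (Φ * R) * kerG h * (R * Φ) := by simp only [M, Matrix.mul_assoc]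
      _ = (R * Φ) * kerG h * (Φ * R) := by rw [hc, hc']
      _ = _ := by simp only [Matrix.mul_assoc]
  have i1 : Φ * (Φ * (kerG h : Matrix (σ × τ) (σ × τ) ℂ)) = kerG (fun i j => f i * (f i * h i j)) := by
    simp only [Φ]
    rw [dg_mul_kerG, dg_mul_kerG]
  have i2 : (kerG h : Matrix (σ × τ) (σ × τ) ℂ) * Φ * Φ = kerG (fun i j => h i j * f j * f j) := by
    simp only [Φ]
    rw [kerG_mul_dg, kerG_mul_dg]
  have i3 : Φ * (kerG h : Matrix (σ × τ) (σ × τ) ℂ) * Φ = kerG (fun i j => f i * h i j * f j) := by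
    simp only [Φ]
    rw [dg_mul_kerG, kerG_mul_dg]
  rw [e1, e2, e3, i1, i2, i3]
  have i4 : kerG (fun i j => h i j * (f i - f j) ^ 2) =
      (kerG (fun i j => f i * (f i * h i j)) + kerG (fun i j => h i j * f j * f j) -
        (2:ℂ) • kerG (fun i j => f i * h i j * f j) : Matrix (σ × τ) (σ × τ) ℂ) := by
    have : (2:ℂ) = ((2:ℝ):ℂ) := by norm_num
    rw [this, kerG_smul, kerG_add, kerG_sub]
    congr 1
    ext i j
    ring
  rw [i4]
  simp only [Matrix.mul_add, Matrix.add_mul, Matrix.mul_sub, Matrix.sub_mul, Matrix.mul_smul,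
    Matrix.smul_mul]

/-- coefficient of the linear functional `h ↦ Tr (Z * kerG h)` -/
noncomputable def zeta (Z : Matrix (σ × τ) (σ × τ) ℂ) (i j : σ) : ℝ :=
  (∑ α, Z (j, α) (i, α)).re

lemma rtr_mul_kerG (Z : Matrix (σ × τ) (σ × τ) ℂ) (h : σ → σ → ℝ) :
    rtr (Z * kerG h) = ∑ i, ∑ j, zeta Z i j * h i j := by
  have hent : ∀ (j : σ) (α : τ), (Z * (kerG h : Matrix (σ × τ) (σ × τ) ℂ)) (j, α) (j, α) =
      ∑ i, Z (j, α) (i, α) * ((h i j : ℝ) : ℂ) := by
    intro j α
    rw [Matrix.mul_apply, Fintype.sum_prod_type]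
    refine Finset.sum_congr rfl (fun i _ => ?_)
    rw [Finset.sum_eq_single α]
    · simp [kerG]
    · intro β _ hβ
      simp [kerG, hβ]
    · simp
  have htr : Matrix.trace (Z * (kerG h : Matrix (σ × τ) (σ × τ) ℂ)) =
      ∑ j, ∑ α, ∑ i, Z (j, α) (i, α) * ((h i j : ℝ) : ℂ) := by
    simp only [Matrix.trace, Matrix.diag_apply, Fintype.sum_prod_type, hent]
  unfold rtr zeta
  rw [htr]
  simp only [Complex.re_sum, Complex.re_mul_ofReal, Finset.sum_mul]
  calc ∑ j, ∑ α, ∑ i, (Z (j, α) (i, α)).re * h i j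
      = ∑ j, ∑ i, ∑ α, (Z (j, α) (i, α)).re * h i j := by
        refine Finset.sum_congr rfl (fun j _ => Finset.sum_comm)
    _ = _ := Finset.sum_comm

lemma rtr_kerG_mul_blk (h : σ → σ → ℝ) (Q : σ → Matrix τ τ ℂ) :
    rtr ((kerG h : Matrix (σ × τ) (σ × τ) ℂ) * blk Q) = ∑ i, h i i * rtr (Q i) := by
  have hent : ∀ (i : σ) (α : τ), ((kerG h : Matrix (σ × τ) (σ × τ) ℂ) * blk Q) (i, α) (i, α) =
      ((h i i : ℝ) : ℂ) * Q i α α := by
    intro i α
    rw [Matrix.mul_apply, Fintype.sum_prod_type, Finset.sum_eq_single i]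
    · rw [Finset.sum_eq_single α]
      · simp [kerG, blk]
      · intro β _ hβ
        have : ¬ α = β := fun h => hβ h.symm
        simp [kerG, this]
      · simp
    · intro j _ hj
      refine Finset.sum_eq_zero (fun β _ => ?_)
      simp [blk, hj]
    · simp
  have htr : Matrix.trace ((kerG h : Matrix (σ × τ) (σ × τ) ℂ) * blk Q) =
      ∑ i, ((h i i : ℝ) : ℂ) * Matrix.trace (Q i) := by
    simp only [Matrix.trace, Matrix.diag_apply, Fintype.sum_prod_type, hent, Finset.mul_sum]
  unfold rtr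
  rw [htr, Complex.re_sum]
  simp only [Complex.re_ofReal_mul]

/-- Trace of the block matrix equals the sum of the traces. -/
lemma rtr_blk (Q : σ → Matrix τ τ ℂ) :
    rtr (blk Q : Matrix (σ × τ) (σ × τ) ℂ) = ∑ i, rtr (Q i) := by
  have htr : Matrix.trace (blk Q : Matrix (σ × τ) (σ × τ) ℂ) = ∑ i, Matrix.trace (Q i) := by
    simp [Matrix.trace, Fintype.sum_prod_type, blk]
  unfold rtr
  rw [htr, Complex.re_sum]

end Vale.Agent.P371
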