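import Vale.Agent.Lib.P371.Const

/-!
The allocation function and the final scalar inequality.
-/

set_option linter.unusedSectionVars false
set_option linter.unusedSimpArgs false
set_option linter.unusedVariables false

open MeasureTheory Set Filter Topology
open scoped Real

namespace Vale.Agent.P371

/-- The scaling parameter `s = 2γ/(2γ-1)`. -/
noncomputable def sPar (γ : ℝ) : ℝ := 2 * γ / (2 * γ - 1)

/-- The exponent `a = 1/(2p) = 1/(2γ+1)`. -/
noncomputable def aPar (γ : ℝ) : ℝ := 1 / (2 * (γ + 1 / 2))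

/-- The Beta integral value `π a / sin (π a)`. -/
noncomputable def JJ (γ : ℝ) : ℝ := π * aPar γ / Real.sin (π * aPar γ)

/-- The allocation density. -/
noncomputable def cHat (γ t : ℝ) : ℝ :=
  (((γ - 1 / 2) / (γ + 1 / 2)) / JJ γ) * ((1 - t) / t) ^ aPar γ

/-- The layer function for an eigenvalue `w`. -/
noncomputable def Bb (γ w κ : ℝ) : ℝ :=
  (1 / π) * ∫ t in Ioo (0:ℝ) 1, nn t * max (w - (sPar γ * κ) ^ 2 * cHat γ t) 0

/-- The constant of the theorem. -/
noncomputable def Cst (γ : ℝ) : ℝ :=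
  (1 / π) * γ ^ (1 - 2 * γ) * ((γ + 1 / 2) * (γ - 1 / 2)) ^ (γ - 1 / 2) *
    (π / (2 * (γ + 1 / 2) * Real.sin (π / (2 * (γ + 1 / 2))))) ^ (γ + 1 / 2)

section
variable {γ : ℝ} (hγ : 1 / 2 < γ)
include hγ

lemma aPar_pos : 0 < aPar γ := by
  unfold aPar
  have : 0 < 2 * (γ + 1 / 2) := by linarith
  positivity

lemma aPar_lt_half : aPar γ < 1 / 2 := by
  unfold aPar
  rw [div_lt_iff₀ (by linarith)]
  linarith

lemma JJ_pos : 0 < JJ γ := by
  unfold JJ
  have h0 := aPar_pos hγ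
  have h1 := aPar_lt_half hγ
  have hs : 0 < Real.sin (π * aPar γ) := by
    apply Real.sin_pos_of_pos_of_lt_pi
    · positivity
    · nlinarith [Real.pi_pos]
  positivity

lemma sPar_pos : 0 < sPar γ := by
  unfold sPar
  have : 0 < 2 * γ - 1 := by linarith
  have h2 : 0 < 2 * γ := by linarith
  positivity

lemma beta_JJ :
    IntegrableOn (fun t : ℝ => ((1 - t) / t) ^ aPar γ) (Ioo 0 1) ∧
    ∫ t in Ioo (0:ℝ) 1, ((1 - t) / t) ^ aPar γ = JJ γ :=
  beta_real (aPar_pos hγ) (by linarith [aPar_lt_half hγ])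

lemma cHat_nonneg {t : ℝ} (ht : t ∈ Ioo (0:ℝ) 1) : 0 ≤ cHat γ t := by
  unfold cHat
  have hJ := JJ_pos hγ
  have h1 : 0 < γ - 1 / 2 := by linarith
  have h2 : 0 < γ + 1 / 2 := by linarith
  have h3 : 0 < (1 - t) / t := div_pos (by linarith [ht.2]) ht.1
  positivity

lemma cHat_pos {t : ℝ} (ht : t ∈ Ioo (0:ℝ) 1) : 0 < cHat γ t := by
  unfold cHat
  have hJ := JJ_pos hγ
  have h1 : 0 < γ - 1 / 2 := by linarith
  have h2 : 0 < γ + 1 / 2 := by linarith
  have h3 : 0 < (1 - t) / t := div_pos (by linarith [ht.2]) ht.1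
  positivity

lemma measurable_cHat : Measurable (cHat γ) := by
  unfold cHat
  fun_prop

lemma cHat_integrableOn : IntegrableOn (cHat γ) (Ioo 0 1) :=
  (beta_JJ hγ).1.const_mul _

lemma cHat_integral : ∫ t in Ioo (0:ℝ) 1, cHat γ t = (γ - 1 / 2) / (γ + 1 / 2) := by
  unfold cHat
  rw [integral_const_mul, (beta_JJ hγ).2]
  have hJ := (JJ_pos hγ).ne'
  field_simp

/-- integrability of the layer integrand -/
lemma layer_integrable {w : ℝ} (hw : 0 ≤ w) (x : ℝ) :
    IntegrableOn (fun t => nn t * max (w - x * cHat γ t) 0) (Ioo 0 1) ∨ x < 0 := by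
  by_cases hx : x < 0
  · exact Or.inr hx
  left
  rw [not_lt] at hx
  have hm : Measurable (fun t => nn t * max (w - x * cHat γ t) 0) := by
    have := measurable_cHat hγ
    have := measurable_nn
    fun_prop
  refine Integrable.mono' (integrableOn_nn.mul_const w) hm.aestronglyMeasurable ?_
  refine (ae_restrict_iff' measurableSet_Ioo).mpr (Eventually.of_forall (fun t ht => ?_))
  have h0 := cHat_nonneg hγ ht
  have h1 : max (w - x * cHat γ t) 0 ≤ w := max_le (by nlinarith [mul_nonneg hx h0]) hw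
  rw [Real.norm_of_nonneg (mul_nonneg (nn_nonneg t) (le_max_right _ _))]
  exact mul_le_mul_of_nonneg_left h1 (nn_nonneg t)

lemma layer_integrable' {w : ℝ} (hw : 0 ≤ w) {x : ℝ} (hx : 0 ≤ x) :
    IntegrableOn (fun t => nn t * max (w - x * cHat γ t) 0) (Ioo 0 1) := by
  rcases layer_integrable hγ hw x with h | h
  · exact h
  · exact absurd h (not_lt.mpr hx)

/-- Continuity of `Bb` in the spectral parameter. -/
lemma Bb_continuous {w : ℝ} (hw : 0 ≤ w) : Continuous (fun κ => Bb γ w κ) := by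
  unfold Bb
  apply Continuous.mul continuous_const
  refine continuous_of_dominated (bound := fun t => nn t * w) ?_ ?_ ?_ ?_
  · intro κ
    have := measurable_cHat hγ
    have := measurable_nn
    apply Measurable.aestronglyMeasurable
    fun_prop
  · intro κ
    refine (ae_restrict_iff' measurableSet_Ioo).mpr (Eventually.of_forall (fun t ht => ?_))
    have h0 := cHat_nonneg hγ ht
    have hx : 0 ≤ (sPar γ * κ) ^ 2 := sq_nonneg _
    have h1 : max (w - (sPar γ * κ) ^ 2 * cHat γ t) 0 ≤ w :=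
      max_le (by nlinarith [mul_nonneg hx h0]) hw
    rw [Real.norm_of_nonneg (mul_nonneg (nn_nonneg t) (le_max_right _ _))]
    exact mul_le_mul_of_nonneg_left h1 (nn_nonneg t)
  · exact integrableOn_nn.mul_const w
  · refine Eventually.of_forall (fun t => ?_)
    fun_prop

/-- Pointwise algebra of powers in the layer variable. -/
lemma nn_mul_cHat_rpow {t : ℝ} (ht : t ∈ Ioo (0:ℝ) 1) :
    nn t * ((sPar γ) ^ 2 * cHat γ t) ^ (1 / 2 - γ) =
      (sPar γ) ^ (1 - 2 * γ) *
        ((((γ - 1 / 2) / (γ + 1 / 2)) / JJ γ) ^ (1 / 2 - γ) * ((1 - t) / t) ^ aPar γ) := by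
  have hs := sPar_pos hγ
  have hJ := JJ_pos hγ
  have h1 : 0 < γ - 1 / 2 := by linarith
  have h2 : 0 < γ + 1 / 2 := by linarith
  have hq : 0 < ((γ - 1 / 2) / (γ + 1 / 2)) / JJ γ := by positivity
  have hr : 0 < (1 - t) / t := div_pos (by linarith [ht.2]) ht.1
  unfold cHat
  rw [nn_eq_rpow, Real.mul_rpow (by positivity) (by positivity),
    Real.mul_rpow hq.le (by positivity), ← Real.rpow_mul hr.le]
  have e1 : ((sPar γ) ^ 2) ^ (1 / 2 - γ) = (sPar γ) ^ (1 - 2 * γ) := by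
    rw [← Real.rpow_natCast, ← Real.rpow_mul hs.le]
    congr 1
    push_cast
    ring
  have e2 : ((1 - t) / t) ^ (1 / 2 : ℝ) * ((1 - t) / t) ^ (aPar γ * (1 / 2 - γ)) =
      ((1 - t) / t) ^ aPar γ := by
    rw [← Real.rpow_add hr]
    congr 1
    unfold aPar
    have : γ + 1 / 2 ≠ 0 := h2.ne'
    field_simp
    ring
  rw [e1, ← e2]
  ring

/-- The constant identity. -/
lemma const_eq :
    2 * γ * (γ + 1 / 2) * (1 / (sPar γ * π)) *
      ((sPar γ) ^ (1 - 2 * γ) *
        (((((γ - 1 / 2) / (γ + 1 / 2)) / JJ γ) ^ (1 / 2 - γ)) * JJ γ)) /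
        (2 * (γ + 1 / 2) * (γ + 1 / 2 - 1)) = Cst γ := by
  have hJ := JJ_pos hγ
  have h0 : 0 < γ := by linarith
  have h1 : 0 < γ - 1 / 2 := by linarith
  have h2 : 0 < γ + 1 / 2 := by linarith
  have hπ := Real.pi_pos
  have hs : sPar γ = γ / (γ - 1 / 2) := by
    unfold sPar
    have : 2 * γ - 1 ≠ 0 := by linarith
    have h3 : γ - 1 / 2 ≠ 0 := h1.ne'
    field_simp
  have hJJ : π / (2 * (γ + 1 / 2) * Real.sin (π / (2 * (γ + 1 / 2)))) = JJ γ := by
    unfold JJ aPar
    have e : π * (1 / (2 * (γ + 1 / 2))) = π / (2 * (γ + 1 / 2)) := by ring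
    rw [e, div_div]
  unfold Cst
  rw [hJJ, hs]
  have e1 : γ + 1 / 2 - 1 = γ - 1 / 2 := by ring
  rw [e1]
  -- take logarithms of the positive quantities
  set J := JJ γ with hJdef
  set P := γ - 1 / 2 with hP
  set Q := γ + 1 / 2 with hQ
  have hQP : Q = P + 1 := by simp only [hP, hQ]; ring
  have hγP : γ = P + 1 / 2 := by simp only [hP]; ring
  have e2 : (γ / P) ^ (1 - 2 * γ) = γ ^ (1 - 2 * γ) * P ^ (2 * γ - 1) := by
    rw [Real.div_rpow h0.le h1.le, div_eq_mul_inv, ← Real.rpow_neg h1.le]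
    congr 2
    ring
  have e3 : ((P / Q) / J) ^ (1 / 2 - γ) = P ^ (-P) * Q ^ P * J ^ P := by
    have : (1 / 2 - γ) = -P := by simp only [hP]; ring
    rw [this, Real.div_rpow (by positivity) hJ.le, Real.div_rpow h1.le h2.le,
      Real.rpow_neg hJ.le, Real.rpow_neg h2.le, Real.rpow_neg h1.le]
    field_simp
  have e4 : (Q * P) ^ P = Q ^ P * P ^ P := Real.mul_rpow h2.le h1.le
  have e5 : J ^ Q = J ^ P * J := by
    rw [hQP, Real.rpow_add hJ, Real.rpow_one]
  have e6 : P ^ (2 * γ - 1) = P ^ P * P ^ P := by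
    rw [← Real.rpow_add h1]
    congr 1
    simp only [hP]
    ring
  have e7 : P ^ (-P) = (P ^ P)⁻¹ := Real.rpow_neg h1.le P
  rw [e2, e3, e4, e5, e6, e7]
  have hPP : 0 < P ^ P := Real.rpow_pos_of_pos h1 _
  have hQQ : 0 < Q ^ P := Real.rpow_pos_of_pos h2 _
  have hJP : 0 < J ^ P := Real.rpow_pos_of_pos hJ _
  have hγγ : 0 < γ ^ (1 - 2 * γ) := Real.rpow_pos_of_pos h0 _
  field_simp

/-- **Final scalar inequality.** -/
theorem Bb_integral {w a b : ℝ} (hw : 0 ≤ w) (ha : 0 < a) (hab : a ≤ b) :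
    2 * γ * (γ + 1 / 2) * ∫ κ in a..b, κ ^ (2 * γ - 1) * ((1 / (sPar γ * κ)) * Bb γ w κ) ≤
      Cst γ * w ^ (γ + 1 / 2) := by
  set p := γ + 1 / 2 with hp
  have hp1 : 1 < p := by simp only [hp]; linarith
  have hs := sPar_pos hγ
  have hπ := Real.pi_pos
  have h0γ : 0 < γ := by linarith
  set s := sPar γ with hsdef
  set f : ℝ → ℝ → ℝ := fun κ t => κ ^ (2 * p - 3) * (nn t * max (w - (s * κ) ^ 2 * cHat γ t) 0)
    with hf
  have hexp : 2 * p - 3 = 2 * γ - 2 := by simp only [hp]; ring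
  -- rewrite the integrand
  have h1 : ∫ κ in a..b, κ ^ (2 * γ - 1) * ((1 / (s * κ)) * Bb γ w κ) =
      (1 / (s * π)) * ∫ κ in Ioc a b, ∫ t in Ioo (0:ℝ) 1, f κ t := by
    rw [intervalIntegral.integral_of_le hab, ← integral_const_mul]
    refine setIntegral_congr_fun measurableSet_Ioc (fun κ hκ => ?_)
    have hκ0 : 0 < κ := ha.trans hκ.1
    simp only [hf, Bb]
    rw [integral_const_mul]
    have e : κ ^ (2 * γ - 1) = κ ^ (2 * p - 3) * κ := by
      rw [hexp, ← Real.rpow_add_one hκ0.ne']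
      congr 1
      ring
    rw [e, ← hsdef]
    have : s ≠ 0 := hs.ne'
    field_simp
  -- Fubini
  obtain ⟨Bnd, hBnd0, hBnd⟩ : ∃ Bnd : ℝ, 0 ≤ Bnd ∧ ∀ κ ∈ Ioc a b, κ ^ (2 * p - 3) ≤ Bnd := by
    have hb0 : 0 < b := ha.trans_le hab
    refine ⟨a ^ (2 * p - 3) + b ^ (2 * p - 3), by positivity, fun κ hκ => ?_⟩
    have hκ0 : 0 < κ := ha.trans hκ.1
    have hb0 : 0 < b := hκ0.trans_le hκ.2
    rcases le_total 0 (2 * p - 3) with he | he
    · have := Real.rpow_le_rpow hκ0.le hκ.2 he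
      have h3 : 0 ≤ a ^ (2 * p - 3) := by positivity
      linarith
    · have := Real.rpow_le_rpow_of_nonpos ha hκ.1.le he
      have h3 : 0 ≤ b ^ (2 * p - 3) := by positivity
      linarith
  have hfint : Integrable (Function.uncurry f)
      ((volume.restrict (Ioc a b)).prod (volume.restrict (Ioo (0:ℝ) 1))) := by
    have hg : Integrable (fun q : ℝ × ℝ => Bnd * (nn q.2 * w))
        ((volume.restrict (Ioc a b)).prod (volume.restrict (Ioo (0:ℝ) 1))) := by
      have := ((integrableOn_nn.mul_const w).const_mul Bnd)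
      exact Integrable.comp_snd this (volume.restrict (Ioc a b))
    refine hg.mono' ?_ ?_
    · apply Measurable.aestronglyMeasurable
      have := measurable_cHat hγ
      have := measurable_nn
      simp only [hf, Function.uncurry_def]
      apply Measurable.mul
      · exact (measurable_fst).pow_const _
      · apply Measurable.mul
        · exact measurable_nn.comp measurable_snd
        · fun_prop
    · rw [Measure.prod_restrict]
      refine (ae_restrict_iff' (measurableSet_Ioc.prod measurableSet_Ioo)).mpr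
        (Eventually.of_forall (fun q hq => ?_))
      obtain ⟨hq1, hq2⟩ := hq
      simp only [Function.uncurry, hf]
      have hκ0 : 0 < q.1 := ha.trans hq1.1
      have h0 := cHat_nonneg hγ hq2
      have hx : 0 ≤ (s * q.1) ^ 2 := sq_nonneg _
      have h2 : max (w - (s * q.1) ^ 2 * cHat γ q.2) 0 ≤ w :=
        max_le (by nlinarith [mul_nonneg hx h0]) hw
      have h3 : 0 ≤ nn q.2 * max (w - (s * q.1) ^ 2 * cHat γ q.2) 0 :=
        mul_nonneg (nn_nonneg _) (le_max_right _ _)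
      have h4 : 0 ≤ q.1 ^ (2 * p - 3) := by positivity
      rw [Real.norm_of_nonneg (mul_nonneg h4 h3)]
      calc _ ≤ Bnd * (nn q.2 * max (w - (s * q.1) ^ 2 * cHat γ q.2) 0) :=
            mul_le_mul_of_nonneg_right (hBnd _ hq1) h3
        _ ≤ _ := mul_le_mul_of_nonneg_left (mul_le_mul_of_nonneg_left h2 (nn_nonneg _)) hBnd0
  have hswap := integral_integral_swap (f := f) hfint
  -- inner integral bound
  have hinner : ∀ t ∈ Ioo (0:ℝ) 1, ∫ κ in Ioc a b, f κ t ≤
      nn t * (w ^ p * (s ^ 2 * cHat γ t) ^ (1 - p) / (2 * p * (p - 1))) := by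
    intro t ht
    have hc := cHat_pos hγ ht
    have hcc : 0 < s ^ 2 * cHat γ t := by positivity
    have hk := kappa_integral hp1 hw hcc ha hab
    rw [intervalIntegral.integral_of_le hab] at hk
    have e : ∀ κ, f κ t = nn t * (κ ^ (2 * p - 3) * max (w - s ^ 2 * cHat γ t * κ ^ 2) 0) := by
      intro κ
      simp only [hf]
      have : (s * κ) ^ 2 * cHat γ t = s ^ 2 * cHat γ t * κ ^ 2 := by ring
      rw [this]
      ring
    simp only [e]
    rw [integral_const_mul]
    exact mul_le_mul_of_nonneg_left hk (nn_nonneg t)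
  -- integrability of the outer functions
  have houter1 : IntegrableOn (fun t => ∫ κ in Ioc a b, f κ t) (Ioo (0:ℝ) 1) := by
    have := hfint.integral_prod_right
    exact this
  have hval : ∀ t ∈ Ioo (0:ℝ) 1,
      nn t * (w ^ p * (s ^ 2 * cHat γ t) ^ (1 - p) / (2 * p * (p - 1))) =
        (w ^ p / (2 * p * (p - 1))) * (s ^ (1 - 2 * γ) *
          ((((γ - 1 / 2) / (γ + 1 / 2)) / JJ γ) ^ (1 / 2 - γ) * ((1 - t) / t) ^ aPar γ)) := by
    intro t ht
    have e : (1 - p) = 1 / 2 - γ := by simp only [hp]; ring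
    have := nn_mul_cHat_rpow hγ ht
    rw [e, ← hsdef] at *
    calc nn t * (w ^ p * (s ^ 2 * cHat γ t) ^ (1 / 2 - γ) / (2 * p * (p - 1)))
        = (w ^ p / (2 * p * (p - 1))) * (nn t * (s ^ 2 * cHat γ t) ^ (1 / 2 - γ)) := by ring
      _ = _ := by rw [this]
  have hJi := (beta_JJ hγ).1
  have hRint : IntegrableOn (fun t => (w ^ p / (2 * p * (p - 1))) * (s ^ (1 - 2 * γ) *
      ((((γ - 1 / 2) / (γ + 1 / 2)) / JJ γ) ^ (1 / 2 - γ) * ((1 - t) / t) ^ aPar γ))) (Ioo 0 1) :=
    ((hJi.const_mul _).const_mul _).const_mul _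
  have hmono : ∫ t in Ioo (0:ℝ) 1, ∫ κ in Ioc a b, f κ t ≤
      ∫ t in Ioo (0:ℝ) 1, (w ^ p / (2 * p * (p - 1))) * (s ^ (1 - 2 * γ) *
        ((((γ - 1 / 2) / (γ + 1 / 2)) / JJ γ) ^ (1 / 2 - γ) * ((1 - t) / t) ^ aPar γ)) := by
    refine setIntegral_mono_on houter1 hRint measurableSet_Ioo (fun t ht => ?_)
    rw [← hval t ht]
    exact hinner t ht
  rw [integral_const_mul, integral_const_mul, integral_const_mul, (beta_JJ hγ).2] at hmono
  rw [h1, hswap]
  -- final arithmetic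
  have hfin := const_eq hγ
  rw [← hsdef] at hfin
  rw [← hfin]
  have hpos : 0 ≤ 2 * γ * p * (1 / (s * π)) := by positivity
  have := mul_le_mul_of_nonneg_left hmono hpos
  calc 2 * γ * p * ((1 / (s * π)) * ∫ t in Ioo (0:ℝ) 1, ∫ κ in Ioc a b, f κ t)
      = 2 * γ * p * (1 / (s * π)) * ∫ t in Ioo (0:ℝ) 1, ∫ κ in Ioc a b, f κ t := by ring
    _ ≤ _ := this
    _ = _ := by
      simp only [hp]
      ring

end

end Vale.Agent.P371
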