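import Mathlib

/-!
A comparison principle based on left slopes, and the counting function `T`.
-/

set_option linter.unusedSectionVars false
set_option linter.unusedSimpArgs false
set_option linter.unusedVariables false

open MeasureTheory Set Filter Topology
open scoped Real

namespace Vale.Agent.P371

/-- If the left slopes of a continuous function `Θ` are controlled by `ρ`
(through a differentiable majorant of the increments), then `Θ b - Θ a ≤ ∫ ρ`. -/
theorem left_dini {Θ ρ : ℝ → ℝ} {a b : ℝ} (hab : a ≤ b) (hΘ : ContinuousOn Θ (Icc a b))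
    (hρ : Continuous ρ)
    (h : ∀ κ ∈ Ioc a b, ∃ (G : ℝ → ℝ) (G' : ℝ), HasDerivWithinAt G G' (Iic κ) κ ∧ G' ≤ ρ κ ∧
      ∀ t ∈ Ico a κ, Θ κ - Θ t ≤ G κ - G t) :
    Θ b - Θ a ≤ ∫ κ in a..b, ρ κ := by
  set f : ℝ → ℝ := fun u => -Θ (-u) with hf
  have hcf : ContinuousOn f (Icc (-b) (-a)) := by
    apply ContinuousOn.neg
    apply hΘ.comp continuousOn_neg
    intro u hu
    constructor
    · linarith [hu.2]
    · linarith [hu.1]
  have hρ' : Continuous (fun v => ρ (-v)) := hρ.comp continuous_neg
  set B : ℝ → ℝ := fun u => f (-b) + ∫ v in (-b)..u, ρ (-v) with hB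
  have hBder : ∀ u, HasDerivAt B (ρ (-u)) u := by
    intro u
    have := (hρ'.integral_hasStrictDerivAt (-b) u).hasDerivAt
    exact this.const_add _
  have hBc : ContinuousOn B (Icc (-b) (-a)) :=
    fun u _ => (hBder u).continuousAt.continuousWithinAt
  have hmain := image_le_of_liminf_slope_right_le_deriv_boundary (f := f) (a := -b) (b := -a)
    (B := B) (B' := fun u => ρ (-u)) hcf (by simp [hB]) hBc
    (fun u _ => (hBder u).hasDerivWithinAt) ?_
  · have h1 := hmain (right_mem_Icc.mpr (by linarith : -b ≤ -a))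
    simp only [hf, hB, neg_neg] at h1
    have h2 : ∫ v in (-b)..(-a), ρ (-v) = ∫ κ in a..b, ρ κ := by
      rw [intervalIntegral.integral_comp_neg]
      simp
    rw [h2] at h1
    linarith
  · intro u hu r hr
    have hκ : -u ∈ Ioc a b := by
      constructor
      · linarith [hu.2]
      · linarith [hu.1]
    obtain ⟨G, G', hG, hG', hle⟩ := h (-u) hκ
    have hlt : G' < r := lt_of_le_of_lt hG' hr
    rw [hasDerivWithinAt_iff_tendsto_slope, Iic_sdiff_right] at hG
    have h1 : Tendsto (fun z => slope G (-u) (-z)) (𝓝[>] u) (𝓝 G') :=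
      hG.comp tendsto_neg_nhdsGT
    have h2 : ∀ᶠ z in 𝓝[>] u, slope G (-u) (-z) < r :=
      h1.eventually (gt_mem_nhds hlt)
    have h3 : ∀ᶠ z in 𝓝[>] u, z ∈ Ioo u (-a) := Ioo_mem_nhdsGT hu.2
    have h4 : ∀ᶠ z in 𝓝[>] u, slope f u z < r := by
      filter_upwards [h2, h3] with z hz1 hz2
      have hzu : 0 < z - u := by linarith [hz2.1]
      have ht : -z ∈ Ico a (-u) := by
        constructor
        · linarith [hz2.2]
        · linarith [hz2.1]
      have hb := hle (-z) ht
      have e1 : slope f u z = (Θ (-u) - Θ (-z)) / (z - u) := by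
        rw [slope_def_field]
        simp only [hf]
        congr 1
        ring
      have e2 : slope G (-u) (-z) = (G (-u) - G (-z)) / (z - u) := by
        rw [slope_def_field]
        have hne : z - u ≠ 0 := hzu.ne'
        have hne' : -z - -u ≠ 0 := by
          intro h0
          apply hne
          linarith
        field_simp
        ring
      rw [e1]
      rw [e2] at hz1
      refine lt_of_le_of_lt ?_ hz1
      exact div_le_div_of_nonneg_right hb hzu.le
    exact h4.frequently

/-- The function `T(κ) = ∑ min (τ_j, κ)^{2γ}`. -/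
noncomputable def TT {n : ℕ} (τ : Fin n → ℝ) (e : ℝ) (κ : ℝ) : ℝ :=
  ∑ j, (min (τ j) κ) ^ e

/-- Left derivative of the counting function. -/
lemma TT_hasDerivWithinAt {n : ℕ} (τ : Fin n → ℝ) {e κ : ℝ} (hκ : 0 < κ) :
    HasDerivWithinAt (TT τ e) (e * κ ^ (e - 1) *
      ((Finset.univ.filter fun j => κ ≤ τ j).card : ℝ)) (Iic κ) κ := by
  classical
  have hcount : e * κ ^ (e - 1) * ((Finset.univ.filter fun j => κ ≤ τ j).card : ℝ) =
      ∑ j, (if κ ≤ τ j then e * κ ^ (e - 1) else 0) := by
    rw [Finset.sum_ite]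
    simp [mul_comm]
  rw [hcount]
  unfold TT
  apply HasDerivWithinAt.fun_sum
  intro j _
  have hne : κ ≠ 0 := hκ.ne'
  have hd : HasDerivAt (fun t : ℝ => t ^ e) (e * κ ^ (e - 1)) κ :=
    Real.hasDerivAt_rpow_const (Or.inl hne)
  by_cases hj : κ ≤ τ j
  · rw [if_pos hj]
    refine hd.hasDerivWithinAt.congr (fun t ht => ?_) ?_
    · have : t ≤ τ j := (show t ≤ κ from ht).trans hj
      rw [min_eq_right this]
    · rw [min_eq_right hj]
  · rw [if_neg hj]
    rw [not_le] at hj
    have hc : HasDerivAt (fun t : ℝ => (min (τ j) t) ^ e) 0 κ := by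
      have hev : (fun t : ℝ => (min (τ j) t) ^ e) =ᶠ[𝓝 κ] fun _ => (τ j) ^ e := by
        filter_upwards [Ioi_mem_nhds hj] with t ht
        have : τ j ≤ t := le_of_lt ht
        rw [min_eq_left this]
      exact (hasDerivAt_const κ ((τ j) ^ e)).congr_of_eventuallyEq hev
    exact hc.hasDerivWithinAt

lemma TT_continuous {n : ℕ} (τ : Fin n → ℝ) {e : ℝ} (he : 0 ≤ e) (hτ : ∀ j, 0 ≤ τ j) :
    ContinuousOn (TT τ e) (Ioi 0) := by
  unfold TT
  apply continuousOn_finset_sum
  intro j _
  intro κ hκ
  apply ContinuousAt.continuousWithinAt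
  have hκ' : 0 < κ := hκ
  apply ContinuousAt.rpow_const
  · exact Continuous.continuousAt (by fun_prop)
  · right; exact he

end Vale.Agent.P371
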