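import Vale.Agent.Lib.P371.Scalar

/-!
Explicit integrals: the power integral in the spectral parameter and the Beta integral.
-/

set_option linter.unusedSectionVars false
set_option linter.unusedSimpArgs false
set_option linter.unusedVariables false

open MeasureTheory Set Filter Topology
open scoped Real

namespace Vale.Agent.P371

/-- Integral in the spectral parameter of the positive part. -/
lemma kappa_integral {p w c a b : ℝ} (hp : 1 < p) (hw : 0 ≤ w) (hc : 0 < c) (ha : 0 < a)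
    (hab : a ≤ b) :
    ∫ κ in a..b, κ ^ (2 * p - 3) * max (w - c * κ ^ 2) 0 ≤
      w ^ p * c ^ (1 - p) / (2 * p * (p - 1)) := by
  have hp0 : 0 < p := by linarith
  have hp1 : 0 < p - 1 := by linarith
  have hRHS : 0 ≤ w ^ p * c ^ (1 - p) / (2 * p * (p - 1)) := by positivity
  set f : ℝ → ℝ := fun κ => κ ^ (2 * p - 3) * max (w - c * κ ^ 2) 0 with hf
  have hfcontOn : ∀ u v : ℝ, 0 < u → u ≤ v → IntervalIntegrable f volume u v := by
    intro u v hu huv
    apply ContinuousOn.intervalIntegrable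
    rw [uIcc_of_le huv]
    intro κ hκ
    have hκ0 : κ ≠ 0 := (lt_of_lt_of_le hu hκ.1).ne'
    apply ContinuousAt.continuousWithinAt
    have h1 : ContinuousAt (fun κ : ℝ => κ ^ (2 * p - 3)) κ :=
      Real.continuousAt_rpow_const _ _ (Or.inl hκ0)
    have h2 : ContinuousAt (fun κ : ℝ => max (w - c * κ ^ 2) 0) κ := by
      apply Continuous.continuousAt
      fun_prop
    exact h1.mul h2
  have hfnonneg : ∀ κ, 0 < κ → 0 ≤ f κ := by
    intro κ hκ
    simp only [hf]
    exact mul_nonneg (Real.rpow_nonneg hκ.le _) (le_max_right _ _)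
  by_cases hcase : w ≤ c * a ^ 2
  · have hzero : ∫ κ in a..b, f κ = 0 := by
      apply intervalIntegral.integral_zero_ae
      refine Eventually.of_forall (fun κ hκ => ?_)
      rw [uIoc_of_le hab] at hκ
      have h1 : a < κ := hκ.1
      have h2 : w - c * κ ^ 2 ≤ 0 := by
        have : a ^ 2 ≤ κ ^ 2 := pow_le_pow_left₀ ha.le h1.le 2
        nlinarith
      simp only [hf, max_eq_right h2, mul_zero]
    rw [hzero]
    exact hRHS
  · rw [not_le] at hcase
    have hw0 : 0 < w := lt_trans (by positivity) hcase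
    set κ₀ := Real.sqrt (w / c) with hκ₀
    have hq : 0 < w / c := div_pos hw0 hc
    have hκ₀pos : 0 < κ₀ := Real.sqrt_pos.mpr hq
    have hκ₀sq : κ₀ ^ 2 = w / c := Real.sq_sqrt hq.le
    have hcκ : c * κ₀ ^ 2 = w := by
      rw [hκ₀sq]; field_simp
    have haκ : a < κ₀ := by
      have : a ^ 2 < κ₀ ^ 2 := by
        rw [hκ₀sq, lt_div_iff₀ hc]
        linarith
      exact lt_of_pow_lt_pow_left₀ 2 hκ₀pos.le this
    set b₁ := max b κ₀ with hb₁
    have hbb₁ : b ≤ b₁ := le_max_left _ _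
    have hκb₁ : κ₀ ≤ b₁ := le_max_right _ _
    have hab₁ : a ≤ b₁ := hab.trans hbb₁
    -- enlarge the interval
    have h1 : ∫ κ in a..b, f κ ≤ ∫ κ in a..b₁, f κ := by
      rw [intervalIntegral.integral_of_le hab, intervalIntegral.integral_of_le hab₁]
      apply setIntegral_mono_set
      · exact (hfcontOn a b₁ ha hab₁).1
      · refine (ae_restrict_iff' measurableSet_Ioc).mpr (Eventually.of_forall (fun κ hκ => ?_))
        exact hfnonneg κ (ha.trans hκ.1)
      · exact (Ioc_subset_Ioc_right hbb₁).eventuallyLE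
    -- split at κ₀
    have h2 : ∫ κ in κ₀..b₁, f κ = 0 := by
      apply intervalIntegral.integral_zero_ae
      refine Eventually.of_forall (fun κ hκ => ?_)
      rw [uIoc_of_le hκb₁] at hκ
      have h1 : κ₀ < κ := hκ.1
      have h2 : w - c * κ ^ 2 ≤ 0 := by
        have : κ₀ ^ 2 ≤ κ ^ 2 := pow_le_pow_left₀ hκ₀pos.le h1.le 2
        nlinarith
      simp only [hf, max_eq_right h2, mul_zero]
    have h3 : ∫ κ in a..b₁, f κ = ∫ κ in a..κ₀, f κ := by
      rw [← intervalIntegral.integral_add_adjacent_intervals (hfcontOn a κ₀ ha haκ.le)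
        (hfcontOn κ₀ b₁ hκ₀pos hκb₁), h2, add_zero]
    -- primitive
    set H : ℝ → ℝ := fun κ => w * κ ^ (2 * p - 2) / (2 * p - 2) - c * κ ^ (2 * p) / (2 * p) with hH
    have hder : ∀ κ ∈ uIcc a κ₀, HasDerivAt H (f κ) κ := by
      intro κ hκ
      rw [uIcc_of_le haκ.le] at hκ
      have hκpos : 0 < κ := lt_of_lt_of_le ha hκ.1
      have hκne : κ ≠ 0 := hκpos.ne'
      have d1 : HasDerivAt (fun κ : ℝ => κ ^ (2 * p - 2)) ((2 * p - 2) * κ ^ (2 * p - 2 - 1)) κ :=
        Real.hasDerivAt_rpow_const (Or.inl hκne)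
      have d2 : HasDerivAt (fun κ : ℝ => κ ^ (2 * p)) ((2 * p) * κ ^ (2 * p - 1)) κ :=
        Real.hasDerivAt_rpow_const (Or.inl hκne)
      have d3 : HasDerivAt H _ κ :=
        ((d1.const_mul w).div_const (2 * p - 2)).sub ((d2.const_mul c).div_const (2 * p))
      refine d3.congr_deriv ?_
      simp only [hf]
      have hle : c * κ ^ 2 ≤ w := by
        have : κ ^ 2 ≤ κ₀ ^ 2 := pow_le_pow_left₀ hκpos.le hκ.2 2
        nlinarith
      rw [max_eq_left (by linarith)]
      have e1 : κ ^ (2 * p - 2 - 1) = κ ^ (2 * p - 3) := by ring_nf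
      have e2 : κ ^ (2 * p - 1) = κ ^ (2 * p - 3) * κ ^ 2 := by
        rw [← Real.rpow_natCast κ 2, ← Real.rpow_add hκpos]
        congr 1
        push_cast
        ring
      rw [e1, e2]
      have h2p : 2 * p - 2 ≠ 0 := by linarith
      have h2p' : 2 * p ≠ 0 := by linarith
      field_simp
    have h4 : ∫ κ in a..κ₀, f κ = H κ₀ - H a :=
      intervalIntegral.integral_eq_sub_of_hasDerivAt hder (hfcontOn a κ₀ ha haκ.le)
    have h5 : 0 ≤ H a := by
      simp only [hH]
      have e1 : a ^ (2 * p) = a ^ (2 * p - 2) * a ^ 2 := by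
        rw [← Real.rpow_natCast a 2, ← Real.rpow_add ha]
        congr 1
        push_cast
        ring
      rw [e1]
      have hapos : 0 < a ^ (2 * p - 2) := Real.rpow_pos_of_pos ha _
      have e2 : w * a ^ (2 * p - 2) / (2 * p - 2) - c * (a ^ (2 * p - 2) * a ^ 2) / (2 * p) =
          a ^ (2 * p - 2) * (w / (2 * p - 2) - (c * a ^ 2) / (2 * p)) := by
        ring
      rw [e2]
      apply mul_nonneg hapos.le
      have e3 : (c * a ^ 2) / (2 * p) ≤ w / (2 * p) :=
        div_le_div_of_nonneg_right hcase.le (by linarith)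
      have e4 : w / (2 * p) ≤ w / (2 * p - 2) :=
        div_le_div_of_nonneg_left hw0.le (by linarith) (by linarith)
      linarith
    have h6 : H κ₀ = w ^ p * c ^ (1 - p) / (2 * p * (p - 1)) := by
      simp only [hH]
      have e1 : κ₀ ^ (2 * p - 2) = (w / c) ^ (p - 1) := by
        rw [hκ₀, Real.sqrt_eq_rpow, ← Real.rpow_mul hq.le]
        congr 1
        ring
      have e2 : κ₀ ^ (2 * p) = (w / c) ^ p := by
        rw [hκ₀, Real.sqrt_eq_rpow, ← Real.rpow_mul hq.le]
        congr 1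
        ring
      rw [e1, e2, Real.div_rpow hw0.le hc.le, Real.div_rpow hw0.le hc.le]
      have e3 : w ^ p = w * w ^ (p - 1) := by
        rw [Real.rpow_sub hw0, Real.rpow_one]
        field_simp
      have e4 : c ^ (1 - p) = c / c ^ p := by
        rw [Real.rpow_sub hc, Real.rpow_one]
      have e5 : c ^ (p - 1) = c ^ p / c := by
        rw [Real.rpow_sub hc, Real.rpow_one]
      rw [e4, e5, e3]
      have hcp : c ^ p ≠ 0 := (Real.rpow_pos_of_pos hc p).ne'
      have hcne : c ≠ 0 := hc.ne'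
      have h2p : 2 * p - 2 ≠ 0 := by linarith
      have h2p' : 2 * p ≠ 0 := by linarith
      have hp1' : p - 1 ≠ 0 := hp1.ne'
      field_simp
      ring
    calc ∫ κ in a..b, f κ ≤ ∫ κ in a..b₁, f κ := h1
      _ = H κ₀ - H a := by rw [h3, h4]
      _ ≤ H κ₀ := by linarith
      _ = _ := h6

/-- The Beta integral. -/
theorem beta_real {a : ℝ} (h0 : 0 < a) (h1 : a < 1) :
    IntegrableOn (fun t : ℝ => ((1 - t) / t) ^ a) (Ioo 0 1) ∧
    ∫ t in Ioo (0:ℝ) 1, ((1 - t) / t) ^ a = π * a / Real.sin (π * a) := by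
  set u : ℂ := ((1 - a : ℝ) : ℂ) with hu
  set v : ℂ := ((1 + a : ℝ) : ℂ) with hv
  have hure : 0 < u.re := by simp [hu]; linarith
  have hvre : 0 < v.re := by simp [hv]; linarith
  have hconv := Complex.betaIntegral_convergent hure hvre
  -- pointwise identification
  have hpt : ∀ x ∈ Ioo (0:ℝ) 1, (x : ℂ) ^ (u - 1) * (1 - (x : ℂ)) ^ (v - 1) =
      ((((1 - x) / x) ^ a : ℝ) : ℂ) := by
    intro x hx
    have hx0 : 0 < x := hx.1
    have hx1 : 0 < 1 - x := by linarith [hx.2]
    have e1 : u - 1 = ((-a : ℝ) : ℂ) := by simp [hu]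
    have e2 : v - 1 = ((a : ℝ) : ℂ) := by simp [hv]
    have e3 : (1 - (x : ℂ)) = ((1 - x : ℝ) : ℂ) := by simp
    rw [e1, e2, e3, ← Complex.ofReal_cpow hx0.le, ← Complex.ofReal_cpow hx1.le, ← Complex.ofReal_mul,
      Real.div_rpow hx1.le hx0.le, Real.rpow_neg hx0.le]
    congr 1
    field_simp
  have hconvIoo : IntegrableOn (fun x : ℝ => (x : ℂ) ^ (u - 1) * (1 - (x : ℂ)) ^ (v - 1)) (Ioo 0 1) := by
    have := (intervalIntegrable_iff_integrableOn_Ioo_of_le (by norm_num : (0:ℝ) ≤ 1)).mp hconv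
    exact this
  have hint : IntegrableOn (fun t : ℝ => ((((1 - t) / t) ^ a : ℝ) : ℂ)) (Ioo 0 1) :=
    hconvIoo.congr_fun hpt measurableSet_Ioo
  have hint' : IntegrableOn (fun t : ℝ => ((1 - t) / t) ^ a) (Ioo 0 1) := by
    have h2 : Integrable (fun t : ℝ => (((((1 - t) / t) ^ a : ℝ) : ℂ)).re)
        (volume.restrict (Ioo 0 1)) := hint.re
    exact (by simpa only [Complex.ofReal_re] using h2 :
      Integrable (fun t : ℝ => ((1 - t) / t) ^ a) (volume.restrict (Ioo 0 1)))
  refine ⟨hint', ?_⟩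
  have hB : Complex.betaIntegral u v = ((∫ t in Ioo (0:ℝ) 1, ((1 - t) / t) ^ a : ℝ) : ℂ) := by
    unfold Complex.betaIntegral
    rw [intervalIntegral.integral_of_le (by norm_num : (0:ℝ) ≤ 1), integral_Ioc_eq_integral_Ioo,
      setIntegral_congr_fun measurableSet_Ioo hpt]
    exact integral_ofReal
  have hG := Complex.Gamma_mul_Gamma_eq_betaIntegral hure hvre
  have huv : u + v = 2 := by
    simp only [hu, hv]; push_cast; ring
  have hG2 : Complex.Gamma 2 = 1 := by
    have := Complex.Gamma_nat_eq_factorial 1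
    simp at this
    simpa using this
  rw [huv, hG2, one_mul, hB] at hG
  have hane : (a : ℂ) ≠ 0 := by exact_mod_cast h0.ne'
  have hv' : v = (a : ℂ) + 1 := by simp only [hv]; push_cast; ring
  have hu' : u = 1 - (a : ℂ) := by rw [hu]; push_cast; ring
  rw [hv', Complex.Gamma_add_one _ hane, hu'] at hG
  have hrefl := Complex.Gamma_mul_Gamma_one_sub (a : ℂ)
  have hfin : ((∫ t in Ioo (0:ℝ) 1, ((1 - t) / t) ^ a : ℝ) : ℂ) = (a : ℂ) * (π / Complex.sin (π * a)) := by
    rw [← hG, ← hrefl]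
    ring
  have hsin : Complex.sin ((π : ℂ) * (a : ℂ)) = ((Real.sin (π * a) : ℝ) : ℂ) := by
    push_cast; rfl
  rw [hsin] at hfin
  have : ((∫ t in Ioo (0:ℝ) 1, ((1 - t) / t) ^ a : ℝ) : ℂ) = ((π * a / Real.sin (π * a) : ℝ) : ℂ) := by
    rw [hfin]
    push_cast
    ring
  exact_mod_cast this

/-- The function `nn` is the square root power. -/
lemma nn_eq_rpow {t : ℝ} : nn t = ((1 - t) / t) ^ (1 / 2 : ℝ) := by
  unfold nn
  rw [Real.sqrt_eq_rpow]

lemma integrableOn_nn : IntegrableOn nn (Ioo 0 1) := by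
  have := (beta_real (a := 1 / 2) (by norm_num) (by norm_num)).1
  exact this.congr_fun (fun t _ => nn_eq_rpow.symm) measurableSet_Ioo

end Vale.Agent.P371
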