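import Mathlib

/-!
The reproducing kernel inequality on the line, with explicit Green function.
-/

set_option linter.unusedSectionVars false
set_option linter.unusedSimpArgs false
set_option linter.unusedVariables false

open MeasureTheory Set Filter Topology
open scoped Real

namespace Vale.Agent.P371

/-- Green function of `-d²/dy² + κ²` on the line. -/
noncomputable def gk (κ z : ℝ) : ℝ := Real.exp (-κ * |z|) / (2 * κ)

/-- Almost everywhere derivative of the Green function. -/
noncomputable def gd (κ z : ℝ) : ℝ := if 0 < z then -Real.exp (-κ * z) / 2 else Real.exp (κ * z) / 2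

lemma gk_measurable (κ : ℝ) : Measurable (gk κ) := by
  unfold gk
  fun_prop

lemma gd_measurable (κ : ℝ) : Measurable (gd κ) := by
  unfold gd
  exact Measurable.ite measurableSet_Ioi (by fun_prop) (by fun_prop)

lemma gk_abs_le {κ : ℝ} (hκ : 0 < κ) (z : ℝ) : |gk κ z| ≤ Real.exp (-κ * |z|) / (2 * κ) := by
  unfold gk
  rw [abs_of_nonneg (by positivity)]

lemma gd_abs_le {κ : ℝ} (hκ : 0 < κ) (z : ℝ) : |gd κ z| ≤ Real.exp (-κ * |z|) / 2 := by
  unfold gd
  split_ifs with h
  · rw [abs_of_pos h, neg_div, abs_neg, abs_of_nonneg (by positivity)]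
  · rw [not_lt] at h
    rw [abs_of_nonpos h, abs_of_nonneg (by positivity)]
    apply le_of_eq
    congr 2
    ring

lemma exp_abs_le_one {κ : ℝ} (hκ : 0 < κ) (z : ℝ) : Real.exp (-κ * |z|) ≤ 1 := by
  rw [Real.exp_le_one_iff]
  have := mul_nonneg hκ.le (abs_nonneg z)
  linarith

lemma integrable_exp_abs_shift {κ : ℝ} (hκ : 0 < κ) (a : ℝ) :
    Integrable (fun y : ℝ => Real.exp (-κ * |y - a|)) := by
  have h1 : IntegrableOn (fun y : ℝ => Real.exp (-κ * |y - a|)) (Iic a) := by
    have : IntegrableOn (fun y : ℝ => Real.exp (κ * a * (-1)) * Real.exp (κ * y)) (Iic a) :=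
      (integrableOn_exp_mul_Iic hκ a).const_mul (Real.exp (κ * a * (-1)))
    refine this.congr_fun (fun y hy => ?_) measurableSet_Iic
    have hy' : y ≤ a := hy
    simp only
    rw [abs_of_nonpos (by linarith), ← Real.exp_add]
    congr 1
    ring
  have h2 : IntegrableOn (fun y : ℝ => Real.exp (-κ * |y - a|)) (Ioi a) := by
    have : IntegrableOn (fun y : ℝ => Real.exp (κ * a) * Real.exp (-κ * y)) (Ioi a) :=
      (integrableOn_exp_mul_Ioi (a := -κ) (by linarith) a).const_mul (Real.exp (κ * a))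
    refine this.congr_fun (fun y hy => ?_) measurableSet_Ioi
    have hy' : a < y := hy
    simp only
    rw [abs_of_pos (by linarith), ← Real.exp_add]
    congr 1
    ring
  have := h1.union h2
  rwa [Iic_union_Ioi, integrableOn_univ] at this

/-- Integrability of products of Green functions and their derivatives. -/
lemma integrable_gk_gk {κ : ℝ} (hκ : 0 < κ) (a c : ℝ) :
    Integrable (fun y : ℝ => gk κ (y - a) * gk κ (y - c)) := by
  have hb := (integrable_exp_abs_shift hκ a).const_mul (1 / (2 * κ) * (1 / (2 * κ)))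
  refine hb.mono' ?_ (Eventually.of_forall (fun y => ?_))
  · apply Measurable.aestronglyMeasurable
    have := gk_measurable κ
    fun_prop
  · rw [Real.norm_eq_abs, abs_mul]
    have h1 := gk_abs_le hκ (y - a)
    have h2 := gk_abs_le hκ (y - c)
    have h3 := exp_abs_le_one hκ (y - c)
    have h4 : Real.exp (-κ * |y - c|) / (2 * κ) ≤ 1 / (2 * κ) :=
      div_le_div_of_nonneg_right h3 (by positivity)
    calc |gk κ (y - a)| * |gk κ (y - c)|
        ≤ (Real.exp (-κ * |y - a|) / (2 * κ)) * (1 / (2 * κ)) :=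
          mul_le_mul h1 (h2.trans h4) (abs_nonneg _) (by positivity)
      _ = _ := by ring

lemma integrable_gd_gd {κ : ℝ} (hκ : 0 < κ) (a c : ℝ) :
    Integrable (fun y : ℝ => gd κ (y - a) * gd κ (y - c)) := by
  have hb := (integrable_exp_abs_shift hκ a).const_mul (1 / 2 * (1 / 2))
  refine hb.mono' ?_ (Eventually.of_forall (fun y => ?_))
  · apply Measurable.aestronglyMeasurable
    have := gd_measurable κ
    fun_prop
  · rw [Real.norm_eq_abs, abs_mul]
    have h1 := gd_abs_le hκ (y - a)
    have h2 := gd_abs_le hκ (y - c)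
    have h3 := exp_abs_le_one hκ (y - c)
    have h4 : Real.exp (-κ * |y - c|) / 2 ≤ 1 / 2 :=
      div_le_div_of_nonneg_right h3 (by positivity)
    calc |gd κ (y - a)| * |gd κ (y - c)|
        ≤ (Real.exp (-κ * |y - a|) / 2) * (1 / 2) :=
          mul_le_mul h1 (h2.trans h4) (abs_nonneg _) (by positivity)
      _ = _ := by ring

/-- Energy pairing of two Green functions, `a ≤ c`. -/
lemma green_energy_aux {κ : ℝ} (hκ : 0 < κ) {a c : ℝ} (hac : a ≤ c) :
    ∫ y, (gd κ (y - a) * gd κ (y - c) + κ ^ 2 * (gk κ (y - a) * gk κ (y - c))) = gk κ (a - c) := by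
  set f : ℝ → ℝ := fun y => gd κ (y - a) * gd κ (y - c) + κ ^ 2 * (gk κ (y - a) * gk κ (y - c)) with hf
  have hint : Integrable f :=
    (integrable_gd_gd hκ a c).add ((integrable_gk_gk hκ a c).const_mul _)
  have hκ' : κ ≠ 0 := hκ.ne'
  have r1 : ∀ y ∈ Iic a, f y = (1 / 2 * Real.exp (-κ * (a + c))) * Real.exp ((2 * κ) * y) := by
    intro y hy
    have hy' : y ≤ a := hy
    have hy2 : y ≤ c := hy'.trans hac
    simp only [hf, gd, gk]
    rw [if_neg (by linarith), if_neg (by linarith), abs_of_nonpos (by linarith),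
      abs_of_nonpos (by linarith)]
    have e1 : Real.exp (κ * (y - a)) * Real.exp (κ * (y - c)) =
        Real.exp (-κ * (a + c)) * Real.exp ((2 * κ) * y) := by
      rw [← Real.exp_add, ← Real.exp_add]; congr 1; ring
    have e2 : Real.exp (-κ * -(y - a)) = Real.exp (κ * (y - a)) := by congr 1; ring
    have e3 : Real.exp (-κ * -(y - c)) = Real.exp (κ * (y - c)) := by congr 1; ring
    rw [e2, e3]
    calc _ = (1 / 2) * (Real.exp (κ * (y - a)) * Real.exp (κ * (y - c))) := by
          field_simp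
          ring
      _ = _ := by rw [e1]; ring
  have r2 : ∀ y ∈ Ioc a c, f y = 0 := by
    intro y hy
    have hy1 : a < y := hy.1
    have hy2 : y ≤ c := hy.2
    simp only [hf, gd, gk]
    rw [if_pos (by linarith), if_neg (by linarith), abs_of_pos (by linarith),
      abs_of_nonpos (by linarith)]
    have e3 : Real.exp (-κ * -(y - c)) = Real.exp (κ * (y - c)) := by congr 1; ring
    rw [e3]
    field_simp
    ring
  have r3 : ∀ y ∈ Ioi c, f y = (1 / 2 * Real.exp (κ * (a + c))) * Real.exp ((-(2 * κ)) * y) := by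
    intro y hy
    have hy2 : c < y := hy
    have hy1 : a < y := lt_of_le_of_lt hac hy2
    simp only [hf, gd, gk]
    rw [if_pos (by linarith), if_pos (by linarith), abs_of_pos (by linarith),
      abs_of_pos (by linarith)]
    have e1 : Real.exp (-κ * (y - a)) * Real.exp (-κ * (y - c)) =
        Real.exp (κ * (a + c)) * Real.exp ((-(2 * κ)) * y) := by
      rw [← Real.exp_add, ← Real.exp_add]; congr 1; ring
    calc _ = (1 / 2) * (Real.exp (-κ * (y - a)) * Real.exp (-κ * (y - c))) := by
          field_simp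
          ring
      _ = _ := by rw [e1]; ring
  have h2κ : 0 < 2 * κ := by positivity
  have v1 : ∫ y in Iic a, f y = Real.exp (-κ * (c - a)) / (4 * κ) := by
    rw [setIntegral_congr_fun measurableSet_Iic r1, integral_const_mul,
      integral_exp_mul_Iic h2κ a]
    have : Real.exp (-κ * (a + c)) * Real.exp (2 * κ * a) = Real.exp (-κ * (c - a)) := by
      rw [← Real.exp_add]; congr 1; ring
    calc _ = (1 / 2) * ((Real.exp (-κ * (a + c)) * Real.exp (2 * κ * a)) / (2 * κ)) := by ring
      _ = _ := by rw [this]; field_simp; ring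
  have v3 : ∫ y in Ioi c, f y = Real.exp (-κ * (c - a)) / (4 * κ) := by
    rw [setIntegral_congr_fun measurableSet_Ioi r3, integral_const_mul,
      integral_exp_mul_Ioi (by linarith : -(2 * κ) < 0) c]
    have : Real.exp (κ * (a + c)) * Real.exp (-(2 * κ) * c) = Real.exp (-κ * (c - a)) := by
      rw [← Real.exp_add]; congr 1; ring
    calc _ = (1 / 2) * ((Real.exp (κ * (a + c)) * Real.exp (-(2 * κ) * c)) / (2 * κ)) := by
          field_simp
      _ = _ := by rw [this]; field_simp; ring
  have v2 : ∫ y in Ioc a c, f y = 0 := by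
    rw [setIntegral_congr_fun measurableSet_Ioc r2]
    simp
  have hsplit : ∫ y, f y = (∫ y in Iic a, f y) + ((∫ y in Ioc a c, f y) + ∫ y in Ioi c, f y) := by
    rw [← setIntegral_union (Ioc_disjoint_Ioi le_rfl) measurableSet_Ioi hint.integrableOn
      hint.integrableOn, Ioc_union_Ioi_eq_Ioi hac,
      intervalIntegral.integral_Iic_add_Ioi hint.integrableOn hint.integrableOn]
  rw [hsplit, v1, v2, v3]
  unfold gk
  rw [abs_of_nonpos (by linarith)]
  have : Real.exp (-κ * -(a - c)) = Real.exp (-κ * (c - a)) := by congr 1; ring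
  rw [this]
  field_simp
  ring

/-- Energy pairing of two Green functions. -/
theorem green_energy {κ : ℝ} (hκ : 0 < κ) (a c : ℝ) :
    ∫ y, (gd κ (y - a) * gd κ (y - c) + κ ^ 2 * (gk κ (y - a) * gk κ (y - c))) = gk κ (a - c) := by
  rcases le_total a c with h | h
  · exact green_energy_aux hκ h
  · have := green_energy_aux hκ h
    have e : gk κ (a - c) = gk κ (c - a) := by
      unfold gk
      rw [abs_sub_comm]
    rw [e, ← this]
    refine integral_congr_ae (Eventually.of_forall (fun y => ?_))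
    simp only
    ring

/-- The representation formula: pairing a Green function with a compactly supported function. -/
theorem green_repr {κ : ℝ} (hκ : 0 < κ) {φ φ' : ℝ → ℂ} (hd : ∀ y, HasDerivAt φ (φ' y) y)
    (hc' : Continuous φ') {R : ℝ} (hsupp : ∀ y, R ≤ |y| → φ y = 0) (hsupp' : ∀ y, R ≤ |y| → φ' y = 0)
    {a : ℝ} (ha : |a| < R) :
    Integrable (fun y => ((gd κ (y - a) : ℝ) : ℂ) * φ' y + ((κ ^ 2 * gk κ (y - a) : ℝ) : ℂ) * φ y) ∧
    ∫ y, (((gd κ (y - a) : ℝ) : ℂ) * φ' y + ((κ ^ 2 * gk κ (y - a) : ℝ) : ℂ) * φ y) = φ a := by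
  have hκ' : κ ≠ 0 := hκ.ne'
  have hc : Continuous φ := continuous_iff_continuousAt.mpr (fun y => (hd y).continuousAt)
  have hR : 0 < R := lt_of_le_of_lt (abs_nonneg a) ha
  have ha1 : -R < a := (abs_lt.mp ha).1
  have ha2 : a < R := (abs_lt.mp ha).2
  have hcs : HasCompactSupport φ := by
    apply HasCompactSupport.intro (isCompact_Icc (a := -R) (b := R))
    intro y hy
    apply hsupp
    by_contra hlt
    rw [not_le, abs_lt] at hlt
    exact hy ⟨hlt.1.le, hlt.2.le⟩
  have hcs' : HasCompactSupport φ' := by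
    apply HasCompactSupport.intro (isCompact_Icc (a := -R) (b := R))
    intro y hy
    apply hsupp'
    by_contra hlt
    rw [not_le, abs_lt] at hlt
    exact hy ⟨hlt.1.le, hlt.2.le⟩
  have hi1 : Integrable φ := hc.integrable_of_hasCompactSupport hcs
  have hi2 : Integrable φ' := hc'.integrable_of_hasCompactSupport hcs'
  set f : ℝ → ℂ := fun y => ((gd κ (y - a) : ℝ) : ℂ) * φ' y + ((κ ^ 2 * gk κ (y - a) : ℝ) : ℂ) * φ y
    with hf
  have hfint : Integrable f := by
    apply Integrable.add
    · refine hi2.bdd_mul (c := 1) ?_ (Eventually.of_forall (fun y => ?_))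
      · apply Measurable.aestronglyMeasurable
        have := gd_measurable κ
        fun_prop
      · rw [Complex.norm_real, Real.norm_eq_abs]
        have h1 := gd_abs_le hκ (y - a)
        have h3 := exp_abs_le_one hκ (y - a)
        linarith
    · refine hi1.bdd_mul (c := κ ^ 2 * (1 / (2 * κ))) ?_ (Eventually.of_forall (fun y => ?_))
      · apply Measurable.aestronglyMeasurable
        have := gk_measurable κ
        fun_prop
      · rw [Complex.norm_real, Real.norm_eq_abs, abs_mul, abs_of_nonneg (sq_nonneg κ)]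
        have h1 := gk_abs_le hκ (y - a)
        have h3 := exp_abs_le_one hκ (y - a)
        have h4 : Real.exp (-κ * |y - a|) / (2 * κ) ≤ 1 / (2 * κ) :=
          div_le_div_of_nonneg_right h3 (by positivity)
        exact mul_le_mul_of_nonneg_left (h1.trans h4) (sq_nonneg κ)
  refine ⟨hfint, ?_⟩
  -- reduce to the interval
  have hzero : ∀ y, y ∉ Ioc (-R) R → f y = 0 := by
    intro y hy
    have hyR : R ≤ |y| := by
      by_contra hlt
      rw [not_le, abs_lt] at hlt
      exact hy ⟨hlt.1, hlt.2.le⟩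
    simp only [hf]
    rw [hsupp y hyR, hsupp' y hyR]
    ring
  rw [← setIntegral_eq_integral_of_forall_compl_eq_zero hzero,
    ← intervalIntegral.integral_of_le (by linarith : -R ≤ R)]
  have hfi : ∀ u v : ℝ, IntervalIntegrable f volume u v := fun u v => hfint.intervalIntegrable
  rw [← intervalIntegral.integral_add_adjacent_intervals (hfi (-R) a) (hfi a R)]
  -- left part
  have hleft : ∫ y in (-R)..a, f y = φ a / 2 := by
    set F : ℝ → ℂ := fun y => ((Real.exp (κ * (y - a)) / 2 : ℝ) : ℂ) * φ y with hF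
    have hder : ∀ y, HasDerivAt F
        (((κ * (Real.exp (κ * (y - a)) / 2) : ℝ) : ℂ) * φ y +
          ((Real.exp (κ * (y - a)) / 2 : ℝ) : ℂ) * φ' y) y := by
      intro y
      have d1 : HasDerivAt (fun y : ℝ => Real.exp (κ * (y - a)) / 2)
          (κ * (Real.exp (κ * (y - a)) / 2)) y := by
        have h0 : HasDerivAt (fun y : ℝ => κ * (y - a)) κ y := by
          simpa using ((hasDerivAt_id y).sub_const a).const_mul κ
        have := (h0.exp).div_const 2
        refine this.congr_deriv ?_
        ring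
      exact (d1.ofReal_comp).mul (hd y)
    have hcongr : ∫ y in (-R)..a, f y = ∫ y in (-R)..a, (((κ * (Real.exp (κ * (y - a)) / 2) : ℝ) : ℂ) * φ y +
          ((Real.exp (κ * (y - a)) / 2 : ℝ) : ℂ) * φ' y) := by
      apply intervalIntegral.integral_congr
      intro y hy
      rw [uIcc_of_le ha1.le] at hy
      have hy' : y ≤ a := hy.2
      simp only [hf, gd, gk]
      rw [if_neg (by linarith), abs_of_nonpos (by linarith)]
      have e : Real.exp (-κ * -(y - a)) = Real.exp (κ * (y - a)) := by congr 1; ring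
      rw [e]
      have e2 : κ ^ 2 * (Real.exp (κ * (y - a)) / (2 * κ)) = κ * (Real.exp (κ * (y - a)) / 2) := by
        field_simp
      rw [e2]
      ring
    rw [hcongr, intervalIntegral.integral_eq_sub_of_hasDerivAt (fun y _ => hder y)
      (by
        apply Continuous.intervalIntegrable
        fun_prop)]
    simp only [hF]
    have hneg : φ (-R) = 0 := hsupp (-R) (by rw [abs_neg, abs_of_pos hR])
    rw [hneg, mul_zero, sub_zero, sub_self, mul_zero, Real.exp_zero]
    push_cast
    ring
  -- right part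
  have hright : ∫ y in a..R, f y = φ a / 2 := by
    set F : ℝ → ℂ := fun y => ((-(Real.exp (-κ * (y - a)) / 2) : ℝ) : ℂ) * φ y with hF
    have hder : ∀ y, HasDerivAt F
        (((κ * (Real.exp (-κ * (y - a)) / 2) : ℝ) : ℂ) * φ y +
          ((-(Real.exp (-κ * (y - a)) / 2) : ℝ) : ℂ) * φ' y) y := by
      intro y
      have d1 : HasDerivAt (fun y : ℝ => -(Real.exp (-κ * (y - a)) / 2))
          (κ * (Real.exp (-κ * (y - a)) / 2)) y := by
        have h0 : HasDerivAt (fun y : ℝ => -κ * (y - a)) (-κ) y := by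
          simpa using ((hasDerivAt_id y).sub_const a).const_mul (-κ)
        have := ((h0.exp).div_const 2).neg
        refine this.congr_deriv ?_
        ring
      exact (d1.ofReal_comp).mul (hd y)
    have hcongr : ∫ y in a..R, f y = ∫ y in a..R, (((κ * (Real.exp (-κ * (y - a)) / 2) : ℝ) : ℂ) * φ y +
          ((-(Real.exp (-κ * (y - a)) / 2) : ℝ) : ℂ) * φ' y) := by
      rw [intervalIntegral.integral_of_le ha2.le, intervalIntegral.integral_of_le ha2.le]
      refine setIntegral_congr_fun measurableSet_Ioc (fun y hy => ?_)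
      have hy' : a < y := hy.1
      simp only [hf, gd, gk]
      rw [if_pos (by linarith), abs_of_pos (by linarith)]
      have e2 : κ ^ 2 * (Real.exp (-κ * (y - a)) / (2 * κ)) = κ * (Real.exp (-κ * (y - a)) / 2) := by
        field_simp
      rw [e2, neg_div]
      ring
    rw [hcongr, intervalIntegral.integral_eq_sub_of_hasDerivAt (fun y _ => hder y)
      (by
        apply Continuous.intervalIntegrable
        fun_prop)]
    simp only [hF]
    have hpos : φ R = 0 := hsupp R (by rw [abs_of_pos hR])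
    rw [hpos, mul_zero, sub_self, mul_zero, Real.exp_zero, zero_sub]
    push_cast
    ring
  rw [hleft, hright]
  ring

/-- An abstract Cauchy-Schwarz inequality from nonnegativity of a quadratic polynomial. -/
lemma cs_quadratic {A G : ℝ} {X : ℂ} (hG : 0 ≤ G)
    (h : ∀ t : ℂ, 0 ≤ A - 2 * (star t * X).re + ‖t‖ ^ 2 * G) : ‖X‖ ^ 2 ≤ A * G := by
  rcases hG.eq_or_lt with h0 | hpos
  · subst h0
    have hX : X = 0 := by
      by_contra hne
      have hnorm : 0 < ‖X‖ ^ 2 := by
        have := norm_pos_iff.mpr hne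
        positivity
      have h1 := h (((A + 1) / (2 * ‖X‖ ^ 2) : ℝ) * X)
      have e : (star (((A + 1) / (2 * ‖X‖ ^ 2) : ℝ) * X) * X).re = (A + 1) / 2 := by
        rw [star_mul', Complex.star_def, Complex.conj_ofReal, mul_assoc,
          Complex.conj_mul', Complex.re_ofReal_mul]
        have : (((‖X‖ : ℂ) ^ 2).re) = ‖X‖ ^ 2 := by
          rw [← Complex.ofReal_pow, Complex.ofReal_re]
        rw [this]
        field_simp
      rw [e] at h1
      simp only [mul_zero, add_zero] at h1
      linarith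
    simp [hX]
  · have h1 := h (((1 / G : ℝ) : ℂ) * X)
    have e : (star (((1 / G : ℝ) : ℂ) * X) * X).re = ‖X‖ ^ 2 / G := by
      rw [star_mul', Complex.star_def, Complex.conj_ofReal, mul_assoc,
        Complex.conj_mul', Complex.re_ofReal_mul]
      have : (((‖X‖ : ℂ) ^ 2).re) = ‖X‖ ^ 2 := by
        rw [← Complex.ofReal_pow, Complex.ofReal_re]
      rw [this]
      field_simp
    have e2 : ‖((1 / G : ℝ) : ℂ) * X‖ ^ 2 * G = ‖X‖ ^ 2 / G := by
      rw [norm_mul, Complex.norm_real, Real.norm_eq_abs, abs_of_pos (by positivity)]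
      field_simp
    rw [e, e2] at h1
    have h2 : ‖X‖ ^ 2 / G ≤ A := by linarith
    rwa [div_le_iff₀ hpos] at h2


section vec

variable {σ τ : Type*} [Fintype σ] [Fintype τ] [DecidableEq σ] [DecidableEq τ]

/-- Expansion of the square norm of a combination with real coefficients. -/
lemma norm_sq_sum_real (b : σ → ℂ) (g : σ → ℝ) :
    ‖∑ i, b i * (g i : ℂ)‖ ^ 2 = ∑ i, ∑ j, (star (b i) * b j).re * (g i * g j) := by
  have hre : (∑ i, b i * (g i : ℂ)).re = ∑ i, (b i).re * g i := by
    simp [Complex.re_sum]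
  have him : (∑ i, b i * (g i : ℂ)).im = ∑ i, (b i).im * g i := by
    simp [Complex.im_sum]
  rw [Complex.sq_norm, Complex.normSq_apply, hre, him, Finset.sum_mul_sum, Finset.sum_mul_sum,
    ← Finset.sum_add_distrib]
  refine Finset.sum_congr rfl (fun i _ => ?_)
  rw [← Finset.sum_add_distrib]
  refine Finset.sum_congr rfl (fun j _ => ?_)
  simp only [Complex.mul_re, Complex.star_def, Complex.conj_re, Complex.conj_im]
  ring

/-- Expansion of `‖z - t w‖²`. -/
lemma norm_sub_mul_sq (z t w : ℂ) :
    ‖z - t * w‖ ^ 2 = ‖z‖ ^ 2 - 2 * (star t * (star w * z)).re + ‖t‖ ^ 2 * ‖w‖ ^ 2 := by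
  simp only [Complex.sq_norm, Complex.normSq_apply, Complex.mul_re, Complex.mul_im, Complex.sub_re,
    Complex.sub_im, Complex.star_def, Complex.conj_re, Complex.conj_im]
  ring

/-- The combination of Green functions. -/
noncomputable def uF (x : σ → ℝ) (b : σ × τ → ℂ) (κ y : ℝ) (α : τ) : ℂ :=
  ∑ i, b (i, α) * ((gk κ (y - x i) : ℝ) : ℂ)

/-- The combination of derivatives of Green functions. -/
noncomputable def vF (x : σ → ℝ) (b : σ × τ → ℂ) (κ y : ℝ) (α : τ) : ℂ :=
  ∑ i, b (i, α) * ((gd κ (y - x i) : ℝ) : ℂ)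

/-- The energy density of the Green combination. -/
lemma energy_density (x : σ → ℝ) (b : σ × τ → ℂ) (κ y : ℝ) :
    ∑ α, (‖vF x b κ y α‖ ^ 2 + κ ^ 2 * ‖uF x b κ y α‖ ^ 2) =
      ∑ α, ∑ i, ∑ j, (star (b (i, α)) * b (j, α)).re *
        (gd κ (y - x i) * gd κ (y - x j) + κ ^ 2 * (gk κ (y - x i) * gk κ (y - x j))) := by
  refine Finset.sum_congr rfl (fun α _ => ?_)
  unfold vF uF
  rw [norm_sq_sum_real, norm_sq_sum_real, Finset.mul_sum, ← Finset.sum_add_distrib]
  refine Finset.sum_congr rfl (fun i _ => ?_)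
  rw [Finset.mul_sum, ← Finset.sum_add_distrib]
  refine Finset.sum_congr rfl (fun j _ => ?_)
  ring

lemma energy_integrable {κ : ℝ} (hκ : 0 < κ) (x : σ → ℝ) (b : σ × τ → ℂ) :
    Integrable (fun y => ∑ α, ∑ i, ∑ j, (star (b (i, α)) * b (j, α)).re *
        (gd κ (y - x i) * gd κ (y - x j) + κ ^ 2 * (gk κ (y - x i) * gk κ (y - x j)))) := by
  refine integrable_finsetSum _ (fun α _ => ?_)
  refine integrable_finsetSum _ (fun i _ => ?_)
  refine integrable_finsetSum _ (fun j _ => ?_)
  exact ((integrable_gd_gd hκ _ _).add ((integrable_gk_gk hκ _ _).const_mul _)).const_mul _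

lemma energy_integral {κ : ℝ} (hκ : 0 < κ) (x : σ → ℝ) (b : σ × τ → ℂ) :
    ∫ y, ∑ α, ∑ i, ∑ j, (star (b (i, α)) * b (j, α)).re *
        (gd κ (y - x i) * gd κ (y - x j) + κ ^ 2 * (gk κ (y - x i) * gk κ (y - x j))) =
      ∑ α, ∑ i, ∑ j, (star (b (i, α)) * b (j, α)).re * gk κ (x i - x j) := by
  rw [integral_finsetSum]
  · refine Finset.sum_congr rfl (fun α _ => ?_)
    rw [integral_finsetSum]
    · refine Finset.sum_congr rfl (fun i _ => ?_)
      rw [integral_finsetSum]
      · refine Finset.sum_congr rfl (fun j _ => ?_)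
        rw [integral_const_mul, green_energy hκ]
      · intro j _
        exact ((integrable_gd_gd hκ _ _).add ((integrable_gk_gk hκ _ _).const_mul _)).const_mul _
    · intro i _
      refine integrable_finsetSum _ (fun j _ => ?_)
      exact ((integrable_gd_gd hκ _ _).add ((integrable_gk_gk hκ _ _).const_mul _)).const_mul _
  · intro α _
    refine integrable_finsetSum _ (fun i _ => ?_)
    refine integrable_finsetSum _ (fun j _ => ?_)
    exact ((integrable_gd_gd hκ _ _).add ((integrable_gk_gk hκ _ _).const_mul _)).const_mul _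

/-- **The reproducing kernel inequality** for vector valued functions. -/
theorem rkhs_ineq {f f' : ℝ → τ → ℂ} (hd : ∀ α y, HasDerivAt (fun y => f y α) (f' y α) y)
    (hc' : ∀ α, Continuous (fun y => f' y α)) {L : ℝ}
    (hsupp : ∀ y α, L ≤ |y| → f y α = 0) (hsupp' : ∀ y α, L ≤ |y| → f' y α = 0)
    {x : σ → ℝ} (hx : ∀ i, |x i| < L) (b : σ × τ → ℂ) {κ : ℝ} (hκ : 0 < κ) :
    ‖∑ α, ∑ i, star (b (i, α)) * f (x i) α‖ ^ 2 ≤
      (∫ y, ∑ α, (‖f' y α‖ ^ 2 + κ ^ 2 * ‖f y α‖ ^ 2)) *
        (∑ α, ∑ i, ∑ j, (star (b (i, α)) * b (j, α)).re * gk κ (x i - x j)) := by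
  -- basic integrability
  have hcf : ∀ α, Continuous (fun y => f y α) := fun α =>
    continuous_iff_continuousAt.mpr (fun y => (hd α y).continuousAt)
  have hcompact : ∀ {F : ℝ → ℂ}, (∀ y, L ≤ |y| → F y = 0) → HasCompactSupport F := by
    intro F hF
    apply HasCompactSupport.intro (isCompact_Icc (a := -L) (b := L))
    intro y hy
    apply hF
    by_contra hlt
    rw [not_le, abs_lt] at hlt
    exact hy ⟨hlt.1.le, hlt.2.le⟩
  have hcs : ∀ α, HasCompactSupport (fun y => f y α) := fun α => hcompact (fun y hy => hsupp y α hy)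
  have hcs' : ∀ α, HasCompactSupport (fun y => f' y α) :=
    fun α => hcompact (fun y hy => hsupp' y α hy)
  have hnorm : ∀ {F : ℝ → ℂ}, Continuous F → HasCompactSupport F →
      Integrable (fun y => ‖F y‖ ^ 2) := by
    intro F hF hFc
    apply Continuous.integrable_of_hasCompactSupport (by fun_prop)
    exact hFc.norm.comp_left (g := fun z : ℝ => z ^ 2) (by simp)
  have hIA : Integrable (fun y => ∑ α, (‖f' y α‖ ^ 2 + κ ^ 2 * ‖f y α‖ ^ 2)) := by
    refine integrable_finsetSum _ (fun α _ => ?_)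
    exact (hnorm (hc' α) (hcs' α)).add ((hnorm (hcf α) (hcs α)).const_mul _)
  -- the cross term
  set IX : ℝ → ℂ := fun y => ∑ α, ∑ i, star (b (i, α)) *
    (((gd κ (y - x i) : ℝ) : ℂ) * f' y α + ((κ ^ 2 * gk κ (y - x i) : ℝ) : ℂ) * f y α) with hIX
  have hrepr := fun (α : τ) (i : σ) => green_repr hκ (φ := fun y => f y α) (φ' := fun y => f' y α)
    (hd α) (hc' α) (fun y hy => hsupp y α hy) (fun y hy => hsupp' y α hy) (hx i)
  have hIXint : Integrable IX := by
    refine integrable_finsetSum _ (fun α _ => ?_)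
    refine integrable_finsetSum _ (fun i _ => ?_)
    exact (hrepr α i).1.const_mul _
  have hIXval : ∫ y, IX y = ∑ α, ∑ i, star (b (i, α)) * f (x i) α := by
    simp only [hIX]
    rw [integral_finsetSum]
    · refine Finset.sum_congr rfl (fun α _ => ?_)
      rw [integral_finsetSum]
      · refine Finset.sum_congr rfl (fun i _ => ?_)
        rw [integral_const_mul, (hrepr α i).2]
      · intro i _
        exact (hrepr α i).1.const_mul _
    · intro α _
      refine integrable_finsetSum _ (fun i _ => ?_)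
      exact (hrepr α i).1.const_mul _
  -- the pointwise inequality
  have hpt : ∀ (t : ℂ) (y : ℝ), 0 ≤ (∑ α, (‖f' y α‖ ^ 2 + κ ^ 2 * ‖f y α‖ ^ 2)) -
      2 * (star t * IX y).re +
      ‖t‖ ^ 2 * (∑ α, ∑ i, ∑ j, (star (b (i, α)) * b (j, α)).re *
        (gd κ (y - x i) * gd κ (y - x j) + κ ^ 2 * (gk κ (y - x i) * gk κ (y - x j)))) := by
    intro t y
    rw [← energy_density]
    have hnn : 0 ≤ ∑ α, (‖f' y α - t * vF x b κ y α‖ ^ 2 + κ ^ 2 * ‖f y α - t * uF x b κ y α‖ ^ 2) :=
      Finset.sum_nonneg (fun α _ => by positivity)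
    have hex : IX y = ∑ α, (star (vF x b κ y α) * f' y α + ((κ ^ 2 : ℝ) : ℂ) * (star (uF x b κ y α) * f y α)) := by
      simp only [hIX]
      refine Finset.sum_congr rfl (fun α _ => ?_)
      unfold vF uF
      rw [star_sum, star_sum, Finset.sum_mul, Finset.sum_mul, Finset.mul_sum, ← Finset.sum_add_distrib]
      refine Finset.sum_congr rfl (fun i _ => ?_)
      simp only [star_mul', Complex.star_def, Complex.conj_ofReal]
      push_cast
      ring
    have hexp : ∑ α, (‖f' y α - t * vF x b κ y α‖ ^ 2 + κ ^ 2 * ‖f y α - t * uF x b κ y α‖ ^ 2) =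
        (∑ α, (‖f' y α‖ ^ 2 + κ ^ 2 * ‖f y α‖ ^ 2)) - 2 * (star t * IX y).re +
        ‖t‖ ^ 2 * ∑ α, (‖vF x b κ y α‖ ^ 2 + κ ^ 2 * ‖uF x b κ y α‖ ^ 2) := by
      rw [hex, Finset.mul_sum, Complex.re_sum, Finset.mul_sum, Finset.mul_sum, ← Finset.sum_sub_distrib,
        ← Finset.sum_add_distrib]
      refine Finset.sum_congr rfl (fun α _ => ?_)
      rw [norm_sub_mul_sq, norm_sub_mul_sq]
      have e1 : (star t * (star (vF x b κ y α) * f' y α + ((κ ^ 2 : ℝ) : ℂ) * (star (uF x b κ y α) * f y α))).re =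
          (star t * (star (vF x b κ y α) * f' y α)).re +
            κ ^ 2 * (star t * (star (uF x b κ y α) * f y α)).re := by
        rw [mul_add, Complex.add_re]
        congr 1
        rw [mul_left_comm, Complex.re_ofReal_mul]
      rw [e1]
      ring
    rw [hexp] at hnn
    exact hnn
  set G := ∑ α, ∑ i, ∑ j, (star (b (i, α)) * b (j, α)).re * gk κ (x i - x j) with hG
  set A := ∫ y, ∑ α, (‖f' y α‖ ^ 2 + κ ^ 2 * ‖f y α‖ ^ 2) with hA
  set X := ∑ α, ∑ i, star (b (i, α)) * f (x i) α with hX
  have hGnn : 0 ≤ G := by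
    rw [hG, ← energy_integral hκ x b]
    apply integral_nonneg
    intro y
    simp only
    rw [← energy_density]
    exact Finset.sum_nonneg (fun α _ => by positivity)
  apply cs_quadratic hGnn
  intro t
  have hre : Integrable (fun y => (star t * IX y).re) := (hIXint.const_mul _).re
  have hval : ∫ y, (star t * IX y).re = (star t * X).re := by
    have h1 : ∫ y, (star t * IX y).re = (∫ y, star t * IX y).re := by
      exact integral_re (hIXint.const_mul _)
    rw [h1, integral_const_mul, hIXval]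
  have hsplit : ∫ y, ((∑ α, (‖f' y α‖ ^ 2 + κ ^ 2 * ‖f y α‖ ^ 2)) - 2 * (star t * IX y).re +
      ‖t‖ ^ 2 * (∑ α, ∑ i, ∑ j, (star (b (i, α)) * b (j, α)).re *
        (gd κ (y - x i) * gd κ (y - x j) + κ ^ 2 * (gk κ (y - x i) * gk κ (y - x j))))) =
      A - 2 * (star t * X).re + ‖t‖ ^ 2 * G := by
    have h2 : Integrable (fun y => 2 * (star t * IX y).re) := hre.const_mul 2
    have h1 : Integrable (fun y => (∑ α, (‖f' y α‖ ^ 2 + κ ^ 2 * ‖f y α‖ ^ 2)) -
        2 * (star t * IX y).re) := hIA.sub h2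
    rw [integral_add h1 ((energy_integrable hκ x b).const_mul _),
      integral_sub hIA h2, integral_const_mul, integral_const_mul, hval,
      energy_integral hκ x b]
  rw [← hsplit]
  exact integral_nonneg (fun y => hpt t y)

end vec

end Vale.Agent.P371
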