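import Vale.Agent.Lib.P371.Dini
import Vale.Agent.Lib.P371.Rkhs

/-!
The counting lemma: the trial space forces eigenvalues of the Birman-Schwinger matrix above one.
-/

set_option linter.unusedSectionVars false
set_option linter.unusedSimpArgs false
set_option linter.unusedVariables false

open Matrix MeasureTheory Set Filter Topology
open scoped ComplexOrder Real

namespace Vale.Agent.P371

variable {σ τ : Type*} [Fintype σ] [Fintype τ] [DecidableEq σ] [DecidableEq τ]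

lemma kerG_form (h : σ → σ → ℝ) (v : σ × τ → ℂ) :
    star v ⬝ᵥ ((kerG h : Matrix (σ × τ) (σ × τ) ℂ) *ᵥ v) =
      ∑ α, ∑ i, ∑ j, (star (v (i, α)) * v (j, α)) * (h i j : ℂ) := by
  simp only [dotProduct, mulVec, Fintype.sum_prod_type, Pi.star_apply, kerG]
  rw [Finset.sum_comm]
  refine Finset.sum_congr rfl (fun α _ => ?_)
  refine Finset.sum_congr rfl (fun i _ => ?_)
  rw [Finset.mul_sum]
  refine Finset.sum_congr rfl (fun j _ => ?_)
  rw [Finset.sum_eq_single α]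
  · simp; ring
  · intro β _ hβ
    have : ¬ α = β := fun h => hβ h.symm
    simp [this]
  · simp

lemma gK_eq_gk (x : σ → ℝ) (κ : ℝ) (i j : σ) : gK x κ i j = gk κ (x i - x j) := rfl

/-- The dimension step. -/
lemma exists_supported_kernel {ρ : Type*} [Fintype ρ] [DecidableEq ρ] {n : ℕ}
    (P : Matrix ρ ρ ℂ) (X : Matrix ρ (Fin n) ℂ) (S : Finset (Fin n)) (h : P.rank < S.card) :
    ∃ c : Fin n → ℂ, c ≠ 0 ∧ (∀ j, j ∉ S → c j = 0) ∧ P *ᵥ (X *ᵥ c) = 0 := by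
  classical
  set X' : Matrix ρ S ℂ := X.submatrix id (fun s : S => (s : Fin n)) with hX'
  set Y : Matrix ρ S ℂ := P * X' with hY
  have hr : Y.rank ≤ P.rank := Matrix.rank_mul_le_left _ _
  have hfr := LinearMap.finrank_range_add_finrank_ker Y.mulVecLin
  have hcard : Module.finrank ℂ (S → ℂ) = S.card := by simp
  have hrank : Module.finrank ℂ (LinearMap.range Y.mulVecLin) = Y.rank := rfl
  have hpos : 0 < Module.finrank ℂ (LinearMap.ker Y.mulVecLin) := by omega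
  obtain ⟨c0, hc0⟩ := Module.finrank_pos_iff_exists_ne_zero.mp hpos
  have hc0' : Y *ᵥ (c0 : S → ℂ) = 0 := by
    have := c0.2
    rwa [LinearMap.mem_ker, Matrix.mulVecLin_apply] at this
  have hne : (c0 : S → ℂ) ≠ 0 := fun h0 => hc0 (Subtype.ext h0)
  refine ⟨fun j => if h : j ∈ S then (c0 : S → ℂ) ⟨j, h⟩ else 0, ?_, ?_, ?_⟩
  · intro h0
    apply hne
    ext s
    have := congrFun h0 s
    simpa using this
  · intro j hj
    simp [hj]
  · have he : X *ᵥ (fun j => if h : j ∈ S then (c0 : S → ℂ) ⟨j, h⟩ else 0) = X' *ᵥ (c0 : S → ℂ) := by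
      ext a
      simp only [mulVec, dotProduct, hX', submatrix_apply, id]
      have h1 : ∑ x, X a x * (if h : x ∈ S then (c0 : S → ℂ) ⟨x, h⟩ else 0) =
          ∑ x ∈ S, X a x * (if h : x ∈ S then (c0 : S → ℂ) ⟨x, h⟩ else 0) := by
        symm
        apply Finset.sum_subset (Finset.subset_univ S)
        intro j _ hj
        simp [hj]
      rw [h1, ← Finset.sum_coe_sort S]
      refine Finset.sum_congr rfl (fun s _ => ?_)
      simp
    rw [he, Matrix.mulVec_mulVec, ← hY, hc0']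


/-- The quadratic form in the eigenbasis of a Hermitian matrix. -/
lemma quad_eigenbasis {ι : Type*} [Fintype ι] [DecidableEq ι] {Q : Matrix ι ι ℂ}
    (hQ : Q.IsHermitian) (c : ι → ℂ) :
    star ((hQ.eigenvectorUnitary : Matrix ι ι ℂ) *ᵥ c) ⬝ᵥ
        (Q *ᵥ ((hQ.eigenvectorUnitary : Matrix ι ι ℂ) *ᵥ c)) =
      ∑ j, ((hQ.eigenvalues j : ℝ) : ℂ) * (‖c j‖ ^ 2 : ℝ) := by
  set U : Matrix ι ι ℂ := (hQ.eigenvectorUnitary : Matrix ι ι ℂ) with hU
  have hQe : Q = U * diagonal (fun i => ((hQ.eigenvalues i : ℝ) : ℂ)) * star U := by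
    conv_lhs => rw [← fc_eigenvalues hQ]
    rfl
  have hSU : star U * U = 1 := unitary_star_mul hQ
  have h1 : Q *ᵥ (U *ᵥ c) = U *ᵥ (diagonal (fun i => ((hQ.eigenvalues i : ℝ) : ℂ)) *ᵥ c) := by
    have h2 : Q * U = U * diagonal (fun i => ((hQ.eigenvalues i : ℝ) : ℂ)) := by
      calc Q * U = (U * diagonal (fun i => ((hQ.eigenvalues i : ℝ) : ℂ)) * star U) * U :=
            congrArg (· * U) hQe
        _ = _ := by rw [Matrix.mul_assoc, hSU, Matrix.mul_one]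
    rw [Matrix.mulVec_mulVec, h2, ← Matrix.mulVec_mulVec]
  rw [h1, Matrix.star_mulVec, ← Matrix.dotProduct_mulVec, Matrix.mulVec_mulVec,
    ← star_eq_conjTranspose, hSU, Matrix.one_mulVec]
  simp only [dotProduct, mulVec_diagonal, Pi.star_apply]
  refine Finset.sum_congr rfl (fun j _ => ?_)
  have : star (c j) * c j = ((‖c j‖ ^ 2 : ℝ) : ℂ) := by
    rw [Complex.star_def, Complex.conj_mul']
    push_cast
    rfl
  calc star (c j) * (((hQ.eigenvalues j : ℝ) : ℂ) * c j)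
      = ((hQ.eigenvalues j : ℝ) : ℂ) * (star (c j) * c j) := by ring
    _ = _ := by rw [this]

/-- The unitary preserves the Euclidean norm. -/
lemma norm_eigenbasis {ι : Type*} [Fintype ι] [DecidableEq ι] {Q : Matrix ι ι ℂ}
    (hQ : Q.IsHermitian) (c : ι → ℂ) :
    ∑ k, ‖((hQ.eigenvectorUnitary : Matrix ι ι ℂ) *ᵥ c) k‖ ^ 2 = ∑ j, ‖c j‖ ^ 2 := by
  set U : Matrix ι ι ℂ := (hQ.eigenvectorUnitary : Matrix ι ι ℂ) with hU
  have hSU : star U * U = 1 := unitary_star_mul hQ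
  have key : star (U *ᵥ c) ⬝ᵥ (U *ᵥ c) = star c ⬝ᵥ c := by
    rw [Matrix.star_mulVec, ← Matrix.dotProduct_mulVec, Matrix.mulVec_mulVec,
      ← star_eq_conjTranspose, hSU, Matrix.one_mulVec]
  have hnorm : ∀ {ρ : Type _} [Fintype ρ] (v : ρ → ℂ),
      star v ⬝ᵥ v = ((∑ a, ‖v a‖ ^ 2 : ℝ) : ℂ) := by
    intro ρ _ v
    simp only [dotProduct, Pi.star_apply]
    push_cast
    refine Finset.sum_congr rfl (fun a _ => ?_)
    rw [Complex.star_def, Complex.conj_mul']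
  rw [hnorm, hnorm] at key
  exact_mod_cast key

lemma star_dot_self {ρ : Type*} [Fintype ρ] (v : ρ → ℂ) :
    star v ⬝ᵥ v = ((∑ a, ‖v a‖ ^ 2 : ℝ) : ℂ) := by
  simp only [dotProduct, Pi.star_apply]
  push_cast
  refine Finset.sum_congr rfl (fun a _ => ?_)
  rw [Complex.star_def, Complex.conj_mul']

/-- **The counting lemma.** -/
theorem count_lemma {n : ℕ} {x : σ → ℝ} {Rb : σ → Matrix τ τ ℂ} (hRb : ∀ i, (Rb i).IsHermitian)
    {ψ ψ' : Fin n → ℝ → τ → ℂ}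
    (hd : ∀ k α y, HasDerivAt (fun y => ψ k y α) (ψ' k y α) y)
    (hc' : ∀ k α, Continuous (fun y => ψ' k y α))
    {L : ℝ} (hsupp : ∀ k y α, L ≤ |y| → ψ k y α = 0) (hsupp' : ∀ k y α, L ≤ |y| → ψ' k y α = 0)
    (hx : ∀ i, |x i| < L)
    (hON : ∀ d : Fin n → ℂ, ∫ y, ∑ α, ‖∑ k, d k * ψ k y α‖ ^ 2 = ∑ k, ‖d k‖ ^ 2)
    (hIkin : ∀ d : Fin n → ℂ, Integrable (fun y => ∑ α, ‖∑ k, d k * ψ' k y α‖ ^ 2))
    (hIpot : ∀ d : Fin n → ℂ, Integrable (fun y => ∑ α, ‖∑ k, d k * ψ k y α‖ ^ 2))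
    {Q : Matrix (Fin n) (Fin n) ℂ} (hQH : Q.IsHermitian) {E : ℝ}
    (hH : ∀ d : Fin n → ℂ, (∫ y, ∑ α, ‖∑ k, d k * ψ' k y α‖ ^ 2) - (star d ⬝ᵥ (Q *ᵥ d)).re ≤
      (∑ a, ‖(blk Rb *ᵥ (fun a : σ × τ => ∑ k, d k * ψ k (x a.1) a.2)) a‖ ^ 2) + E * ∑ k, ‖d k‖ ^ 2)
    {κ E' : ℝ} (hκ : 0 < κ) (hE : E < E') :
    ((Finset.univ.filter fun j => hQH.eigenvalues j ≤ -κ ^ 2 - E').card : ℝ) ≤ rtr (PP x Rb κ) := by
  classical
  set S := Finset.univ.filter fun j => hQH.eigenvalues j ≤ -κ ^ 2 - E' with hS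
  set P := PP x Rb κ with hP
  have hTop := AA_top (x := x) hRb κ
  rw [← hP] at hTop
  rw [← hTop.rank]
  by_contra hlt
  rw [not_le] at hlt
  have hlt' : P.rank < S.card := by exact_mod_cast hlt
  set U : Matrix (Fin n) (Fin n) ℂ := (hQH.eigenvectorUnitary : Matrix (Fin n) (Fin n) ℂ) with hU
  set 𝔢 : Matrix (σ × τ) (Fin n) ℂ := fun a k => ψ k (x a.1) a.2 with h𝔢
  obtain ⟨c, hc0, hcS, hcK⟩ := exists_supported_kernel P (blk Rb * 𝔢 * U) S hlt'
  set d : Fin n → ℂ := U *ᵥ c with hd'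
  set w : σ × τ → ℂ := fun a => ∑ k, d k * ψ k (x a.1) a.2 with hw
  set v : σ × τ → ℂ := blk Rb *ᵥ w with hv
  set b : σ × τ → ℂ := blk Rb *ᵥ v with hb
  have hvc : (blk Rb * 𝔢 * U) *ᵥ c = v := by
    have : 𝔢 *ᵥ d = w := by
      ext a
      simp only [mulVec, dotProduct, hw, h𝔢]
      refine Finset.sum_congr rfl (fun k _ => ?_)
      ring
    rw [← Matrix.mulVec_mulVec, ← hd', ← Matrix.mulVec_mulVec, this]
  rw [hvc] at hcK
  -- the rank step gives the inequality for the form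
  have hRherm : (blk Rb : Matrix (σ × τ) (σ × τ) ℂ)ᴴ = blk Rb := (blk_herm hRb).eq
  set K : Matrix (σ × τ) (σ × τ) ℂ := kerG (gK x κ) with hK
  have hform1 : star v ⬝ᵥ (MM x Rb κ *ᵥ v) = star b ⬝ᵥ (K *ᵥ b) := by
    unfold MM
    rw [← hK, ← Matrix.mulVec_mulVec, ← Matrix.mulVec_mulVec, Matrix.dotProduct_mulVec]
    congr 1
    rw [hb, Matrix.star_mulVec (blk Rb) v, hRherm]
  have hA : star v ⬝ᵥ (AA x Rb κ *ᵥ v) = star v ⬝ᵥ (pPos (AA x Rb κ) *ᵥ v) -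
      star v ⬝ᵥ (pNeg (AA x Rb κ) *ᵥ v) := by
    conv_lhs => rw [hTop.eq]
    rw [Matrix.sub_mulVec, dotProduct_sub]
  have hQp0 : pPos (AA x Rb κ) *ᵥ v = 0 := by
    rw [← hTop.QpP, ← Matrix.mulVec_mulVec, hcK, Matrix.mulVec_zero]
  have hQn := hTop.hQn.dotProduct_mulVec_nonneg v
  have hAA : star v ⬝ᵥ (AA x Rb κ *ᵥ v) = star v ⬝ᵥ (MM x Rb κ *ᵥ v) - star v ⬝ᵥ v := by
    unfold AA
    rw [Matrix.sub_mulVec, Matrix.one_mulVec, dotProduct_sub]
  set Nv : ℝ := ∑ a, ‖v a‖ ^ 2 with hNv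
  have hNvnn : 0 ≤ Nv := Finset.sum_nonneg (fun a _ => by positivity)
  have hvv : star v ⬝ᵥ v = (Nv : ℂ) := star_dot_self v
  have hGr : (star b ⬝ᵥ (K *ᵥ b)).re ≤ Nv := by
    rw [← hform1]
    have h1 := congrArg Complex.re hAA
    rw [hA, hQp0, dotProduct_zero, zero_sub, Complex.neg_re, hvv, Complex.sub_re,
      Complex.ofReal_re] at h1
    have h2 := (Complex.le_def.mp hQn).1
    simp only [Complex.zero_re] at h2
    linarith
  -- the Green energy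
  have hGreen : (star b ⬝ᵥ (K *ᵥ b)).re =
      ∑ α, ∑ i, ∑ j, (star (b (i, α)) * b (j, α)).re * gk κ (x i - x j) := by
    rw [hK, kerG_form, Complex.re_sum]
    refine Finset.sum_congr rfl (fun α _ => ?_)
    rw [Complex.re_sum]
    refine Finset.sum_congr rfl (fun i _ => ?_)
    rw [Complex.re_sum]
    refine Finset.sum_congr rfl (fun j _ => ?_)
    rw [Complex.re_mul_ofReal, gK_eq_gk]
  -- the pairing
  have hpair : ∑ α, ∑ i, star (b (i, α)) * (∑ k, d k * ψ k (x i) α) = (Nv : ℂ) := by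
    have h1 : ∑ α, ∑ i, star (b (i, α)) * (∑ k, d k * ψ k (x i) α) = star b ⬝ᵥ w := by
      simp only [dotProduct, Pi.star_apply, hw, Fintype.sum_prod_type]
      rw [Finset.sum_comm]
    rw [h1, hb, Matrix.star_mulVec (blk Rb) v, hRherm, ← Matrix.dotProduct_mulVec, ← hv, hvv]
  -- the functions
  set φ : ℝ → τ → ℂ := fun y α => ∑ k, d k * ψ k y α with hφ
  set φ' : ℝ → τ → ℂ := fun y α => ∑ k, d k * ψ' k y α with hφ'
  have hφd : ∀ α y, HasDerivAt (fun y => φ y α) (φ' y α) y := by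
    intro α y
    simp only [hφ, hφ']
    apply HasDerivAt.fun_sum
    intro k _
    exact (hd k α y).const_mul _
  have hφc : ∀ α, Continuous (fun y => φ' y α) := by
    intro α
    simp only [hφ']
    exact continuous_finsetSum _ (fun k _ => continuous_const.mul (hc' k α))
  have hφs : ∀ y α, L ≤ |y| → φ y α = 0 := by
    intro y α hy
    simp only [hφ]
    exact Finset.sum_eq_zero (fun k _ => by rw [hsupp k y α hy, mul_zero])
  have hφs' : ∀ y α, L ≤ |y| → φ' y α = 0 := by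
    intro y α hy
    simp only [hφ']
    exact Finset.sum_eq_zero (fun k _ => by rw [hsupp' k y α hy, mul_zero])
  have hrk := rkhs_ineq hφd hφc hφs hφs' hx b hκ
  simp only [hφ] at hrk
  rw [hpair, ← hGreen, Complex.norm_real, Real.norm_eq_abs, abs_of_nonneg hNvnn] at hrk
  -- the kinetic energy
  set Kd : ℝ := ∫ y, ∑ α, ‖∑ k, d k * ψ' k y α‖ ^ 2 with hKd
  set Dd : ℝ := ∑ k, ‖d k‖ ^ 2 with hDd
  have hAq : (∫ y, ∑ α, (‖φ' y α‖ ^ 2 + κ ^ 2 * ‖∑ k, d k * ψ k y α‖ ^ 2)) = Kd + κ ^ 2 * Dd := by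
    simp only [hφ']
    have : ∀ y, ∑ α, (‖∑ k, d k * ψ' k y α‖ ^ 2 + κ ^ 2 * ‖∑ k, d k * ψ k y α‖ ^ 2) =
        (∑ α, ‖∑ k, d k * ψ' k y α‖ ^ 2) + κ ^ 2 * ∑ α, ‖∑ k, d k * ψ k y α‖ ^ 2 := by
      intro y
      rw [Finset.sum_add_distrib, Finset.mul_sum]
    simp only [this]
    rw [integral_add (hIkin d) ((hIpot d).const_mul _), integral_const_mul, hON]
  rw [hAq] at hrk
  have hAqnn : 0 ≤ Kd + κ ^ 2 * Dd := by
    rw [← hAq]
    exact integral_nonneg (fun y => Finset.sum_nonneg (fun α _ => by positivity))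
  -- therefore `Nv ≤ A_q`
  have hNle : Nv ≤ Kd + κ ^ 2 * Dd := by
    rcases hNvnn.eq_or_lt with h0 | hpos
    · rw [← h0]
      exact hAqnn
    · have h1 : Nv ^ 2 ≤ (Kd + κ ^ 2 * Dd) * Nv :=
        hrk.trans (mul_le_mul_of_nonneg_left hGr hAqnn)
      have h2 : Nv * Nv ≤ (Kd + κ ^ 2 * Dd) * Nv := by nlinarith
      exact le_of_mul_le_mul_right h2 hpos
  -- the quadratic form
  have hq := quad_eigenbasis hQH c
  rw [← hU, ← hd'] at hq
  have hDc : Dd = ∑ j, ‖c j‖ ^ 2 := norm_eigenbasis hQH c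
  have hDpos : 0 < Dd := by
    rw [hDc]
    obtain ⟨j, hj⟩ := Function.ne_iff.mp hc0
    have hj' : 0 < ‖c j‖ ^ 2 := by
      have : 0 < ‖c j‖ := norm_pos_iff.mpr hj
      positivity
    exact lt_of_lt_of_le hj' (Finset.single_le_sum (f := fun j => ‖c j‖ ^ 2)
      (fun i _ => by positivity) (Finset.mem_univ j))
  have hqre : (star d ⬝ᵥ (Q *ᵥ d)).re ≤ (-κ ^ 2 - E') * Dd := by
    rw [hq, Complex.re_sum, hDc, Finset.mul_sum]
    refine Finset.sum_le_sum (fun j _ => ?_)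
    rw [← Complex.ofReal_mul, Complex.ofReal_re]
    by_cases hj : j ∈ S
    · have hj2 : hQH.eigenvalues j ≤ -κ ^ 2 - E' := (Finset.mem_filter.mp hj).2
      exact mul_le_mul_of_nonneg_right hj2 (by positivity)
    · have : c j = 0 := hcS j hj
      simp [this]
  have hfinal := hH d
  rw [← hKd, ← hDd, ← hw, ← hv, ← hNv] at hfinal
  nlinarith

end Vale.Agent.P371
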