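import Mathlib

/-!
The negative type of `|z| - (1 - exp (-δ |z|)) / δ`, by an explicit sum of squares of differences.
-/

set_option linter.unusedSectionVars false
set_option linter.unusedSimpArgs false
set_option linter.unusedVariables false

open MeasureTheory Set Filter Topology
open scoped Real

namespace Vale.Agent.P371

/-- ramp function `(1 - exp (-δ (x - w)))_+` -/
noncomputable def ramp (δ x w : ℝ) : ℝ := max (1 - Real.exp (-δ * (x - w))) 0

lemma ramp_of_le {δ x w : ℝ} (hδ : 0 < δ) (h : w ≤ x) : ramp δ x w = 1 - Real.exp (-δ * (x - w)) := by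
  unfold ramp
  apply max_eq_left
  have : Real.exp (-δ * (x - w)) ≤ 1 := by
    rw [Real.exp_le_one_iff]
    have : 0 ≤ δ * (x - w) := mul_nonneg hδ.le (by linarith)
    linarith
  linarith

lemma ramp_of_ge {δ x w : ℝ} (hδ : 0 < δ) (h : x ≤ w) : ramp δ x w = 0 := by
  unfold ramp
  apply max_eq_right
  have : 1 ≤ Real.exp (-δ * (x - w)) := by
    rw [Real.one_le_exp_iff]
    have : 0 ≤ δ * (w - x) := mul_nonneg hδ.le (by linarith)
    linarith
  linarith

lemma ramp_continuous (δ x : ℝ) : Continuous (ramp δ x) := by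
  unfold ramp
  fun_prop

lemma ramp_sq_integral_aux {δ x y : ℝ} (hδ : 0 < δ) (hxy : y ≤ x) :
    Integrable (fun w => (ramp δ x w - ramp δ y w) ^ 2) ∧
    ∫ w, (ramp δ x w - ramp δ y w) ^ 2 = (x - y) - (1 - Real.exp (-δ * (x - y))) / δ := by
  set e := Real.exp (-δ * (x - y)) with he
  set E := Real.exp (-δ * y) - Real.exp (-δ * x) with hE
  set f : ℝ → ℝ := fun w => (ramp δ x w - ramp δ y w) ^ 2 with hf
  have hcont : Continuous f := by
    simp only [hf]
    have h1 := ramp_continuous δ x
    have h2 := ramp_continuous δ y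
    fun_prop
  -- region one
  have r1 : ∀ w ∈ Iic y, f w = E ^ 2 * Real.exp ((2 * δ) * w) := by
    intro w hw
    have hw' : w ≤ y := hw
    simp only [hf]
    rw [ramp_of_le hδ (hw'.trans hxy), ramp_of_le hδ hw', hE]
    have e1 : Real.exp (-δ * (x - w)) = Real.exp (-δ * x) * Real.exp (δ * w) := by
      rw [← Real.exp_add]; ring_nf
    have e2 : Real.exp (-δ * (y - w)) = Real.exp (-δ * y) * Real.exp (δ * w) := by
      rw [← Real.exp_add]; ring_nf
    have e3 : Real.exp (2 * δ * w) = Real.exp (δ * w) ^ 2 := by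
      rw [← Real.exp_nat_mul]; ring_nf
    rw [e1, e2, e3]
    ring
  have i1 : IntegrableOn f (Iic y) := by
    have : IntegrableOn (fun w => E ^ 2 * Real.exp ((2 * δ) * w)) (Iic y) :=
      (integrableOn_exp_mul_Iic (a := 2 * δ) (by positivity) y).const_mul (E ^ 2)
    exact this.congr_fun (fun w hw => (r1 w hw).symm) measurableSet_Iic
  have v1 : ∫ w in Iic y, f w = (1 - e) ^ 2 / (2 * δ) := by
    rw [setIntegral_congr_fun measurableSet_Iic r1, integral_const_mul,
      integral_exp_mul_Iic (by positivity : 0 < 2 * δ) y]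
    have : E ^ 2 * Real.exp (2 * δ * y) = (1 - e) ^ 2 := by
      have e3 : Real.exp (2 * δ * y) = Real.exp (δ * y) ^ 2 := by
        rw [← Real.exp_nat_mul]; ring_nf
      have e4 : (E * Real.exp (δ * y)) = 1 - e := by
        rw [hE, sub_mul, ← Real.exp_add, ← Real.exp_add, he]
        have : -δ * y + δ * y = 0 := by ring
        rw [this, Real.exp_zero]
        have : -δ * x + δ * y = -δ * (x - y) := by ring
        rw [this]
      rw [e3, ← mul_pow, e4]
    rw [← mul_div_assoc, this]
  -- region two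
  have r2 : ∀ w ∈ Ioc y x, f w = (1 - Real.exp (-δ * (x - w))) ^ 2 := by
    intro w hw
    simp only [hf]
    rw [ramp_of_le hδ hw.2, ramp_of_ge hδ hw.1.le, sub_zero]
  have i2 : IntegrableOn f (Ioc y x) :=
    (hcont.integrableOn_Icc (a := y) (b := x)).mono_set Ioc_subset_Icc_self
  have v2 : ∫ w in Ioc y x, f w =
      (x - y) - (2 / δ) * (1 - e) + (1 / (2 * δ)) * (1 - e ^ 2) := by
    rw [setIntegral_congr_fun measurableSet_Ioc r2, ← intervalIntegral.integral_of_le hxy]
    set G : ℝ → ℝ := fun w =>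
      w - (2 / δ) * Real.exp (-δ * (x - w)) + (1 / (2 * δ)) * Real.exp (-(2 * δ) * (x - w)) with hG
    have hδ' : δ ≠ 0 := hδ.ne'
    have hder : ∀ w ∈ uIcc y x, HasDerivAt G ((1 - Real.exp (-δ * (x - w))) ^ 2) w := by
      intro w _
      have d1 : HasDerivAt (fun w : ℝ => -δ * (x - w)) δ w := by
        have := ((hasDerivAt_id w).const_sub x).const_mul (-δ)
        simpa using this
      have d2 : HasDerivAt (fun w : ℝ => -(2 * δ) * (x - w)) (2 * δ) w := by
        have := ((hasDerivAt_id w).const_sub x).const_mul (-(2 * δ))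
        simpa using this
      have d3 := d1.exp
      have d4 := d2.exp
      have h5 : HasDerivAt G _ w :=
        ((hasDerivAt_id w).sub (d3.const_mul (2 / δ))).add (d4.const_mul (1 / (2 * δ)))
      refine h5.congr_deriv ?_
      have e3 : Real.exp (-(2 * δ) * (x - w)) = Real.exp (-δ * (x - w)) ^ 2 := by
        rw [← Real.exp_nat_mul]; ring_nf
      rw [e3]
      field_simp
      ring
    rw [intervalIntegral.integral_eq_sub_of_hasDerivAt hder
      (by
        apply Continuous.intervalIntegrable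
        fun_prop)]
    simp only [hG]
    have e3 : Real.exp (-(2 * δ) * (x - y)) = e ^ 2 := by
      rw [he, ← Real.exp_nat_mul]; ring_nf
    rw [e3]
    simp only [sub_self, mul_zero, Real.exp_zero, ← he]
    ring
  -- region three
  have r3 : ∀ w ∈ Ioi x, f w = 0 := by
    intro w hw
    have hw' : x < w := hw
    simp only [hf]
    rw [ramp_of_ge hδ hw'.le, ramp_of_ge hδ (hxy.trans hw'.le)]
    ring
  have i3 : IntegrableOn f (Ioi x) := by
    have : IntegrableOn (fun _ : ℝ => (0:ℝ)) (Ioi x) := integrableOn_zero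
    exact this.congr_fun (fun w hw => (r3 w hw).symm) measurableSet_Ioi
  have v3 : ∫ w in Ioi x, f w = 0 := by
    rw [setIntegral_congr_fun measurableSet_Ioi r3]
    simp
  have iR : IntegrableOn f (Ioi y) := by
    rw [← Ioc_union_Ioi_eq_Ioi hxy]
    exact i2.union i3
  have vR : ∫ w in Ioi y, f w = ∫ w in Ioc y x, f w := by
    rw [← Ioc_union_Ioi_eq_Ioi hxy, setIntegral_union (Ioc_disjoint_Ioi le_rfl) measurableSet_Ioi
      i2 i3, v3, add_zero]
  have iF : Integrable f := by
    have := i1.union iR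
    rwa [Iic_union_Ioi, integrableOn_univ] at this
  refine ⟨iF, ?_⟩
  rw [← intervalIntegral.integral_Iic_add_Ioi i1 iR, vR, v1, v2]
  have hδ' : δ ≠ 0 := hδ.ne'
  field_simp
  ring

/-- The function `|x - y| - (1 - exp (-δ |x - y|)) / δ` as an integral of squares of differences. -/
theorem ramp_sq_integral {δ : ℝ} (hδ : 0 < δ) (x y : ℝ) :
    Integrable (fun w => (ramp δ x w - ramp δ y w) ^ 2) ∧
    ∫ w, (ramp δ x w - ramp δ y w) ^ 2 = |x - y| - (1 - Real.exp (-δ * |x - y|)) / δ := by
  rcases le_total y x with h | h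
  · rw [abs_of_nonneg (by linarith : 0 ≤ x - y)]
    exact ramp_sq_integral_aux hδ h
  · have := ramp_sq_integral_aux hδ h
    rw [abs_of_nonpos (by linarith : x - y ≤ 0)]
    have e : ∀ w, (ramp δ x w - ramp δ y w) ^ 2 = (ramp δ y w - ramp δ x w) ^ 2 := fun w => by ring
    simp only [e, neg_sub]
    exact this

end Vale.Agent.P371
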