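import Vale.Agent.Lib.P371.Freq
import Vale.Agent.Lib.P371.Ramp
import Vale.Agent.Lib.P371.Compare

/-!
The Birman-Schwinger matrices on the lattice and the differential inequality.
-/

set_option linter.unusedSectionVars false
set_option linter.unusedSimpArgs false
set_option linter.unusedVariables false

open Matrix MeasureTheory Set Filter Topology
open scoped ComplexOrder Real

namespace Vale.Agent.P371

variable {σ τ : Type*} [Fintype σ] [Fintype τ] [DecidableEq σ] [DecidableEq τ]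

/-- Birman-Schwinger matrix -/
noncomputable def MM (x : σ → ℝ) (Rb : σ → Matrix τ τ ℂ) (κ : ℝ) : Matrix (σ × τ) (σ × τ) ℂ :=
  blk Rb * kerG (gK x κ) * blk Rb

/-- shifted Birman-Schwinger matrix -/
noncomputable def AA (x : σ → ℝ) (Rb : σ → Matrix τ τ ℂ) (κ : ℝ) : Matrix (σ × τ) (σ × τ) ℂ :=
  MM x Rb κ - 1

/-- top spectral projection -/
noncomputable def PP (x : σ → ℝ) (Rb : σ → Matrix τ τ ℂ) (κ : ℝ) : Matrix (σ × τ) (σ × τ) ℂ :=
  pP (AA x Rb κ)

/-- positive trace -/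
noncomputable def FF (x : σ → ℝ) (Rb : σ → Matrix τ τ ℂ) (κ : ℝ) : ℝ :=
  rtr (pPos (AA x Rb κ))

section
variable {x : σ → ℝ} {Rb : σ → Matrix τ τ ℂ} (hRb : ∀ i, (Rb i).IsHermitian)
include hRb

lemma MM_herm (κ : ℝ) : (MM x Rb κ).IsHermitian := by
  unfold MM Matrix.IsHermitian
  have hR := (blk_herm hRb).eq
  have hK := (kerG_herm (τ := τ) (gK_symm x κ)).eq
  rw [conjTranspose_mul, conjTranspose_mul, hR, hK, Matrix.mul_assoc]

lemma AA_herm (κ : ℝ) : (AA x Rb κ).IsHermitian := by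
  unfold AA
  exact (MM_herm hRb κ).sub isHermitian_one

lemma AA_top (κ : ℝ) : TopData (AA x Rb κ) (PP x Rb κ) (pPos (AA x Rb κ)) (pNeg (AA x Rb κ)) :=
  topData (AA_herm hRb κ)

lemma FF_nonneg (κ : ℝ) : 0 ≤ FF x Rb κ := rtr_nonneg (AA_top (x := x) hRb κ).hQp

lemma FF_eq (κ : ℝ) : FF x Rb κ = rtr (PP x Rb κ * MM x Rb κ) - rtr (PP x Rb κ) := by
  have h := attain (AA_top (x := x) hRb κ)
  unfold AA at h
  rw [Matrix.mul_sub, Matrix.mul_one, rtr_sub] at h
  exact h.symm

/-- Supporting inequality. -/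
lemma FF_support (κ t : ℝ) :
    FF x Rb κ + rtr (PP x Rb κ * (MM x Rb t - MM x Rb κ)) ≤ FF x Rb t := by
  have h1 := attain (AA_top (x := x) hRb κ)
  have h2 := kyFan (AA_top (x := x) hRb t) (AA_top (x := x) hRb κ).hP (AA_top (x := x) hRb κ).hP1
  have e : AA x Rb t = AA x Rb κ + (MM x Rb t - MM x Rb κ) := by
    unfold AA
    abel
  rw [e, Matrix.mul_add, rtr_add] at h2
  have e2 : AA x Rb t = AA x Rb κ + (MM x Rb t - MM x Rb κ) := e
  unfold FF
  rw [← h1, e2] at *
  linarith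

end

lemma rtr_mul_abs_le {ι : Type*} [Fintype ι] [DecidableEq ι] (P X : Matrix ι ι ℂ) {C : ℝ}
    (hP : ∀ a b, ‖P a b‖ ≤ C) :
    |rtr (P * X)| ≤ C * ∑ a, ∑ b, ‖X b a‖ := by
  unfold rtr Matrix.trace
  simp only [Matrix.diag_apply, Matrix.mul_apply]
  refine (Complex.abs_re_le_norm _).trans ?_
  refine (norm_sum_le _ _).trans ?_
  rw [Finset.mul_sum]
  refine Finset.sum_le_sum (fun a _ => ?_)
  refine (norm_sum_le _ _).trans ?_
  rw [Finset.mul_sum]
  refine Finset.sum_le_sum (fun b _ => ?_)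
  rw [norm_mul]
  exact mul_le_mul_of_nonneg_right (hP a b) (norm_nonneg _)

lemma gK_continuousAt (x : σ → ℝ) (i j : σ) {κ : ℝ} (hκ : κ ≠ 0) :
    ContinuousAt (fun t => gK x t i j) κ := by
  unfold gK
  apply ContinuousAt.div
  · fun_prop
  · fun_prop
  · simpa using hκ

lemma MM_entry_continuousAt (x : σ → ℝ) (Rb : σ → Matrix τ τ ℂ) {κ : ℝ} (hκ : κ ≠ 0)
    (a b : σ × τ) : ContinuousAt (fun t => MM x Rb t a b) κ := by
  unfold MM
  simp only [Matrix.mul_apply]
  apply tendsto_finsetSum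
  intro c _
  apply ContinuousAt.mul _ continuousAt_const
  apply tendsto_finsetSum
  intro d _
  apply ContinuousAt.mul continuousAt_const
  simp only [kerG]
  split_ifs
  · exact Complex.continuous_ofReal.continuousAt.comp (gK_continuousAt x _ _ hκ)
  · exact continuousAt_const

/-- Continuity of the positive trace. -/
lemma FF_continuousOn {x : σ → ℝ} {Rb : σ → Matrix τ τ ℂ} (hRb : ∀ i, (Rb i).IsHermitian) :
    ContinuousOn (FF x Rb) (Ioi 0) := by
  intro κ hκ
  have hκ0 : κ ≠ 0 := (show 0 < κ from hκ).ne'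
  apply ContinuousAt.continuousWithinAt
  set C : ℝ := (Fintype.card (σ × τ) : ℝ) with hC
  set ψ : ℝ → ℝ := fun t => C * ∑ a, ∑ b, ‖MM x Rb t b a - MM x Rb κ b a‖ with hψ
  have hψc : ContinuousAt ψ κ := by
    simp only [hψ]
    apply ContinuousAt.mul continuousAt_const
    apply tendsto_finsetSum
    intro a _
    apply tendsto_finsetSum
    intro b _
    exact ((MM_entry_continuousAt x Rb hκ0 b a).sub continuousAt_const).norm
  have hψ0 : ψ κ = 0 := by
    simp [hψ]
  have hbound : ∀ t, |FF x Rb t - FF x Rb κ| ≤ ψ t := by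
    intro t
    have h1 := FF_support (x := x) hRb κ t
    have h2 := FF_support (x := x) hRb t κ
    have he1 : |rtr (PP x Rb κ * (MM x Rb t - MM x Rb κ))| ≤ ψ t := by
      have := rtr_mul_abs_le (PP x Rb κ) (MM x Rb t - MM x Rb κ) (C := C)
        (fun a b => pP_entry_bound (AA_herm hRb κ) a b)
      simpa [hψ, Matrix.sub_apply] using this
    have he2 : |rtr (PP x Rb t * (MM x Rb κ - MM x Rb t))| ≤ ψ t := by
      have := rtr_mul_abs_le (PP x Rb t) (MM x Rb κ - MM x Rb t) (C := C)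
        (fun a b => pP_entry_bound (AA_herm hRb t) a b)
      have e : ∑ a, ∑ b, ‖(MM x Rb κ - MM x Rb t) b a‖ =
          ∑ a, ∑ b, ‖MM x Rb t b a - MM x Rb κ b a‖ := by
        refine Finset.sum_congr rfl (fun a _ => Finset.sum_congr rfl (fun b _ => ?_))
        rw [Matrix.sub_apply, norm_sub_rev]
      rw [e] at this
      exact this
    rw [abs_le]
    have h3 := abs_le.mp he1
    have h4 := abs_le.mp he2
    constructor <;> linarith [h3.1, h3.2, h4.1, h4.2]
  rw [ContinuousAt, tendsto_iff_norm_sub_tendsto_zero]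
  have hlim : Tendsto ψ (𝓝 κ) (𝓝 0) := by
    have := hψc.tendsto
    rwa [hψ0] at this
  refine squeeze_zero (fun t => norm_nonneg _) (fun t => ?_) hlim
  rw [Real.norm_eq_abs]
  exact hbound t

/-- Kernel `ϱ_δ`. -/
noncomputable def rhoD (δ z : ℝ) : ℝ := |z| - (1 - Real.exp (-δ * |z|)) / δ

/-- Positivity coming from the sum of squares. -/
lemma sos_ramp {x : σ → ℝ} {Rb : σ → Matrix τ τ ℂ} (hRb : ∀ i, (Rb i).IsHermitian) (κ : ℝ)
    {δ : ℝ} (hδ : 0 < δ) :
    0 ≤ ∑ i, ∑ j, zeta (blk Rb * PP x Rb κ * blk Rb) i j * (gK x κ i j * rhoD δ (x i - x j)) := by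
  set Z := blk Rb * PP x Rb κ * blk Rb with hZ
  have hpt : ∀ w : ℝ, 0 ≤ ∑ i, ∑ j, zeta Z i j *
      (gK x κ i j * (ramp δ (x i) w - ramp δ (x j) w) ^ 2) := by
    intro w
    have h1 := sos_nonneg (AA_top (x := x) hRb κ) (M := MM x Rb κ) (θ := 1)
      (Φ := dg (fun i => ramp δ (x i) w)) (by simp [AA]) (dg_herm _)
    have h2 := sos_identity (τ := τ) (fun i => ramp δ (x i) w) (gK x κ) Rb
    simp only at h2
    unfold MM at h1
    rw [h2, rtr_conj_kerG] at h1
    exact h1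
  have hint : ∀ i j, Integrable (fun w => zeta Z i j *
      (gK x κ i j * (ramp δ (x i) w - ramp δ (x j) w) ^ 2)) := fun i j =>
    ((ramp_sq_integral hδ (x i) (x j)).1.const_mul _).const_mul _
  have hI : ∫ w, ∑ i, ∑ j, zeta Z i j *
      (gK x κ i j * (ramp δ (x i) w - ramp δ (x j) w) ^ 2) =
      ∑ i, ∑ j, zeta Z i j * (gK x κ i j * rhoD δ (x i - x j)) := by
    rw [integral_finsetSum]
    · refine Finset.sum_congr rfl (fun i _ => ?_)
      rw [integral_finsetSum]
      · refine Finset.sum_congr rfl (fun j _ => ?_)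
        rw [integral_const_mul, integral_const_mul, (ramp_sq_integral hδ (x i) (x j)).2]
        rfl
      · intro j _
        exact hint i j
    · intro i _
      exact integrable_finsetSum _ (fun j _ => hint i j)
  rw [← hI]
  exact integral_nonneg hpt

/-- The scalar kernel identity behind the master inequality. -/
lemma kernel_PI {γ κ z : ℝ} (hγ : 1 / 2 < γ) (hκ : 0 < κ) :
    2 * γ * (Real.exp (-κ * |z|) / (2 * κ)) - (1 / 2) * ((|z| + 1 / κ) * Real.exp (-κ * |z|)) -
        2 * γ * (Real.exp (-(sPar γ * κ) * |z|) / (2 * (sPar γ * κ))) =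
      -κ * ((Real.exp (-κ * |z|) / (2 * κ)) * rhoD (κ / (2 * γ - 1)) z) := by
  have h1 : 0 < 2 * γ - 1 := by linarith
  have h0 : 0 < γ := by linarith
  have hs : sPar γ = 2 * γ / (2 * γ - 1) := rfl
  have hexp : Real.exp (-(sPar γ * κ) * |z|) =
      Real.exp (-κ * |z|) * Real.exp (-(κ / (2 * γ - 1)) * |z|) := by
    rw [← Real.exp_add]
    congr 1
    rw [hs]
    field_simp
    ring
  unfold rhoD
  rw [hexp, hs]
  set E := Real.exp (-κ * |z|)
  set e := Real.exp (-(κ / (2 * γ - 1)) * |z|)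
  have hκ' : κ ≠ 0 := hκ.ne'
  have h1' : 2 * γ - 1 ≠ 0 := h1.ne'
  have h0' : γ ≠ 0 := h0.ne'
  field_simp
  ring

/-- Master inequality in kernel form. -/
lemma master_PI {x : σ → ℝ} {Rb : σ → Matrix τ τ ℂ} (hRb : ∀ i, (Rb i).IsHermitian)
    {γ κ : ℝ} (hγ : 1 / 2 < γ) (hκ : 0 < κ) :
    2 * γ * (∑ i, ∑ j, zeta (blk Rb * PP x Rb κ * blk Rb) i j * gK x κ i j) -
      (1 / 2) * (∑ i, ∑ j, zeta (blk Rb * PP x Rb κ * blk Rb) i j *
        ((|x i - x j| + 1 / κ) * Real.exp (-κ * |x i - x j|))) ≤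
      2 * γ * (∑ i, ∑ j, zeta (blk Rb * PP x Rb κ * blk Rb) i j * gK x (sPar γ * κ) i j) := by
  set Z := blk Rb * PP x Rb κ * blk Rb with hZ
  have h1 : 0 < 2 * γ - 1 := by linarith
  have hδ : 0 < κ / (2 * γ - 1) := div_pos hκ h1
  have hs := sos_ramp (x := x) hRb κ hδ
  have hid : 2 * γ * (∑ i, ∑ j, zeta Z i j * gK x κ i j) -
      (1 / 2) * (∑ i, ∑ j, zeta Z i j * ((|x i - x j| + 1 / κ) * Real.exp (-κ * |x i - x j|))) -
      2 * γ * (∑ i, ∑ j, zeta Z i j * gK x (sPar γ * κ) i j) =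
      -κ * ∑ i, ∑ j, zeta Z i j * (gK x κ i j * rhoD (κ / (2 * γ - 1)) (x i - x j)) := by
    simp only [Finset.mul_sum, ← Finset.sum_sub_distrib]
    refine Finset.sum_congr rfl (fun i _ => Finset.sum_congr rfl (fun j _ => ?_))
    have := kernel_PI (z := x i - x j) hγ hκ
    unfold gK
    calc _ = zeta Z i j * (2 * γ * (Real.exp (-κ * |x i - x j|) / (2 * κ)) -
          (1 / 2) * ((|x i - x j| + 1 / κ) * Real.exp (-κ * |x i - x j|)) -
          2 * γ * (Real.exp (-(sPar γ * κ) * |x i - x j|) / (2 * (sPar γ * κ)))) := by ring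
      _ = _ := by rw [this]; ring
  have : -κ * ∑ i, ∑ j, zeta Z i j * (gK x κ i j * rhoD (κ / (2 * γ - 1)) (x i - x j)) ≤ 0 := by
    have := mul_nonneg hκ.le hs
    linarith
  linarith

/-- Derivative of the Green kernel in the spectral parameter. -/
lemma gK_hasDerivAt (x : σ → ℝ) (i j : σ) {κ : ℝ} (hκ : 0 < κ) :
    HasDerivAt (fun t => gK x t i j)
      (-((|x i - x j| + 1 / κ) * Real.exp (-κ * |x i - x j|)) / (2 * κ)) κ := by
  unfold gK
  set z := |x i - x j| with hz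
  have d1 : HasDerivAt (fun t : ℝ => -t * z) (-z) κ := by
    simpa using ((hasDerivAt_id κ).neg).mul_const z
  have d2 : HasDerivAt (fun t : ℝ => 2 * t) 2 κ := by
    simpa using (hasDerivAt_id κ).const_mul 2
  have d3 := (d1.exp).div d2 (by positivity : 2 * κ ≠ 0)
  refine d3.congr_deriv ?_
  have hκ' : κ ≠ 0 := hκ.ne'
  field_simp
  ring

/-- Derivative of the linear functional. -/
lemma lin_hasDerivAt (x : σ → ℝ) (Z : σ → σ → ℝ) {κ : ℝ} (hκ : 0 < κ) :
    HasDerivAt (fun t => ∑ i, ∑ j, Z i j * gK x t i j)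
      (∑ i, ∑ j, Z i j * (-((|x i - x j| + 1 / κ) * Real.exp (-κ * |x i - x j|)) / (2 * κ))) κ := by
  apply HasDerivAt.fun_sum
  intro i _
  apply HasDerivAt.fun_sum
  intro j _
  exact (gK_hasDerivAt x i j hκ).const_mul _

/-- The density on the right hand side of the comparison. -/
noncomputable def rhoK (γ Δ M : ℝ) (w : σ → τ → ℝ) (κ : ℝ) : ℝ :=
  2 * γ * κ ^ (2 * γ - 1) *
    ((γ + 1 / 2) * ((1 / (sPar γ * κ)) * (∑ i, Δ * ∑ k, Bb γ (w i k) κ) + M * Δ / π ^ 2))

lemma rhoK_continuousOn {γ : ℝ} (hγ : 1 / 2 < γ) {Δ M : ℝ} {w : σ → τ → ℝ}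
    (hw : ∀ i k, 0 ≤ w i k) : ContinuousOn (rhoK γ Δ M w) (Ioi 0) := by
  intro κ hκ
  have hκ0 : κ ≠ 0 := (show 0 < κ from hκ).ne'
  have hs := sPar_pos hγ
  apply ContinuousAt.continuousWithinAt
  unfold rhoK
  apply ContinuousAt.mul
  · apply ContinuousAt.mul continuousAt_const
    exact Real.continuousAt_rpow_const _ _ (Or.inl hκ0)
  · apply ContinuousAt.mul continuousAt_const
    apply ContinuousAt.add
    · apply ContinuousAt.mul
      · apply ContinuousAt.div continuousAt_const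
        · fun_prop
        · exact mul_ne_zero hs.ne' hκ0
      · apply tendsto_finsetSum
        intro i _
        apply ContinuousAt.mul continuousAt_const
        apply tendsto_finsetSum
        intro k _
        exact (Bb_continuous hγ (hw i k)).continuousAt
    · exact continuousAt_const

/-- **The main comparison on the lattice.** -/
theorem dini_main {γ : ℝ} (hγ : 1 / 2 < γ) {x : σ → ℝ} {Δ : ℝ} (hΔ : 0 < Δ)
    (hper : ∀ i j, i ≠ j → ∃ n : ℤ, n ≠ 0 ∧ x i - x j = n * Δ)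
    {Rb B : σ → Matrix τ τ ℂ} (hRb : ∀ i, (Rb i).IsHermitian) (hB : ∀ i, (B i).PosSemidef)
    (hRB : ∀ i, Rb i * Rb i = (Δ : ℂ) • B i)
    {n : ℕ} (τ' : Fin n → ℝ) (hτ0 : ∀ j, 0 ≤ τ' j)
    (hcount : ∀ κ, 0 < κ → ((Finset.univ.filter fun j => κ ≤ τ' j).card : ℝ) ≤ rtr (PP x Rb κ))
    {a b : ℝ} (ha : 0 < a) (hab : a ≤ b) :
    TT τ' (2 * γ) b ≤ (γ + 1 / 2) * (a ^ (2 * γ) * FF x Rb a) + TT τ' (2 * γ) a +
      ∫ κ in a..b, rhoK γ Δ (∑ i, rtr (Rb i * Rb i)) (fun i k => (hB i).1.eigenvalues k) κ := by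
  have h1γ : 0 < γ + 1 / 2 := by linarith
  have h0γ : 0 < γ := by linarith
  set e := 2 * γ with he
  have he0 : 0 ≤ e := by simp only [he]; linarith
  set ρ := rhoK γ Δ (∑ i, rtr (Rb i * Rb i)) (fun i k => (hB i).1.eigenvalues k) with hρ
  have hw : ∀ i k, 0 ≤ (hB i).1.eigenvalues k := fun i k => (hB i).eigenvalues_nonneg k
  have hρc : ContinuousOn ρ (Ioi 0) := rhoK_continuousOn hγ hw
  set ρ₁ : ℝ → ℝ := fun κ => ρ (max κ a) with hρ₁
  have hρ₁c : Continuous ρ₁ := by
    apply hρc.comp_continuous (by fun_prop)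
    intro κ
    exact lt_of_lt_of_le ha (le_max_right _ _)
  set Θ : ℝ → ℝ := fun t => (γ + 1 / 2) * (t ^ e * FF x Rb t) + TT τ' e t with hΘdef
  have hsub : Icc a b ⊆ Ioi 0 := fun t ht => lt_of_lt_of_le ha ht.1
  have hΘc : ContinuousOn Θ (Icc a b) := by
    apply ContinuousOn.add
    · apply ContinuousOn.mul continuousOn_const
      apply ContinuousOn.mul
      · intro t ht
        apply ContinuousAt.continuousWithinAt
        exact Real.continuousAt_rpow_const _ _ (Or.inl (hsub ht).ne')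
      · exact (FF_continuousOn hRb).mono hsub
    · exact (TT_continuous τ' he0 hτ0).mono hsub
  have hmain : Θ b - Θ a ≤ ∫ κ in a..b, ρ₁ κ := by
    refine left_dini hab hΘc hρ₁c ?_
    intro κ hκ
    have hκ0 : 0 < κ := ha.trans hκ.1
    set Z := blk Rb * PP x Rb κ * blk Rb with hZ
    set lin : ℝ → ℝ := fun t => ∑ i, ∑ j, zeta Z i j * gK x t i j with hlin
    have hlinrtr : ∀ t, rtr (PP x Rb κ * MM x Rb t) = lin t := fun t => rtr_conj_kerG _ _ _
    set y : ℝ → ℝ := fun t => t ^ e * (FF x Rb κ + (lin t - lin κ)) with hy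
    set D : ℝ := ∑ i, ∑ j, zeta Z i j *
      (-((|x i - x j| + 1 / κ) * Real.exp (-κ * |x i - x j|)) / (2 * κ)) with hD
    have hlinder : HasDerivAt lin D κ := lin_hasDerivAt x (fun i j => zeta Z i j) hκ0
    have hpow : HasDerivAt (fun t : ℝ => t ^ e) (e * κ ^ (e - 1)) κ :=
      Real.hasDerivAt_rpow_const (Or.inl hκ0.ne')
    have hyder : HasDerivAt y (e * κ ^ (e - 1) * (FF x Rb κ + (lin κ - lin κ)) + κ ^ e * D) κ := by
      have h2 : HasDerivAt (fun t => FF x Rb κ + (lin t - lin κ)) D κ := by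
        simpa using (hlinder.sub_const (lin κ)).const_add (FF x Rb κ)
      exact hpow.mul h2
    set card : ℝ := ((Finset.univ.filter fun j => κ ≤ τ' j).card : ℝ) with hcard
    refine ⟨fun t => (γ + 1 / 2) * y t + TT τ' e t,
      (γ + 1 / 2) * (e * κ ^ (e - 1) * (FF x Rb κ + (lin κ - lin κ)) + κ ^ e * D) +
        e * κ ^ (e - 1) * card, ?_, ?_, ?_⟩
    · exact ((hyder.const_mul (γ + 1 / 2)).hasDerivWithinAt).add (TT_hasDerivWithinAt τ' hκ0)
    · -- the derivative bound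
      have hρ₁κ : ρ₁ κ = ρ κ := by
        simp only [hρ₁]
        rw [max_eq_left hκ.1.le]
      rw [hρ₁κ]
      simp only [hρ, rhoK]
      set K := κ ^ (2 * γ - 1) with hK
      have hKpos : 0 < K := Real.rpow_pos_of_pos hκ0 _
      have hKe : κ ^ e = K * κ := by
        rw [hK, ← Real.rpow_add_one hκ0.ne']
        congr 1
        simp only [he]
        ring
      set n₀ := rtr (PP x Rb κ) with hn₀
      set e₂ : ℝ := ∑ i, ∑ j, zeta Z i j *
        ((|x i - x j| + 1 / κ) * Real.exp (-κ * |x i - x j|)) with he₂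
      have hDe : D = -e₂ / (2 * κ) := by
        rw [hD, he₂, neg_div, Finset.sum_div, ← Finset.sum_neg_distrib]
        refine Finset.sum_congr rfl (fun i _ => ?_)
        rw [Finset.sum_div, ← Finset.sum_neg_distrib]
        refine Finset.sum_congr rfl (fun j _ => ?_)
        ring
      have hFF : FF x Rb κ = lin κ - n₀ := by
        rw [FF_eq (x := x) hRb κ, hlinrtr]
      have hmaster := master_PI (x := x) hRb hγ hκ0
      rw [← hZ] at hmaster
      set b₁ : ℝ := ∑ i, ∑ j, zeta Z i j * gK x (sPar γ * κ) i j with hb₁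
      have hTop := AA_top (x := x) hRb κ
      have hfreq := freq_final hγ hΔ hper hRb hB hRB hTop.hP hTop.hP1 hTop.rank.le hκ0
      rw [rtr_conj_kerG, ← hZ, ← hb₁, ← hn₀] at hfreq
      set 𝔉 := (1 / (sPar γ * κ)) * (∑ i, Δ * ∑ k, Bb γ ((hB i).1.eigenvalues k) κ) +
        (∑ i, rtr (Rb i * Rb i)) * Δ / π ^ 2 with h𝔉
      have hcnt : card ≤ n₀ := hcount κ hκ0
      have hfreq' : (γ + 1 / 2) * b₁ - (γ - 1 / 2) * n₀ ≤ (γ + 1 / 2) * 𝔉 := by
        have := mul_le_mul_of_nonneg_left hfreq h1γ.le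
        have e3 : (γ + 1 / 2) * (b₁ - (γ - 1 / 2) / (γ + 1 / 2) * n₀) =
            (γ + 1 / 2) * b₁ - (γ - 1 / 2) * n₀ := by
          field_simp
        rwa [e3] at this
      have hκinv : κ ^ e * D = K * (-e₂ / 2) := by
        rw [hKe, hDe]
        field_simp
      rw [hκinv, hFF]
      simp only [sub_self, add_zero]
      have hgoal : (γ + 1 / 2) * (e * K * (lin κ - n₀) + K * (-e₂ / 2)) + e * K * card ≤
          (γ + 1 / 2) * K * (2 * γ * b₁ - 2 * γ * n₀) + 2 * γ * K * n₀ := by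
        have h3 : (γ + 1 / 2) * K * (2 * γ * lin κ - 1 / 2 * e₂) ≤
            (γ + 1 / 2) * K * (2 * γ * b₁) :=
          mul_le_mul_of_nonneg_left hmaster (by positivity)
        have h4 : 2 * γ * K * card ≤ 2 * γ * K * n₀ :=
          mul_le_mul_of_nonneg_left hcnt (by positivity)
        simp only [he]
        nlinarith
      have hfin : (γ + 1 / 2) * K * (2 * γ * b₁ - 2 * γ * n₀) + 2 * γ * K * n₀ =
          2 * γ * K * ((γ + 1 / 2) * b₁ - (γ - 1 / 2) * n₀) := by ring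
      calc _ ≤ _ := hgoal
        _ = _ := hfin
        _ ≤ 2 * γ * K * ((γ + 1 / 2) * 𝔉) :=
          mul_le_mul_of_nonneg_left hfreq' (by positivity)
    · -- majorization of the increments
      intro t ht
      have ht0 : 0 < t := lt_of_lt_of_le ha ht.1
      have hsupp := FF_support (x := x) hRb κ t
      rw [Matrix.mul_sub, rtr_sub, hlinrtr, hlinrtr] at hsupp
      have hyt : y t ≤ t ^ e * FF x Rb t :=
        mul_le_mul_of_nonneg_left hsupp (by positivity)
      have hyκ : y κ = κ ^ e * FF x Rb κ := by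
        simp only [hy, sub_self, add_zero]
      simp only [hΘdef]
      rw [hyκ]
      have := mul_le_mul_of_nonneg_left hyt h1γ.le
      linarith
  have hcongr : ∫ κ in a..b, ρ₁ κ = ∫ κ in a..b, ρ κ := by
    apply intervalIntegral.integral_congr
    intro κ hκ
    rw [uIcc_of_le hab] at hκ
    simp only [hρ₁]
    rw [max_eq_left hκ.1]
  rw [hcongr] at hmain
  have hbpos : 0 < b := lt_of_lt_of_le ha hab
  have hFFb : 0 ≤ (γ + 1 / 2) * (b ^ e * FF x Rb b) := by
    have := FF_nonneg (x := x) hRb b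
    positivity
  simp only [hΘdef] at hmain
  linarith

end Vale.Agent.P371
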