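import Mathlib

/-!
The Green kernel identity `exp (-μ |z|) / (2 μ) = (1/π) ∫_0^∞ cos (η z) / (η² + μ²) dη`.
-/

set_option linter.unusedSectionVars false
set_option linter.unusedSimpArgs false
set_option linter.unusedVariables false

open MeasureTheory Set Filter Topology
open scoped FourierTransform Real

namespace Vale.Agent.P371

lemma integrable_exp_abs {μ : ℝ} (hμ : 0 < μ) : Integrable (fun x : ℝ => Real.exp (-μ * |x|)) := by
  have h1 : IntegrableOn (fun x : ℝ => Real.exp (-μ * |x|)) (Iic 0) := by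
    have := integrableOn_exp_mul_Iic hμ 0
    refine this.congr_fun (fun x hx => ?_) measurableSet_Iic
    have : x ≤ 0 := hx
    simp only [abs_of_nonpos this]
    ring_nf
  have h2 : IntegrableOn (fun x : ℝ => Real.exp (-μ * |x|)) (Ioi 0) := by
    have := integrableOn_exp_mul_Ioi (a := -μ) (by linarith) 0
    refine this.congr_fun (fun x hx => ?_) measurableSet_Ioi
    have : 0 < x := hx
    simp only [abs_of_pos this]
  have := h1.union h2
  rwa [Iic_union_Ioi, integrableOn_univ] at this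

lemma fourier_exp_abs {μ : ℝ} (hμ : 0 < μ) (w : ℝ) :
    𝓕 (fun x : ℝ => ((Real.exp (-μ * |x|) : ℝ) : ℂ)) w =
      ((2 * μ / (μ ^ 2 + (2 * π * w) ^ 2) : ℝ) : ℂ) := by
  rw [Real.fourier_real_eq_integral_exp_smul]
  set a₁ : ℂ := (μ : ℂ) - (2 * π * w : ℝ) * Complex.I with ha₁
  set a₂ : ℂ := -(μ : ℂ) - (2 * π * w : ℝ) * Complex.I with ha₂
  have ha₁re : 0 < a₁.re := by simp [ha₁, hμ]
  have ha₂re : a₂.re < 0 := by simp [ha₂, hμ]
  have hI1 : IntegrableOn (fun v : ℝ => Complex.exp (a₁ * v)) (Iic 0) :=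
    integrableOn_exp_mul_complex_Iic ha₁re 0
  have hI2 : IntegrableOn (fun v : ℝ => Complex.exp (a₂ * v)) (Ioi 0) :=
    integrableOn_exp_mul_complex_Ioi ha₂re 0
  have e1 : ∀ v ∈ Iic (0:ℝ), Complex.exp (((-2 * π * v * w : ℝ) : ℂ) * Complex.I) •
      ((Real.exp (-μ * |v|) : ℝ) : ℂ) = Complex.exp (a₁ * v) := by
    intro v hv
    have hv' : v ≤ 0 := hv
    rw [abs_of_nonpos hv', smul_eq_mul, Complex.ofReal_exp, ← Complex.exp_add]
    congr 1
    simp only [ha₁]
    push_cast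
    ring
  have e2 : ∀ v ∈ Ioi (0:ℝ), Complex.exp (((-2 * π * v * w : ℝ) : ℂ) * Complex.I) •
      ((Real.exp (-μ * |v|) : ℝ) : ℂ) = Complex.exp (a₂ * v) := by
    intro v hv
    have hv' : 0 < v := hv
    rw [abs_of_pos hv', smul_eq_mul, Complex.ofReal_exp, ← Complex.exp_add]
    congr 1
    simp only [ha₂]
    push_cast
    ring
  have hleft : IntegrableOn (fun v : ℝ => Complex.exp (((-2 * π * v * w : ℝ) : ℂ) * Complex.I) •
      ((Real.exp (-μ * |v|) : ℝ) : ℂ)) (Iic 0) :=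
    hI1.congr_fun (fun v hv => (e1 v hv).symm) measurableSet_Iic
  have hright : IntegrableOn (fun v : ℝ => Complex.exp (((-2 * π * v * w : ℝ) : ℂ) * Complex.I) •
      ((Real.exp (-μ * |v|) : ℝ) : ℂ)) (Ioi 0) :=
    hI2.congr_fun (fun v hv => (e2 v hv).symm) measurableSet_Ioi
  rw [← intervalIntegral.integral_Iic_add_Ioi hleft hright,
    setIntegral_congr_fun measurableSet_Iic e1, setIntegral_congr_fun measurableSet_Ioi e2,
    integral_exp_mul_complex_Iic ha₁re 0, integral_exp_mul_complex_Ioi ha₂re 0]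
  have hne1 : a₁ ≠ 0 := fun h => by simp [h] at ha₁re
  have hne2 : a₂ ≠ 0 := fun h => by simp [h] at ha₂re
  have hden : (μ : ℂ) ^ 2 + ((2 * π * w : ℝ) : ℂ) ^ 2 ≠ 0 := by
    have : ((μ ^ 2 + (2 * π * w) ^ 2 : ℝ) : ℂ) ≠ 0 := by
      have : 0 < μ ^ 2 + (2 * π * w) ^ 2 := by positivity
      exact_mod_cast this.ne'
    exact_mod_cast this
  simp only [Complex.ofReal_zero, mul_zero, Complex.exp_zero]
  have hprod : a₁ * (-a₂) = (μ : ℂ) ^ 2 + ((2 * π * w : ℝ) : ℂ) ^ 2 := by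
    simp only [ha₁, ha₂]
    ring_nf
    rw [Complex.I_sq]
    ring
  have hfin : ((2 * μ / (μ ^ 2 + (2 * π * w) ^ 2) : ℝ) : ℂ) =
      2 * (μ : ℂ) / ((μ : ℂ) ^ 2 + ((2 * π * w : ℝ) : ℂ) ^ 2) := by
    push_cast; ring
  rw [hfin, ← hprod]
  have hne3 : -a₂ ≠ 0 := neg_ne_zero.mpr hne2
  field_simp
  simp only [ha₁, ha₂]
  ring

lemma integrable_fourier_exp_abs {μ : ℝ} (hμ : 0 < μ) :
    Integrable (fun w : ℝ => 2 * μ / (μ ^ 2 + (2 * π * w) ^ 2)) := by
  have h0 : Integrable (fun x : ℝ => (1 + x ^ 2)⁻¹) := integrable_inv_one_add_sq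
  have h1 : Integrable (fun w : ℝ => (1 + ((2 * π / μ) * w) ^ 2)⁻¹) :=
    h0.comp_mul_left' (by positivity)
  have h2 := h1.const_mul (2 / μ)
  refine h2.congr (Eventually.of_forall (fun w => ?_))
  have hμ' : μ ≠ 0 := hμ.ne'
  have hd : μ ^ 2 + (2 * π * w) ^ 2 ≠ 0 := by positivity
  have hd2 : 1 + (2 * π / μ * w) ^ 2 ≠ 0 := by positivity
  simp only
  field_simp

/-- The real Fourier inversion formula for `exp (-μ|x|)`. -/
lemma inversion_exp_abs {μ : ℝ} (hμ : 0 < μ) (x : ℝ) :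
    ∫ w : ℝ, Real.cos (2 * π * w * x) * (2 * μ / (μ ^ 2 + (2 * π * w) ^ 2)) =
      Real.exp (-μ * |x|) := by
  set f : ℝ → ℂ := fun x : ℝ => ((Real.exp (-μ * |x|) : ℝ) : ℂ) with hf
  have hcont : Continuous f := by
    simp only [hf]
    fun_prop
  have hint : Integrable f := (integrable_exp_abs hμ).ofReal
  have hFT : 𝓕 f = fun w : ℝ => ((2 * μ / (μ ^ 2 + (2 * π * w) ^ 2) : ℝ) : ℂ) :=
    funext (fun w => fourier_exp_abs hμ w)
  have hint2 : Integrable (𝓕 f) := by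
    rw [hFT]
    exact (integrable_fourier_exp_abs hμ).ofReal
  have hinv := hcont.fourierInv_fourier_eq hint hint2
  have hx := congrFun hinv x
  rw [hFT, Real.fourierInv_eq'] at hx
  have hre := congrArg Complex.re hx
  simp only [hf, Complex.ofReal_re] at hre
  rw [← hre]
  have hintg : Integrable (fun v : ℝ => Complex.exp (((2 * π * inner ℝ v x : ℝ) : ℂ) * Complex.I) •
      ((2 * μ / (μ ^ 2 + (2 * π * v) ^ 2) : ℝ) : ℂ)) := by
    have h0 : Integrable (fun v : ℝ => ((2 * μ / (μ ^ 2 + (2 * π * v) ^ 2) : ℝ) : ℂ)) :=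
      (integrable_fourier_exp_abs hμ).ofReal
    refine h0.bdd_mul (c := 1) (by fun_prop) (Eventually.of_forall (fun v => ?_))
    rw [Complex.norm_exp_ofReal_mul_I]
  have := integral_re (𝕜 := ℂ) hintg
  simp only [RCLike.re_to_complex] at this
  rw [← this]
  refine integral_congr_ae (Eventually.of_forall (fun v => ?_))
  simp only [smul_eq_mul, Complex.re_mul_ofReal, Complex.exp_ofReal_mul_I_re]
  congr 2
  simp only [inner, RCLike.inner_apply, conj_trivial]
  simp [mul_comm, mul_assoc, mul_left_comm]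

/-- **Green kernel identity**. -/
theorem green_identity {μ : ℝ} (hμ : 0 < μ) (z : ℝ) :
    (1 / π) * ∫ η in Ioi (0:ℝ), Real.cos (η * z) / (η ^ 2 + μ ^ 2) =
      Real.exp (-μ * |z|) / (2 * μ) := by
  have h := inversion_exp_abs hμ z
  -- substitute `η = 2 π w`
  have h1 : ∫ w : ℝ, Real.cos (2 * π * w * z) * (2 * μ / (μ ^ 2 + (2 * π * w) ^ 2)) =
      (2 * π)⁻¹ * ∫ η : ℝ, Real.cos (η * z) * (2 * μ / (μ ^ 2 + η ^ 2)) := by
    have := MeasureTheory.Measure.integral_comp_mul_left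
      (fun η : ℝ => Real.cos (η * z) * (2 * μ / (μ ^ 2 + η ^ 2))) (2 * π)
    rw [abs_of_pos (by positivity : (0:ℝ) < (2 * π)⁻¹), smul_eq_mul] at this
    exact this
  -- use evenness
  have h2 : ∫ η : ℝ, Real.cos (η * z) * (2 * μ / (μ ^ 2 + η ^ 2)) =
      2 * ∫ η in Ioi (0:ℝ), Real.cos (η * z) * (2 * μ / (μ ^ 2 + η ^ 2)) := by
    have := integral_comp_abs (f := fun η : ℝ => Real.cos (η * z) * (2 * μ / (μ ^ 2 + η ^ 2)))
    rw [← this]
    refine integral_congr_ae (Eventually.of_forall (fun η => ?_))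
    simp only
    rcases abs_choice η with h | h
    · rw [h]
    · rw [h, neg_mul, Real.cos_neg, neg_sq]
  have h3 : ∫ η in Ioi (0:ℝ), Real.cos (η * z) * (2 * μ / (μ ^ 2 + η ^ 2)) =
      2 * μ * ∫ η in Ioi (0:ℝ), Real.cos (η * z) / (η ^ 2 + μ ^ 2) := by
    rw [← integral_const_mul]
    refine integral_congr_ae (Eventually.of_forall (fun η => ?_))
    simp only
    rw [add_comm (η ^ 2)]
    ring
  rw [h1, h2, h3] at h
  have hπ : π ≠ 0 := Real.pi_ne_zero
  have hμ' : μ ≠ 0 := hμ.ne'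
  rw [← h]
  generalize (∫ η in Ioi (0:ℝ), Real.cos (η * z) / (η ^ 2 + μ ^ 2)) = I
  field_simp

end Vale.Agent.P371
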