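import Vale.Agent.Lib.P371.Block
import Vale.Agent.Lib.P371.Bound
import Vale.Agent.Lib.P371.Green

/-!
The frequency layer bound on the lattice.
-/

set_option linter.unusedSectionVars false
set_option linter.unusedSimpArgs false
set_option linter.unusedVariables false

open Matrix MeasureTheory Set Filter Topology
open scoped ComplexOrder Real

namespace Vale.Agent.P371

variable {σ τ : Type*} [Fintype σ] [Fintype τ] [DecidableEq σ] [DecidableEq τ]

lemma cos_form_nonneg (x : σ → ℝ) (u : σ → ℝ) (η : ℝ) :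
    0 ≤ ∑ i, ∑ j, u i * u j * Real.cos (η * (x i - x j)) := by
  have : ∑ i, ∑ j, u i * u j * Real.cos (η * (x i - x j)) =
      (∑ i, u i * Real.cos (η * x i)) ^ 2 + (∑ i, u i * Real.sin (η * x i)) ^ 2 := by
    rw [sq, sq, Finset.sum_mul_sum, Finset.sum_mul_sum, ← Finset.sum_add_distrib]
    refine Finset.sum_congr rfl (fun i _ => ?_)
    rw [← Finset.sum_add_distrib]
    refine Finset.sum_congr rfl (fun j _ => ?_)
    rw [mul_sub, Real.cos_sub]
    ring
  rw [this]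
  positivity

/-- The sharp frequency kernel on a set of frequencies. -/
noncomputable def TkI (x : σ → ℝ) (A : Set ℝ) (i j : σ) : ℝ :=
  (1 / π) * ∫ η in A, Real.cos (η * (x i - x j))

lemma TkI_symm (x : σ → ℝ) (A : Set ℝ) (i j : σ) : TkI x A i j = TkI x A j i := by
  unfold TkI
  congr 2
  ext η
  rw [← Real.cos_neg]
  congr 1
  ring

lemma cos_integrableOn (z : ℝ) {A : Set ℝ} {a b : ℝ} (hA : A ⊆ Icc a b) :
    IntegrableOn (fun η : ℝ => Real.cos (η * z)) A := by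
  have hc : Continuous (fun η : ℝ => Real.cos (η * z)) := by fun_prop
  exact (hc.integrableOn_Icc (a := a) (b := b)).mono_set hA

lemma TkI_form_nonneg (x : σ → ℝ) {A : Set ℝ} {a b : ℝ} (hA : A ⊆ Icc a b) (u : σ → ℝ) :
    0 ≤ ∑ i, ∑ j, u i * u j * TkI x A i j := by
  have : ∑ i, ∑ j, u i * u j * TkI x A i j =
      (1 / π) * ∫ η in A, ∑ i, ∑ j, u i * u j * Real.cos (η * (x i - x j)) := by
    rw [integral_finsetSum]
    · rw [Finset.mul_sum]
      refine Finset.sum_congr rfl (fun i _ => ?_)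
      rw [integral_finsetSum]
      · rw [Finset.mul_sum]
        refine Finset.sum_congr rfl (fun j _ => ?_)
        unfold TkI
        rw [integral_const_mul]
        ring
      · intro j _
        exact (cos_integrableOn _ hA).const_mul _
    · intro i _
      exact integrable_finsetSum _ (fun j _ => (cos_integrableOn _ hA).const_mul _)
  rw [this]
  apply mul_nonneg (by positivity)
  exact integral_nonneg (fun η => cos_form_nonneg x u η)

/-- kernel of the whole Brillouin zone -/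
lemma TkI_top {x : σ → ℝ} {Δ : ℝ} (hΔ : 0 < Δ)
    (hper : ∀ i j, i ≠ j → ∃ n : ℤ, n ≠ 0 ∧ x i - x j = n * Δ) (i j : σ) :
    Δ * TkI x (Ioo 0 (π / Δ)) i j = if i = j then 1 else 0 := by
  have hΞ : 0 ≤ π / Δ := by positivity
  by_cases hij : i = j
  · subst hij
    simp only [if_true, TkI, sub_self, mul_zero, Real.cos_zero]
    rw [setIntegral_const]
    simp only [Real.volume_real_Ioo, sub_zero, max_eq_left hΞ, smul_eq_mul, mul_one]
    have := Real.pi_pos
    field_simp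
  · obtain ⟨n, hn, hz⟩ := hper i j hij
    simp only [hij, if_false, TkI]
    have hzne : (n : ℝ) * Δ ≠ 0 := mul_ne_zero (by exact_mod_cast hn) hΔ.ne'
    rw [← integral_Ioc_eq_integral_Ioo, ← intervalIntegral.integral_of_le hΞ, hz]
    have hder : ∀ η ∈ uIcc 0 (π / Δ), HasDerivAt (fun η : ℝ => Real.sin (η * (n * Δ)) / (n * Δ))
        (Real.cos (η * (n * Δ))) η := by
      intro η _
      have h1 : HasDerivAt (fun η : ℝ => η * ((n:ℝ) * Δ)) ((n:ℝ) * Δ) η := by
        simpa using (hasDerivAt_id η).mul_const ((n:ℝ) * Δ)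
      have h2 := (h1.sin).div_const ((n:ℝ) * Δ)
      refine h2.congr_deriv ?_
      field_simp
    rw [intervalIntegral.integral_eq_sub_of_hasDerivAt hder
      (by
        apply Continuous.intervalIntegrable
        fun_prop)]
    have e : π / Δ * ((n:ℝ) * Δ) = n * π := by
      field_simp
    rw [e, Real.sin_int_mul_pi]
    simp

lemma TkI_diag {x : σ → ℝ} {b : ℝ} (hb : 0 ≤ b) (i : σ) : TkI x (Ioo 0 b) i i = b / π := by
  simp only [TkI, sub_self, mul_zero, Real.cos_zero]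
  rw [setIntegral_const]
  simp only [Real.volume_real_Ioo, sub_zero, max_eq_left hb, smul_eq_mul, mul_one]
  ring

/-- Complement in the Brillouin zone. -/
lemma TkI_compl {x : σ → ℝ} {b Ξ : ℝ} (hb : 0 ≤ b) (hbΞ : b ≤ Ξ) (i j : σ) :
    TkI x (Ioo 0 Ξ) i j = TkI x (Ioo 0 b) i j + TkI x (Ico b Ξ) i j := by
  unfold TkI
  rw [← mul_add]
  congr 1
  have hd : Disjoint (Ioo 0 b) (Ico b Ξ) := by
    rw [Set.disjoint_left]
    intro y hy hy'
    exact absurd hy.2 (not_lt.mpr hy'.1)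
  by_cases h0 : b = 0
  · subst h0
    simp only [Ioo_self, Measure.restrict_empty, integral_zero_measure, zero_add] 
    rw [integral_Ico_eq_integral_Ioo]
  · have hb0 : 0 < b := lt_of_le_of_ne hb (Ne.symm h0)
    have hu : Ioo 0 Ξ = Ioo 0 b ∪ Ico b Ξ := by
      rw [Ioo_union_Ico_eq_Ioo hb0 hbΞ]
    rw [hu, setIntegral_union hd measurableSet_Ico
      (cos_integrableOn _ (Ioo_subset_Icc_self)) (cos_integrableOn _ (Ico_subset_Icc_self))]

/-- `0 ≤ Δ T_b` as a matrix -/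
lemma S_psd (x : σ → ℝ) {Δ b : ℝ} (hΔ : 0 < Δ) :
    ((Δ : ℂ) • (kerG (TkI x (Ioo 0 b)) : Matrix (σ × τ) (σ × τ) ℂ)).PosSemidef := by
  rw [kerG_smul]
  apply kerG_psd
  · intro i j
    rw [TkI_symm]
  · intro u
    have := TkI_form_nonneg x (Ioo_subset_Icc_self : Ioo 0 b ⊆ Icc 0 b) u
    have e : ∑ i, ∑ j, u i * u j * (Δ * TkI x (Ioo 0 b) i j) =
        Δ * ∑ i, ∑ j, u i * u j * TkI x (Ioo 0 b) i j := by
      simp only [Finset.mul_sum]
      refine Finset.sum_congr rfl (fun i _ => Finset.sum_congr rfl (fun j _ => ?_))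
      ring
    rw [e]
    exact mul_nonneg hΔ.le this

/-- `Δ T_b ≤ 1` as a matrix -/
lemma S1_psd {x : σ → ℝ} {Δ b : ℝ} (hΔ : 0 < Δ)
    (hper : ∀ i j, i ≠ j → ∃ n : ℤ, n ≠ 0 ∧ x i - x j = n * Δ)
    (hb : 0 ≤ b) (hbΞ : b ≤ π / Δ) :
    (1 - (Δ : ℂ) • (kerG (TkI x (Ioo 0 b)) : Matrix (σ × τ) (σ × τ) ℂ)).PosSemidef := by
  have e : (1 - (Δ : ℂ) • (kerG (TkI x (Ioo 0 b)) : Matrix (σ × τ) (σ × τ) ℂ)) =
      (Δ : ℂ) • kerG (TkI x (Ico b (π / Δ))) := by
    rw [kerG_smul, kerG_smul, ← kerG_delta, kerG_sub]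
    congr 1
    ext i j
    rw [← TkI_top hΔ hper i j, TkI_compl hb hbΞ]
    ring
  rw [e, kerG_smul]
  apply kerG_psd
  · intro i j
    rw [TkI_symm]
  · intro u
    have := TkI_form_nonneg x (Ico_subset_Icc_self : Ico b (π / Δ) ⊆ Icc b (π / Δ)) u
    have e : ∑ i, ∑ j, u i * u j * (Δ * TkI x (Ico b (π / Δ)) i j) =
        Δ * ∑ i, ∑ j, u i * u j * TkI x (Ico b (π / Δ)) i j := by
      simp only [Finset.mul_sum]
      refine Finset.sum_congr rfl (fun i _ => Finset.sum_congr rfl (fun j _ => ?_))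
      ring
    rw [e]
    exact mul_nonneg hΔ.le this

lemma fc_const {A : Matrix τ τ ℂ} (hA : A.IsHermitian) (c : ℝ) :
    fc hA (fun _ => c) = (c : ℂ) • 1 := by
  unfold fc
  have : diagonal (fun _ : τ => (c : ℂ)) = (c : ℂ) • 1 := by
    ext a b
    by_cases h : a = b
    · simp [h]
    · simp [h]
  rw [this, Matrix.mul_smul, Matrix.smul_mul, Matrix.mul_one, unitary_mul_star]

/-- The frequency layer bound. `B i` is the mean of the potential over the `i`-th cell. -/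
theorem freq_bound {x : σ → ℝ} {Δ : ℝ} (hΔ : 0 < Δ)
    (hper : ∀ i j, i ≠ j → ∃ n : ℤ, n ≠ 0 ∧ x i - x j = n * Δ)
    {Rb B : σ → Matrix τ τ ℂ} (hRb : ∀ i, (Rb i).IsHermitian) (hB : ∀ i, (B i).IsHermitian)
    (hRB : ∀ i, Rb i * Rb i = (Δ : ℂ) • B i)
    {P : Matrix (σ × τ) (σ × τ) ℂ} (hP : P.PosSemidef) (hP1 : (1 - P).PosSemidef)
    (hrank : (P.rank : ℝ) ≤ rtr P) {b c : ℝ} (hb : 0 ≤ b) (hbΞ : b ≤ π / Δ) (hc : 0 ≤ c) :
    rtr (P * (blk Rb * kerG (TkI x (Ioo 0 b)) * blk Rb)) ≤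
      c * rtr P + (b / π) * ∑ i, Δ * ∑ k, max ((hB i).eigenvalues k - c) 0 := by
  have hsq : 0 < Real.sqrt Δ := Real.sqrt_pos.mpr hΔ
  have hsqne : (Real.sqrt Δ : ℂ) ≠ 0 := by exact_mod_cast hsq.ne'
  have hsq2 : ((Real.sqrt Δ : ℝ) : ℂ) * (Real.sqrt Δ : ℝ) = (Δ : ℂ) := by
    rw [← Complex.ofReal_mul, Real.mul_self_sqrt hΔ.le]
  set R : Matrix (σ × τ) (σ × τ) ℂ := blk Rb with hR
  set K : Matrix (σ × τ) (σ × τ) ℂ := kerG (TkI x (Ioo 0 b)) with hK
  set D : Matrix (σ × τ) (σ × τ) ℂ := (((Real.sqrt Δ)⁻¹ : ℝ) : ℂ) • R with hD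
  have hRh : R.IsHermitian := blk_herm hRb
  have hDh : D.IsHermitian := by
    unfold Matrix.IsHermitian
    rw [hD, conjTranspose_smul, hRh.eq]
    simp
  have hDSD : D * ((Δ : ℂ) • K) * D = R * K * R := by
    rw [hD]
    simp only [Matrix.smul_mul, Matrix.mul_smul, smul_smul]
    have : (((Real.sqrt Δ)⁻¹ : ℝ) : ℂ) * ((((Real.sqrt Δ)⁻¹ : ℝ) : ℂ) * (Δ : ℂ)) = 1 := by
      rw [← hsq2]
      push_cast
      field_simp
    rw [show (((Real.sqrt Δ)⁻¹ : ℝ) : ℂ) * ((Δ : ℂ) * (((Real.sqrt Δ)⁻¹ : ℝ) : ℂ)) =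
      (((Real.sqrt Δ)⁻¹ : ℝ) : ℂ) * ((((Real.sqrt Δ)⁻¹ : ℝ) : ℂ) * (Δ : ℂ)) by ring]
    simp only [this, one_smul]
  have hDD : D * D = blk B := by
    rw [hD]
    simp only [Matrix.smul_mul, Matrix.mul_smul, smul_smul]
    rw [hR, blk_mul]
    simp only [hRB]
    rw [blk_smul]
    congr 1
    ext1 i
    rw [smul_smul]
    have : (((Real.sqrt Δ)⁻¹ : ℝ) : ℂ) * (((Real.sqrt Δ)⁻¹ : ℝ) : ℂ) * (Δ : ℂ) = 1 := by
      rw [← hsq2]
      push_cast
      field_simp
    rw [this, one_smul]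
  -- the majorant
  set Qb : σ → Matrix τ τ ℂ := fun i => fc (hB i) (fun k => max ((hB i).eigenvalues k - c) 0) with hQb
  have hQbpsd : ∀ i, (Qb i).PosSemidef := fun i => fc_posSemidef _ (fun k => le_max_right _ _)
  have hQ : (blk Qb).PosSemidef := blk_psd hQbpsd
  have hQ2 : (blk Qb - (D * D - (c : ℂ) • 1)).PosSemidef := by
    have e : blk Qb - (D * D - (c : ℂ) • 1) =
        blk (fun i => fc (hB i) (fun k => max (c - (hB i).eigenvalues k) 0)) := by
      rw [hDD, ← blk_one, blk_smul, blk_sub, blk_sub]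
      congr 1
      ext1 i
      have h1 : B i - (c : ℂ) • (1 : Matrix τ τ ℂ) =
          fc (hB i) (fun k => (hB i).eigenvalues k - c) := by
        calc B i - (c : ℂ) • (1 : Matrix τ τ ℂ)
            = fc (hB i) (hB i).eigenvalues - fc (hB i) (fun _ => c) := by
              rw [fc_eigenvalues, fc_const]
          _ = _ := fc_sub _ _ _
      simp only [hQb]
      rw [h1, fc_sub]
      congr 1
      ext k
      rcases le_total ((hB i).eigenvalues k) c with hk | hk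
      · rw [max_eq_right (by linarith), max_eq_left (by linarith)]; ring
      · rw [max_eq_left (by linarith), max_eq_right (by linarith)]; ring
    rw [e]
    exact blk_psd (fun i => fc_posSemidef _ (fun k => le_max_right _ _))
  have hkey := key_trace (S_psd (τ := τ) x (b := b) hΔ) (S1_psd hΔ hper hb hbΞ) hDh hP hP1 hrank hc hQ hQ2
  rw [hDSD] at hkey
  have hS : rtr (((Δ : ℂ) • K) * blk Qb) = Δ * ∑ i, (b / π) * ∑ k, max ((hB i).eigenvalues k - c) 0 := by
    rw [Matrix.smul_mul, rtr_smul, rtr_kerG_mul_blk]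
    congr 1
    refine Finset.sum_congr rfl (fun i _ => ?_)
    rw [TkI_diag hb, rtr_fc]
  rw [hS] at hkey
  have e : (b / π) * ∑ i, Δ * ∑ k, max ((hB i).eigenvalues k - c) 0 =
      Δ * ∑ i, (b / π) * ∑ k, max ((hB i).eigenvalues k - c) 0 := by
    simp only [Finset.mul_sum]
    refine Finset.sum_congr rfl (fun i _ => Finset.sum_congr rfl (fun k _ => ?_))
    ring
  rw [e]
  linarith

/-- Green kernel on the lattice. -/
noncomputable def gK (x : σ → ℝ) (μ : ℝ) (i j : σ) : ℝ :=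
  Real.exp (-μ * |x i - x j|) / (2 * μ)

lemma gK_symm (x : σ → ℝ) (μ : ℝ) (i j : σ) : gK x μ i j = gK x μ j i := by
  unfold gK
  rw [abs_sub_comm]

/-- The linear functional written with the coefficients `zeta`. -/
lemma rtr_conj_kerG (P R : Matrix (σ × τ) (σ × τ) ℂ) (h : σ → σ → ℝ) :
    rtr (P * (R * kerG h * R)) = ∑ i, ∑ j, zeta (R * P * R) i j * h i j := by
  rw [← rtr_mul_kerG]
  rw [show P * (R * kerG h * R) = (P * (R * kerG h)) * R by simp only [Matrix.mul_assoc],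
    rtr_mul_comm]
  simp only [Matrix.mul_assoc]

/-- The frequency profile of a projection. -/
noncomputable def LL (x : σ → ℝ) (Z : Matrix (σ × τ) (σ × τ) ℂ) (η : ℝ) : ℝ :=
  ∑ i, ∑ j, zeta Z i j * Real.cos (η * (x i - x j))

lemma LL_continuous (x : σ → ℝ) (Z : Matrix (σ × τ) (σ × τ) ℂ) : Continuous (LL x Z) := by
  unfold LL
  fun_prop

lemma cos_kerG_psd (x : σ → ℝ) (η : ℝ) :
    (kerG (fun i j => Real.cos (η * (x i - x j))) : Matrix (σ × τ) (σ × τ) ℂ).PosSemidef := by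
  apply kerG_psd
  · intro i j
    rw [← Real.cos_neg]
    congr 1
    ring
  · intro u
    exact cos_form_nonneg x u η

lemma LL_nonneg (x : σ → ℝ) {P : Matrix (σ × τ) (σ × τ) ℂ} (hP : P.PosSemidef)
    {Rb : σ → Matrix τ τ ℂ} (hRb : ∀ i, (Rb i).IsHermitian) (η : ℝ) :
    0 ≤ LL x (blk Rb * P * blk Rb) η := by
  unfold LL
  rw [← rtr_conj_kerG]
  apply rtr_mul_nonneg hP
  have := (cos_kerG_psd (τ := τ) x η).mul_mul_conjTranspose_same (blk Rb)
  rwa [(blk_herm hRb).eq] at this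

lemma LL_le (x : σ → ℝ) {P : Matrix (σ × τ) (σ × τ) ℂ} (hP1 : (1 - P).PosSemidef)
    {Rb : σ → Matrix τ τ ℂ} (hRb : ∀ i, (Rb i).IsHermitian) (η : ℝ) :
    LL x (blk Rb * P * blk Rb) η ≤ ∑ i, rtr (Rb i * Rb i) := by
  unfold LL
  rw [← rtr_conj_kerG]
  have hpsd : (blk Rb * kerG (fun i j => Real.cos (η * (x i - x j))) * blk Rb :
      Matrix (σ × τ) (σ × τ) ℂ).PosSemidef := by
    have := (cos_kerG_psd (τ := τ) x η).mul_mul_conjTranspose_same (blk Rb)
    rwa [(blk_herm hRb).eq] at this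
  have h1 := rtr_mul_nonneg hP1 hpsd
  rw [Matrix.sub_mul, Matrix.one_mul, rtr_sub] at h1
  have h2 : rtr (blk Rb * kerG (fun i j => Real.cos (η * (x i - x j))) * blk Rb :
      Matrix (σ × τ) (σ × τ) ℂ) = ∑ i, rtr (Rb i * Rb i) := by
    rw [rtr_mul_comm, ← Matrix.mul_assoc, rtr_mul_comm, blk_mul, rtr_kerG_mul_blk]
    simp
  linarith

lemma rtr_TkI (x : σ → ℝ) (P R : Matrix (σ × τ) (σ × τ) ℂ) {b : ℝ} :
    rtr (P * (R * kerG (TkI x (Ioo 0 b)) * R)) =
      (1 / π) * ∫ η in Ioo 0 b, LL x (R * P * R) η := by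
  rw [rtr_conj_kerG]
  unfold LL
  rw [integral_finsetSum, Finset.mul_sum]
  · refine Finset.sum_congr rfl (fun i _ => ?_)
    rw [integral_finsetSum, Finset.mul_sum]
    · refine Finset.sum_congr rfl (fun j _ => ?_)
      unfold TkI
      rw [integral_const_mul]
      ring
    · intro j _
      exact (cos_integrableOn _ (Ioo_subset_Icc_self)).const_mul _
  · intro i _
    exact integrable_finsetSum _ (fun j _ =>
      (cos_integrableOn _ (Ioo_subset_Icc_self)).const_mul _)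

lemma integrable_cos_div (z : ℝ) {μ : ℝ} (hμ : 0 < μ) :
    Integrable (fun η : ℝ => Real.cos (η * z) / (η ^ 2 + μ ^ 2)) := by
  have hI : Integrable (fun η : ℝ => 1 / μ ^ 2 * (1 + (μ⁻¹ * η) ^ 2)⁻¹) := by
    have h0 : Integrable (fun x : ℝ => (1 + x ^ 2)⁻¹) := integrable_inv_one_add_sq
    exact (h0.comp_mul_left' (inv_ne_zero hμ.ne')).const_mul _
  refine hI.mono' (by
    apply Measurable.aestronglyMeasurable
    fun_prop) (Eventually.of_forall (fun η => ?_))
  have hpos : 0 < η ^ 2 + μ ^ 2 := by positivity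
  have e : 1 / μ ^ 2 * (1 + (μ⁻¹ * η) ^ 2)⁻¹ = 1 / (η ^ 2 + μ ^ 2) := by
    have : μ ≠ 0 := hμ.ne'
    field_simp
    ring
  rw [e, Real.norm_eq_abs, abs_div, abs_of_pos hpos]
  exact div_le_div_of_nonneg_right (Real.abs_cos_le_one _) hpos.le

lemma rtr_gK (x : σ → ℝ) (P R : Matrix (σ × τ) (σ × τ) ℂ) {μ : ℝ} (hμ : 0 < μ) :
    rtr (P * (R * kerG (gK x μ) * R)) =
      (1 / π) * ∫ η in Ioi 0, LL x (R * P * R) η / (η ^ 2 + μ ^ 2) := by
  rw [rtr_conj_kerG]
  unfold LL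
  simp only [Finset.sum_div, mul_div_assoc]
  rw [integral_finsetSum, Finset.mul_sum]
  · refine Finset.sum_congr rfl (fun i _ => ?_)
    rw [integral_finsetSum, Finset.mul_sum]
    · refine Finset.sum_congr rfl (fun j _ => ?_)
      rw [integral_const_mul]
      have := green_identity hμ (x i - x j)
      unfold gK
      rw [← this]
      ring
    · intro j _
      exact ((integrable_cos_div _ hμ).integrableOn).const_mul _
  · intro i _
    exact integrable_finsetSum _ (fun j _ => ((integrable_cos_div _ hμ).integrableOn).const_mul _)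

/-- **Frequency bound at a Green kernel.** -/
theorem freq_final {γ : ℝ} (hγ : 1 / 2 < γ) {x : σ → ℝ} {Δ : ℝ} (hΔ : 0 < Δ)
    (hper : ∀ i j, i ≠ j → ∃ n : ℤ, n ≠ 0 ∧ x i - x j = n * Δ)
    {Rb B : σ → Matrix τ τ ℂ} (hRb : ∀ i, (Rb i).IsHermitian) (hB : ∀ i, (B i).PosSemidef)
    (hRB : ∀ i, Rb i * Rb i = (Δ : ℂ) • B i)
    {P : Matrix (σ × τ) (σ × τ) ℂ} (hP : P.PosSemidef) (hP1 : (1 - P).PosSemidef)
    (hrank : (P.rank : ℝ) ≤ rtr P) {κ : ℝ} (hκ : 0 < κ) :
    rtr (P * (blk Rb * kerG (gK x (sPar γ * κ)) * blk Rb)) -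
        ((γ - 1 / 2) / (γ + 1 / 2)) * rtr P ≤
      (1 / (sPar γ * κ)) * (∑ i, Δ * ∑ k, Bb γ ((hB i).1.eigenvalues k) κ) +
        (∑ i, rtr (Rb i * Rb i)) * Δ / π ^ 2 := by
  have hs := sPar_pos hγ
  set μ := sPar γ * κ with hμdef
  have hμ : 0 < μ := mul_pos hs hκ
  have hπ := Real.pi_pos
  have hw : ∀ i k, 0 ≤ (hB i).1.eigenvalues k := fun i k => (hB i).eigenvalues_nonneg k
  set Z := blk Rb * P * blk Rb with hZ
  set Φ : ℝ → ℝ := fun c => ∑ i, Δ * ∑ k, max ((hB i).1.eigenvalues k - c) 0 with hΦ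
  have hΦ0 : ∀ c, 0 ≤ Φ c := by
    intro c
    refine Finset.sum_nonneg (fun i _ => mul_nonneg hΔ.le ?_)
    exact Finset.sum_nonneg (fun k _ => le_max_right _ _)
  have hFB : ∀ b c : ℝ, 0 ≤ b → b ≤ π / Δ → 0 ≤ c →
      (1 / π) * ∫ η in Ioo 0 b, LL x Z η ≤ c * rtr P + (b / π) * Φ c := by
    intro b c hb hbΞ hc
    rw [← rtr_TkI]
    exact freq_bound hΔ hper hRb (fun i => (hB i).1) hRB hP hP1 hrank hb hbΞ hc
  have hΦi : IntegrableOn (fun t => nn t * Φ (μ ^ 2 * cHat γ t)) (Ioo (0:ℝ) 1) := by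
    have e : (fun t => nn t * Φ (μ ^ 2 * cHat γ t)) = fun t => ∑ i, Δ * ∑ k,
        nn t * max ((hB i).1.eigenvalues k - μ ^ 2 * cHat γ t) 0 := by
      ext t
      simp only [hΦ, Finset.mul_sum]
      refine Finset.sum_congr rfl (fun i _ => Finset.sum_congr rfl (fun k _ => ?_))
      ring
    rw [e]
    refine integrable_finsetSum _ (fun i _ => Integrable.const_mul ?_ _)
    refine integrable_finsetSum _ (fun k _ => ?_)
    exact layer_integrable' hγ (hw i k) (sq_nonneg μ)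
  have hΞ : 0 < π / Δ := by positivity
  have halloc := alloc_bound (LL_continuous x Z) (LL_nonneg x hP hRb) (LL_le x hP1 hRb)
    (r := rtr P) hμ hΞ hΦ0 hFB (fun t ht => cHat_nonneg hγ ht) (cHat_integrableOn hγ)
    (cHat_integral hγ) hΦi
  rw [← rtr_gK x P (blk Rb) hμ] at halloc
  have e1 : (1 / π) * ∫ t in Ioo (0:ℝ) 1, nn t * Φ (μ ^ 2 * cHat γ t) =
      ∑ i, Δ * ∑ k, Bb γ ((hB i).1.eigenvalues k) κ := by
    have hsum : ∀ t, nn t * Φ (μ ^ 2 * cHat γ t) = ∑ i, Δ * ∑ k,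
        nn t * max ((hB i).1.eigenvalues k - μ ^ 2 * cHat γ t) 0 := by
      intro t
      simp only [hΦ, Finset.mul_sum]
      refine Finset.sum_congr rfl (fun i _ => Finset.sum_congr rfl (fun k _ => ?_))
      ring
    simp only [hsum]
    rw [integral_finsetSum, Finset.mul_sum]
    · refine Finset.sum_congr rfl (fun i _ => ?_)
      rw [integral_const_mul, integral_finsetSum]
      · simp only [Bb, ← hμdef]
        rw [← mul_assoc, mul_comm (1 / π) Δ, mul_assoc, Finset.mul_sum]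
      · intro k _
        exact layer_integrable' hγ (hw i k) (sq_nonneg μ)
    · intro i _
      refine Integrable.const_mul ?_ _
      refine integrable_finsetSum _ (fun k _ => ?_)
      exact layer_integrable' hγ (hw i k) (sq_nonneg μ)
  rw [e1] at halloc
  have e2 : (∑ i, rtr (Rb i * Rb i)) / (π * (π / Δ)) = (∑ i, rtr (Rb i * Rb i)) * Δ / π ^ 2 := by
    have : Δ ≠ 0 := hΔ.ne'
    field_simp
  rw [e2] at halloc
  exact halloc

end Vale.Agent.P371
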