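import Vale.Agent.Lib.P371.Spectral

/-!
The key trace inequality (a Berezin-Lieb type bound).
-/

set_option linter.unusedSectionVars false
set_option linter.unusedSimpArgs false
set_option linter.unusedVariables false

open Matrix
open scoped ComplexOrder

namespace Vale.Agent.P371

variable {ι : Type*} [Fintype ι] [DecidableEq ι]

/-- diagonal entry, in the eigenbasis given by the unitary `U`, of `X` -/
noncomputable def dEntry (U X : Matrix ι ι ℂ) (a : ι) : ℝ := ((star U * X * U) a a).re

lemma dEntry_sum {U : Matrix ι ι ℂ} (hU : U * star U = 1) (X : Matrix ι ι ℂ) :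
    ∑ a, dEntry U X a = rtr X := by
  unfold dEntry rtr
  rw [← Complex.re_sum]
  congr 1
  have : ∑ a, (star U * X * U) a a = Matrix.trace (star U * X * U) := by
    simp [Matrix.trace]
  rw [this, Matrix.trace_mul_comm, ← Matrix.mul_assoc, hU, Matrix.one_mul]

lemma dEntry_nonneg (U : Matrix ι ι ℂ) {X : Matrix ι ι ℂ} (hX : X.PosSemidef) (a : ι) :
    0 ≤ dEntry U X a := by
  have h : (star U * X * U).PosSemidef := by
    have := hX.conjTranspose_mul_mul_same U
    simpa [star_eq_conjTranspose] using this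
  exact (Complex.le_def.mp (h.diag_nonneg (i := a))).1

lemma dEntry_sub (U X Y : Matrix ι ι ℂ) (a : ι) :
    dEntry U (X - Y) a = dEntry U X a - dEntry U Y a := by
  unfold dEntry
  simp [Matrix.mul_sub, Matrix.sub_mul]

lemma dEntry_smul (U X : Matrix ι ι ℂ) (c : ℝ) (a : ι) :
    dEntry U ((c : ℂ) • X) a = c * dEntry U X a := by
  unfold dEntry
  simp [Matrix.mul_smul, Matrix.smul_mul]

lemma dEntry_one {U : Matrix ι ι ℂ} (hU : star U * U = 1) (a : ι) : dEntry U 1 a = 1 := by
  unfold dEntry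
  simp [hU]

/-- **Key trace inequality.** For `0 ≤ S ≤ 1`, `D` Hermitian, `0 ≤ P ≤ 1` with
`rank P ≤ Tr P`, `c ≥ 0` and `Q ≥ 0`, `Q ≥ D² - c`: `Tr P (D S D) - c Tr P ≤ Tr (S Q)`. -/
theorem key_trace {S D P Q : Matrix ι ι ℂ} (hS : S.PosSemidef) (hS1 : (1 - S).PosSemidef)
    (hD : D.IsHermitian) (hP : P.PosSemidef) (hP1 : (1 - P).PosSemidef)
    (hrank : (P.rank : ℝ) ≤ rtr P) {c : ℝ} (hc : 0 ≤ c) (hQ : Q.PosSemidef)
    (hQ2 : (Q - (D * D - (c : ℂ) • 1)).PosSemidef) :
    rtr (P * (D * S * D)) - c * rtr P ≤ rtr (S * Q) := by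
  classical
  obtain ⟨T, hT, hTT⟩ := exists_sqrt hS
  have hTh : Tᴴ = T := hT.1
  have hDh : Dᴴ = D := hD
  set B := T * D with hB
  have hBh : Bᴴ = D * T := by
    rw [hB, conjTranspose_mul, hTh, hDh]
  set Z := B * P * Bᴴ with hZdef
  have hZpsd : Z.PosSemidef := hP.mul_mul_conjTranspose_same B
  have hZ : Z.IsHermitian := hZpsd.1
  set U : Matrix ι ι ℂ := (hZ.eigenvectorUnitary : Matrix ι ι ℂ) with hUdef
  have hU1 : U * star U = 1 := unitary_mul_star hZ
  have hU2 : star U * U = 1 := unitary_star_mul hZ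
  -- eigenvalues
  have hdZ : ∀ a, dEntry U Z a = hZ.eigenvalues a := by
    intro a
    unfold dEntry
    have h1 : star U * Z * U = diagonal (fun i => (hZ.eigenvalues i : ℂ)) := by
      conv_lhs => rw [← fc_eigenvalues hZ]
      unfold fc
      rw [← hUdef]
      calc star U * (U * diagonal (fun i => (hZ.eigenvalues i : ℂ)) * star U) * U
          = (star U * U) * diagonal (fun i => (hZ.eigenvalues i : ℂ)) * (star U * U) := by
            simp only [Matrix.mul_assoc]
        _ = _ := by rw [hU2, Matrix.one_mul, Matrix.mul_one]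
    rw [h1]
    simp
  -- (i) Z ≤ B Bᴴ
  have h1 : ∀ a, hZ.eigenvalues a ≤ dEntry U (T * (D * D) * T) a := by
    intro a
    have hpsd : (B * (1 - P) * Bᴴ).PosSemidef := hP1.mul_mul_conjTranspose_same B
    have := dEntry_nonneg U hpsd a
    have h2 : B * (1 - P) * Bᴴ = T * (D * D) * T - Z := by
      rw [hZdef, Matrix.mul_sub, Matrix.sub_mul, Matrix.mul_one, hBh, hB]
      simp only [Matrix.mul_assoc]
    rw [h2, dEntry_sub, hdZ] at this
    linarith
  -- (ii)
  have h2 : ∀ a, dEntry U (T * (D * D) * T) a ≤ dEntry U (T * Q * T) a + c * dEntry U S a := by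
    intro a
    have hpsd : (T * (Q - (D * D - (c : ℂ) • 1)) * T).PosSemidef := by
      have := hQ2.mul_mul_conjTranspose_same T
      rwa [hTh] at this
    have := dEntry_nonneg U hpsd a
    have h3 : T * (Q - (D * D - (c : ℂ) • 1)) * T =
        T * Q * T - T * (D * D) * T + (c : ℂ) • S := by
      rw [← hTT]
      simp only [Matrix.mul_sub, Matrix.sub_mul, Matrix.mul_smul, Matrix.smul_mul, Matrix.mul_one]
      abel
    have h4 : dEntry U (T * Q * T - T * (D * D) * T + (c : ℂ) • S) a =
        dEntry U (T * Q * T) a - dEntry U (T * (D * D) * T) a + c * dEntry U S a := by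
      rw [← dEntry_sub, ← dEntry_smul]
      unfold dEntry
      simp [Matrix.mul_add, Matrix.add_mul]
    rw [h3, h4] at this
    linarith
  -- (iii)
  have h3 : ∀ a, dEntry U S a ≤ 1 := by
    intro a
    have := dEntry_nonneg U hS1 a
    rw [dEntry_sub, dEntry_one hU2] at this
    linarith
  -- (iv)
  have h4 : ∀ a, 0 ≤ dEntry U (T * Q * T) a := by
    intro a
    have hpsd : (T * Q * T).PosSemidef := by
      have := hQ.mul_mul_conjTranspose_same T
      rwa [hTh] at this
    exact dEntry_nonneg U hpsd a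
  -- pointwise inequality
  have h5 : ∀ a, hZ.eigenvalues a - c ≤ dEntry U (T * Q * T) a := by
    intro a
    have e1 := h1 a
    have e2 := h2 a
    have e3 := h3 a
    have e4 : c * dEntry U S a ≤ c * 1 := mul_le_mul_of_nonneg_left e3 hc
    linarith
  -- rank count
  have hcount : ((Finset.univ.filter fun a => hZ.eigenvalues a ≠ 0).card : ℝ) ≤ rtr P := by
    refine le_trans ?_ hrank
    have e1 : Z.rank = Fintype.card {i // hZ.eigenvalues i ≠ 0} := hZ.rank_eq_card_non_zero_eigs
    have e2 : Z.rank ≤ P.rank := by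
      rw [hZdef]
      exact (rank_mul_le_left _ _).trans (rank_mul_le_right _ _)
    rw [Fintype.card_subtype] at e1
    rw [← e1]
    exact_mod_cast e2
  -- trace of Z
  have hsum : ∑ a, hZ.eigenvalues a = rtr (P * (D * S * D)) := by
    have : ∑ a, dEntry U Z a = rtr Z := dEntry_sum hU1 Z
    simp only [hdZ] at this
    rw [this, hZdef, hBh, hB, ← hTT]
    simp only [Matrix.mul_assoc]
    rw [rtr_mul_comm T]
    simp only [Matrix.mul_assoc]
    rw [rtr_mul_comm D]
    simp only [Matrix.mul_assoc]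
  have hsumQ : ∑ a, dEntry U (T * Q * T) a = rtr (S * Q) := by
    rw [dEntry_sum hU1, ← hTT, rtr_mul_comm (T * Q) T, Matrix.mul_assoc T T Q]
  -- conclusion
  rw [← hsum, ← hsumQ]
  have h6 : ∑ a, hZ.eigenvalues a - c * ((Finset.univ.filter fun a => hZ.eigenvalues a ≠ 0).card : ℝ)
      ≤ ∑ a, dEntry U (T * Q * T) a := by
    have : c * ((Finset.univ.filter fun a => hZ.eigenvalues a ≠ 0).card : ℝ) =
        ∑ a, (if hZ.eigenvalues a ≠ 0 then c else 0) := by
      rw [Finset.sum_ite]
      simp [mul_comm]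
    rw [this, ← Finset.sum_sub_distrib]
    refine Finset.sum_le_sum (fun a _ => ?_)
    by_cases ha : hZ.eigenvalues a = 0
    · simp [ha, h4 a]
    · simp only [ne_eq, ha, not_false_eq_true, if_true]
      exact h5 a
  have h7 : c * ((Finset.univ.filter fun a => hZ.eigenvalues a ≠ 0).card : ℝ) ≤ c * rtr P :=
    mul_le_mul_of_nonneg_left hcount hc
  linarith

end Vale.Agent.P371
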