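import Mathlib

/-!
The kernel `P κ z = κ e^{-κ|z|} (3 - κ|z|) / 4` and its Fourier transform.
-/

set_option linter.unusedSectionVars false
set_option linter.unusedSimpArgs false
set_option linter.unusedVariables false

open MeasureTheory Set Filter Topology
open scoped Real FourierTransform

namespace Vale.Agent.P371

/-- The real kernel. -/
noncomputable def Pk (κ z : ℝ) : ℝ := κ * Real.exp (-κ * |z|) * (3 - κ * |z|) / 4

/-- The Fourier symbol of `1 - Pk *`: with `p = 2 π ξ`, it is `(p² / (p² + κ²))²`. -/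
noncomputable def Mk (κ ξ : ℝ) : ℝ := ((2 * π * ξ) ^ 2 / ((2 * π * ξ) ^ 2 + κ ^ 2)) ^ 2

lemma Pk_continuous (κ : ℝ) : Continuous (Pk κ) := by
  unfold Pk
  fun_prop

lemma Mk_nonneg (κ ξ : ℝ) : 0 ≤ Mk κ ξ := by
  unfold Mk
  positivity

lemma Mk_le_one (κ ξ : ℝ) : Mk κ ξ ≤ 1 := by
  unfold Mk
  have h1 : (2 * π * ξ) ^ 2 / ((2 * π * ξ) ^ 2 + κ ^ 2) ≤ 1 := by
    apply div_le_one_of_le₀
    · nlinarith [sq_nonneg κ]
    · positivity
  have h0 : 0 ≤ (2 * π * ξ) ^ 2 / ((2 * π * ξ) ^ 2 + κ ^ 2) := by positivity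
  nlinarith

/-- The exponential integrals on the half line. -/
lemma integrable_exp_Ioi {a : ℂ} (ha : 0 < a.re) :
    IntegrableOn (fun z : ℝ => Complex.exp (-a * z)) (Ioi 0) := by
  have := integrableOn_exp_mul_complex_Ioi (a := -a) (by simpa using ha) 0
  simpa using this

lemma integrable_mul_exp_Ioi {a : ℂ} (ha : 0 < a.re) :
    IntegrableOn (fun z : ℝ => (z : ℂ) * Complex.exp (-a * z)) (Ioi 0) := by
  have h1 : IntegrableOn (fun z : ℝ => z ^ ((2:ℝ) - 1) * Real.exp (-(a.re * z))) (Ioi 0) := by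
    have := Real.GammaIntegral_convergent (s := 2) (by norm_num)
    have h2 := integrableOn_rpow_mul_exp_neg_mul_rpow (s := (2:ℝ) - 1) (p := 1) (b := a.re)
      (by norm_num) (by norm_num) ha
    simpa using h2
  refine Integrable.mono' h1 ?_ ?_
  · exact (by fun_prop : Continuous (fun z : ℝ => (z : ℂ) * Complex.exp (-a * z))).aestronglyMeasurable
  · refine (ae_restrict_iff' measurableSet_Ioi).mpr (Eventually.of_forall (fun z hz => ?_))
    have hz' : (0:ℝ) < z := hz
    rw [norm_mul, Complex.norm_exp, Complex.norm_real, Real.norm_of_nonneg hz'.le]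
    have : (-a * (z:ℂ)).re = -(a.re * z) := by simp
    rw [this]
    norm_num

/-- An antiderivative computation. -/
lemma integral_linear_exp {a : ℂ} (ha : 0 < a.re) (κ : ℝ) :
    ∫ z in Ioi (0:ℝ), ((3:ℂ) - κ * z) * Complex.exp (-a * z) = 3 / a - κ / a ^ 2 := by
  have ha0 : a ≠ 0 := by
    intro h
    rw [h] at ha
    simp at ha
  set F : ℝ → ℂ := fun z => ((κ / a - 3) / a + (κ / a) * z) * Complex.exp (-a * z) with hF
  have hder : ∀ z ∈ Ioi (0:ℝ), HasDerivAt F (((3:ℂ) - κ * z) * Complex.exp (-a * z)) z := by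
    intro z _
    have h1 : HasDerivAt (fun z : ℝ => (z : ℂ)) 1 z := Complex.ofRealCLM.hasDerivAt
    have h2 : HasDerivAt (fun z : ℝ => -a * (z : ℂ)) (-a * 1) z := h1.const_mul _
    have h3 := h2.cexp
    have h4 : HasDerivAt (fun z : ℝ => (κ / a - 3) / a + (κ / a) * (z : ℂ)) (κ / a * 1) z :=
      (h1.const_mul _).const_add _
    have h5 := h4.fun_mul h3
    refine h5.congr_deriv ?_
    have hh : ((3:ℂ) - κ * z) = κ / a * 1 + ((κ / a - 3) / a + κ / a * z) * (-a * 1) := by
      field_simp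
      ring
    rw [hh]
    ring
  have hint : IntegrableOn (fun z : ℝ => ((3:ℂ) - κ * z) * Complex.exp (-a * z)) (Ioi 0) := by
    have h1 := (integrable_exp_Ioi ha).const_mul (3:ℂ)
    have h2 := (integrable_mul_exp_Ioi ha).const_mul (κ:ℂ)
    refine IntegrableOn.congr_fun (h1.sub h2) (fun z _ => ?_) measurableSet_Ioi
    simp only [Pi.sub_apply]
    ring
  have hcont : ContinuousWithinAt F (Ici 0) 0 :=
    (by fun_prop : Continuous F).continuousWithinAt
  have hlim : Tendsto F atTop (𝓝 0) := by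
    -- decay of the exponential
    have hexp : Tendsto (fun z : ℝ => (z ^ (0:ℕ) + z ^ (1:ℕ)) * Real.exp (-(a.re * z))) atTop (𝓝 0) := by
      have h0 := Real.tendsto_pow_mul_exp_neg_atTop_nhds_zero 0
      have h1 := Real.tendsto_pow_mul_exp_neg_atTop_nhds_zero 1
      have hb : Tendsto (fun z : ℝ => a.re * z) atTop atTop :=
        tendsto_id.const_mul_atTop ha
      have h0' := (h0.comp hb)
      have h1' := (h1.comp hb)
      have := h0'.add (h1'.const_mul (a.re⁻¹))
      simp only [mul_zero, add_zero] at this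
      refine this.congr (fun z => ?_)
      simp only [Function.comp]
      have hne : a.re ≠ 0 := ha.ne'
      simp only [pow_zero, pow_one, one_mul]
      rw [show (-(a.re * z)) = -(a.re * z) from rfl]
      field_simp
    rw [tendsto_zero_iff_norm_tendsto_zero]
    have hbd : ∀ᶠ z : ℝ in atTop, ‖F z‖ ≤ (‖(κ / a - 3) / a‖ + ‖(κ / a : ℂ)‖) *
        ((z ^ (0:ℕ) + z ^ (1:ℕ)) * Real.exp (-(a.re * z))) := by
      filter_upwards [eventually_gt_atTop 0] with z hz
      simp only [hF]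
      rw [norm_mul, Complex.norm_exp]
      have hre : (-a * (z:ℂ)).re = -(a.re * z) := by simp
      rw [hre]
      have hpos := Real.exp_pos (-(a.re * z))
      have h1 : ‖(κ / a - 3) / a + (κ / a) * (z:ℂ)‖ ≤ ‖(κ / a - 3) / a‖ + ‖(κ / a : ℂ)‖ * z := by
        refine (norm_add_le _ _).trans ?_
        rw [norm_mul, Complex.norm_real, Real.norm_of_nonneg hz.le]
      have h2 : (‖(κ / a - 3) / a‖ + ‖(κ / a : ℂ)‖ * z) ≤ (‖(κ / a - 3) / a‖ + ‖(κ / a : ℂ)‖) *
          (z ^ (0:ℕ) + z ^ (1:ℕ)) := by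
        have := norm_nonneg ((κ / a - 3) / a)
        have := norm_nonneg ((κ / a : ℂ))
        simp only [pow_zero, pow_one]
        nlinarith
      calc _ ≤ (‖(κ / a - 3) / a‖ + ‖(κ / a : ℂ)‖ * z) * Real.exp (-(a.re * z)) :=
            mul_le_mul_of_nonneg_right h1 hpos.le
        _ ≤ _ := by
            rw [← mul_assoc]
            exact mul_le_mul_of_nonneg_right h2 hpos.le
    have hlim0 := hexp.const_mul (‖(κ / a - 3) / a‖ + ‖(κ / a : ℂ)‖)
    rw [mul_zero] at hlim0
    exact squeeze_zero' (Eventually.of_forall (fun z => norm_nonneg _)) hbd hlim0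
  rw [integral_Ioi_of_hasDerivAt_of_tendsto hcont hder hint hlim]
  simp only [hF]
  simp
  field_simp
  ring

lemma Pk_integrableOn {κ : ℝ} (hκ : 0 < κ) :
    IntegrableOn (fun z : ℝ => κ * Real.exp (-κ * z) * (3 - κ * z) / 4) (Ioi 0) := by
  have hre : ((κ : ℂ)).re = κ := by simp
  have h1 := (integrable_exp_Ioi (a := (κ : ℂ)) (by simpa using hκ)).const_mul (3:ℂ)
  have h2 := (integrable_mul_exp_Ioi (a := (κ : ℂ)) (by simpa using hκ)).const_mul (κ:ℂ)
  have h3 := (h1.sub h2).const_mul ((κ:ℂ) / 4)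
  have h4 := h3.re
  refine IntegrableOn.congr_fun h4 (fun z _ => ?_) measurableSet_Ioi
  simp only [RCLike.re_to_complex]
  have : (κ:ℂ) / 4 * (3 * Complex.exp (-(κ:ℂ) * z) - κ * (z * Complex.exp (-(κ:ℂ) * z))) =
      ((κ * Real.exp (-κ * z) * (3 - κ * z) / 4 : ℝ) : ℂ) := by
    push_cast
    ring
  simp only [Pi.sub_apply]
  rw [this, Complex.ofReal_re]

/-- Even extension of an integrable function on the half line. -/
lemma integrable_abs_of_Ioi {E : Type*} [NormedAddCommGroup E] {f : ℝ → E}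
    (h : IntegrableOn f (Ioi 0)) : Integrable (fun z : ℝ => f |z|) := by
  have h1 : IntegrableOn f (Ici 0) := Iff.mpr integrableOn_Ici_iff_integrableOn_Ioi h
  rw [← integrableOn_univ, ← Iic_union_Ioi (a := (0:ℝ)), integrableOn_union]
  constructor
  · have h2 : IntegrableOn (fun z : ℝ => f (-z)) (Iic 0) := by
      have := IntegrableOn.comp_neg_Iic (c := (0:ℝ)) (f := f) (by simpa using h1)
      simpa using this
    refine IntegrableOn.congr_fun h2 (fun z hz => ?_) measurableSet_Iic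
    have hz' : z ≤ 0 := hz
    simp only [abs_of_nonpos hz']
  · refine IntegrableOn.congr_fun h (fun z hz => ?_) measurableSet_Ioi
    have hz' : 0 < z := hz
    simp only [abs_of_pos hz']

lemma Pk_integrable {κ : ℝ} (hκ : 0 < κ) : Integrable (Pk κ) :=
  integrable_abs_of_Ioi (Pk_integrableOn hκ)

lemma Pk_integrable_complex {κ : ℝ} (hκ : 0 < κ) : Integrable (fun z => (Pk κ z : ℂ)) :=
  (Pk_integrable hκ).ofReal

/-- Split an integral over the line into the two half lines. -/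
lemma integral_split_neg {E : Type*} [NormedAddCommGroup E] [NormedSpace ℝ E] [CompleteSpace E]
    {F : ℝ → E} (hF : Integrable F) :
    ∫ z, F z = (∫ z in Ioi (0:ℝ), F z) + ∫ z in Ioi (0:ℝ), F (-z) := by
  have h1 : ∫ z in Ioi (0:ℝ), F (-z) = ∫ z in Iic (0:ℝ), F z := by
    simpa using integral_comp_neg_Ioi (0:ℝ) F
  rw [h1, add_comm]
  exact (intervalIntegral.integral_Iic_add_Ioi (b := 0) hF.integrableOn hF.integrableOn).symm

lemma symbol_algebra {a b D : ℂ} {κ : ℂ} (ha : a ≠ 0) (hb : b ≠ 0) (hab : a * b = D)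
    (hs : a + b = 2 * κ) :
    κ / 4 * ((3 / a - κ / a ^ 2) + (3 / b - κ / b ^ 2)) =
      κ / 4 * (6 * κ / D - κ * (4 * κ ^ 2 - 2 * D) / D ^ 2) := by
  have h1 : (3 / a - κ / a ^ 2) + (3 / b - κ / b ^ 2) =
      3 * (a + b) / (a * b) - κ * ((a + b) ^ 2 - 2 * (a * b)) / (a * b) ^ 2 := by
    field_simp
    ring
  rw [h1, hs, hab]
  ring

/-- **The Fourier transform of the kernel.** -/
theorem fourier_Pk {κ : ℝ} (hκ : 0 < κ) (ξ : ℝ) :
    𝓕 (fun z => (Pk κ z : ℂ)) ξ = ((1 - Mk κ ξ : ℝ) : ℂ) := by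
  rw [Real.fourier_real_eq_integral_exp_smul]
  set p : ℝ := 2 * π * ξ with hp
  set a : ℂ := (κ : ℂ) + (p : ℂ) * Complex.I with ha
  set b : ℂ := (κ : ℂ) - (p : ℂ) * Complex.I with hb
  have hare : 0 < a.re := by simp [ha, hκ]
  have hbre : 0 < b.re := by simp [hb, hκ]
  have hF : Integrable (fun v : ℝ => Complex.exp (((-2 * π * v * ξ : ℝ) : ℂ) * Complex.I) • (Pk κ v : ℂ)) := by
    have := (Real.fourierIntegral_convergent_iff (E := ℂ) (μ := volume) (f := fun z => (Pk κ z : ℂ)) ξ).mpr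
      (Pk_integrable_complex hκ)
    refine this.congr (Eventually.of_forall (fun v => ?_))
    simp only [Real.fourierChar_apply, Circle.smul_def]
    congr 2
    simp
    ring_nf
  rw [integral_split_neg hF]
  have hD : ((p:ℂ) ^ 2 + (κ:ℂ) ^ 2) ≠ 0 := by
    have : (p:ℝ) ^ 2 + κ ^ 2 ≠ 0 := by positivity
    exact_mod_cast this
  have hDr : (p:ℝ) ^ 2 + κ ^ 2 ≠ 0 := by positivity
  have hab : a * b = (p:ℂ) ^ 2 + (κ:ℂ) ^ 2 := by
    simp only [ha, hb]
    ring_nf
    rw [Complex.I_sq]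
    ring
  have hs : a + b = 2 * (κ:ℂ) := by
    simp only [ha, hb]
    ring
  have ha0 : a ≠ 0 := fun h => by rw [h] at hare; simp at hare
  have hb0 : b ≠ 0 := fun h => by rw [h] at hbre; simp at hbre
  have h1 : ∫ v in Ioi (0:ℝ), Complex.exp (((-2 * π * v * ξ : ℝ) : ℂ) * Complex.I) • (Pk κ v : ℂ) =
      (κ:ℂ) / 4 * (3 / a - κ / a ^ 2) := by
    rw [← integral_linear_exp hare κ, ← integral_const_mul]
    refine setIntegral_congr_fun measurableSet_Ioi (fun v hv => ?_)
    have hv' : (0:ℝ) < v := hv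
    simp only [Pk, abs_of_pos hv', smul_eq_mul]
    have hexp : Complex.exp (-a * v) =
        Complex.exp (((-κ * v : ℝ) : ℂ)) * Complex.exp (((-2 * π * v * ξ : ℝ) : ℂ) * Complex.I) := by
      rw [← Complex.exp_add]
      congr 1
      simp only [ha, hp]
      push_cast
      ring
    rw [hexp]
    push_cast
    ring_nf
  have h2 : ∫ v in Ioi (0:ℝ), Complex.exp (((-2 * π * (-v) * ξ : ℝ) : ℂ) * Complex.I) • (Pk κ (-v) : ℂ) =
      (κ:ℂ) / 4 * (3 / b - κ / b ^ 2) := by
    rw [← integral_linear_exp hbre κ, ← integral_const_mul]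
    refine setIntegral_congr_fun measurableSet_Ioi (fun v hv => ?_)
    have hv' : (0:ℝ) < v := hv
    simp only [Pk, abs_neg, abs_of_pos hv', smul_eq_mul]
    have hexp : Complex.exp (-b * v) =
        Complex.exp (((-κ * v : ℝ) : ℂ)) * Complex.exp (((-2 * π * (-v) * ξ : ℝ) : ℂ) * Complex.I) := by
      rw [← Complex.exp_add]
      congr 1
      simp only [hb, hp]
      push_cast
      ring
    rw [hexp]
    push_cast
    ring_nf
  rw [h1, h2, ← mul_add, symbol_algebra ha0 hb0 hab hs]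
  have hM : Mk κ ξ = (p ^ 2 / (p ^ 2 + κ ^ 2)) ^ 2 := rfl
  rw [hM]
  push_cast
  field_simp
  ring

end Vale.Agent.P371
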