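import Vale.Agent.Lib.P371.Kin1

/-!
The Fourier representation of `f - Pk * f`, Plancherel, and the kinetic energy inequality.
-/

set_option linter.unusedSectionVars false
set_option linter.unusedSimpArgs false
set_option linter.unusedVariables false

open MeasureTheory Set Filter Topology
open scoped Real FourierTransform SchwartzMap ENNReal ContDiff

namespace Vale.Agent.P371

/-- `f - Pk * f`. -/
noncomputable def yk (f : ℝ → ℂ) (κ x : ℝ) : ℂ := f x - ∫ z, (Pk κ z : ℂ) * f (x - z)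

lemma Mk_temperate {κ : ℝ} (hκ : 0 < κ) : Function.HasTemperateGrowth (Mk κ) := by
  have h1 : Function.HasTemperateGrowth (fun x : ℝ => (1 + ‖x‖ ^ 2) ^ (-1:ℝ)) :=
    Function.hasTemperateGrowth_one_add_norm_sq_rpow ℝ (-1)
  have h2 : Function.HasTemperateGrowth (fun x : ℝ => (2 * π / κ) * x) := by
    have := (ContinuousLinearMap.mul ℝ ℝ (2 * π / κ)).hasTemperateGrowth
    exact this
  have h3 := h1.comp h2
  have h4 : Function.HasTemperateGrowth (fun x : ℝ => (1 - ((fun x : ℝ => (1 + ‖x‖ ^ 2) ^ (-1:ℝ)) ∘ (fun x : ℝ => (2 * π / κ) * x)) x) ^ 2) :=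
    ((Function.HasTemperateGrowth.const (1:ℝ)).sub h3).pow 2
  convert h4 using 1
  ext ξ
  simp only [Function.comp, Mk, Real.norm_eq_abs, sq_abs, Real.rpow_neg_one]
  have hκ' : κ ≠ 0 := hκ.ne'
  have hD : (2 * π * ξ) ^ 2 + κ ^ 2 ≠ 0 := by positivity
  have hD2 : 1 + (2 * π / κ * ξ) ^ 2 ≠ 0 := by positivity
  congr 1
  field_simp
  ring

section schwartz

variable (f : 𝓢(ℝ, ℂ))

/-- The multiplied Fourier transform. -/
noncomputable def sk (κ : ℝ) : 𝓢(ℝ, ℂ) := SchwartzMap.smulLeftCLM ℂ (Mk κ) (𝓕 f)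

lemma sk_apply {κ : ℝ} (hκ : 0 < κ) (ξ : ℝ) : sk f κ ξ = (Mk κ ξ : ℂ) * 𝓕 (f : ℝ → ℂ) ξ := by
  simp only [sk]
  rw [SchwartzMap.smulLeftCLM_apply_apply (Mk_temperate hκ)]
  simp [SchwartzMap.fourier_coe]

lemma conv_eq (κ x : ℝ) : (∫ z, (Pk κ z : ℂ) * f (x - z)) =
    MeasureTheory.convolution (fun z => (Pk κ z : ℂ)) (f : ℝ → ℂ) (ContinuousLinearMap.mul ℂ ℂ) volume x := by
  simp [MeasureTheory.convolution]

lemma conv_integrable {κ : ℝ} (hκ : 0 < κ) :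
    Integrable (MeasureTheory.convolution (fun z => (Pk κ z : ℂ)) (f : ℝ → ℂ) (ContinuousLinearMap.mul ℂ ℂ) volume) :=
  (Pk_integrable_complex hκ).integrable_convolution _ f.integrable

lemma conv_continuous {κ : ℝ} (hκ : 0 < κ) :
    Continuous (MeasureTheory.convolution (fun z => (Pk κ z : ℂ)) (f : ℝ → ℂ) (ContinuousLinearMap.mul ℂ ℂ) volume) := by
  have hb : BddAbove (range fun x => ‖f x‖) := by
    obtain ⟨C, hC⟩ := f.decay 0 0
    refine ⟨C, ?_⟩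
    rintro _ ⟨x, rfl⟩
    simpa using hC.2 x
  exact BddAbove.continuous_convolution_right_of_integrable _ hb (Pk_integrable_complex hκ) f.continuous

lemma yk_eq (κ : ℝ) : yk f κ = fun x => f x -
    MeasureTheory.convolution (fun z => (Pk κ z : ℂ)) (f : ℝ → ℂ) (ContinuousLinearMap.mul ℂ ℂ) volume x := by
  ext x
  simp only [yk, conv_eq]

lemma yk_continuous {κ : ℝ} (hκ : 0 < κ) : Continuous (yk f κ) := by
  rw [yk_eq]
  exact f.continuous.sub (conv_continuous f hκ)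

lemma yk_integrable {κ : ℝ} (hκ : 0 < κ) : Integrable (yk f κ) := by
  rw [yk_eq]
  exact f.integrable.sub (conv_integrable f hκ)

lemma fourier_sub_fun {g h : ℝ → ℂ} (hg : Integrable g) (hh : Integrable h) (ξ : ℝ) :
    𝓕 (fun x => g x - h x) ξ = 𝓕 g ξ - 𝓕 h ξ := by
  simp only [Real.fourier_eq, smul_sub]
  exact integral_sub ((Real.fourierIntegral_convergent_iff ξ).mpr hg)
    ((Real.fourierIntegral_convergent_iff ξ).mpr hh)

lemma fourier_yk {κ : ℝ} (hκ : 0 < κ) (ξ : ℝ) : 𝓕 (yk f κ) ξ = sk f κ ξ := by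
  rw [yk_eq, fourier_sub_fun f.integrable (conv_integrable f hκ)]
  have h := Real.fourier_mul_convolution_eq (Pk_integrable_complex hκ) f.integrable ξ
  rw [h, fourier_Pk hκ, sk_apply f hκ]
  push_cast
  ring

/-- **`yk` is the Fourier multiplier applied to `f`.** -/
theorem yk_eq_fourierInv {κ : ℝ} (hκ : 0 < κ) : yk f κ = ⇑(𝓕⁻ (sk f κ) : 𝓢(ℝ, ℂ)) := by
  have h1 : 𝓕 (yk f κ) = ⇑(sk f κ) := funext (fourier_yk f hκ)
  have h2 : Integrable (𝓕 (yk f κ)) := by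
    rw [h1]
    exact (sk f κ).integrable
  have h3 := (yk_continuous f hκ).fourierInv_fourier_eq (yk_integrable f hκ) h2
  rw [h1] at h3
  rw [SchwartzMap.fourierInv_coe]
  exact h3.symm

/-- **Plancherel for `yk`.** -/
theorem integral_yk_sq {κ : ℝ} (hκ : 0 < κ) :
    ∫ x, ‖yk f κ x‖ ^ 2 = ∫ ξ, (Mk κ ξ) ^ 2 * ‖𝓕 (f : ℝ → ℂ) ξ‖ ^ 2 := by
  rw [yk_eq_fourierInv f hκ, ← SchwartzMap.integral_norm_sq_fourier]
  simp only [FourierTransform.fourier_fourierInv_eq]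
  refine integral_congr_ae (Eventually.of_forall (fun ξ => ?_))
  simp only [sk_apply f hκ, norm_mul, mul_pow, Complex.norm_real, Real.norm_eq_abs, sq_abs]

/-- The square of `yk` is integrable. -/
theorem yk_sq_integrable {κ : ℝ} (hκ : 0 < κ) : Integrable (fun x => ‖yk f κ x‖ ^ 2) := by
  rw [yk_eq_fourierInv f hκ]
  have := ((𝓕⁻ (sk f κ) : 𝓢(ℝ, ℂ)).memLp 2 volume).integrable_norm_rpow (by norm_num) (by norm_num)
  simpa using this

/-- The integrable majorant on the frequency side. -/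
theorem fourier_sq_integrable : Integrable (fun ξ => ‖𝓕 (f : ℝ → ℂ) ξ‖ ^ 2) := by
  have := ((𝓕 f : 𝓢(ℝ, ℂ)).memLp 2 volume).integrable_norm_rpow (by norm_num) (by norm_num)
  simpa [SchwartzMap.fourier_coe] using this

/-- Plancherel for the derivative. -/
theorem integral_deriv_sq :
    ∫ x, ‖deriv f x‖ ^ 2 = ∫ ξ, (2 * π * ξ) ^ 2 * ‖𝓕 (f : ℝ → ℂ) ξ‖ ^ 2 := by
  set g : 𝓢(ℝ, ℂ) := SchwartzMap.derivCLM ℂ ℂ f with hg
  have hgc : ∀ x, g x = deriv f x := fun x => by simp [hg]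
  have hf := Real.fourier_deriv (f := (f : ℝ → ℂ)) f.integrable f.differentiable
    (by
      have : (deriv (f : ℝ → ℂ)) = ⇑g := by ext x; rw [hgc]
      rw [this]
      exact g.integrable)
  have h1 := SchwartzMap.integral_norm_sq_fourier g
  have hgeq : (g : ℝ → ℂ) = deriv f := by ext x; rw [hgc]
  simp only [SchwartzMap.fourier_coe, hgeq, hf] at h1
  rw [← h1]
  refine integral_congr_ae (Eventually.of_forall (fun ξ => ?_))
  simp only [norm_smul, mul_pow, norm_mul, Complex.norm_I, Complex.norm_real, Real.norm_eq_abs, sq_abs]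
  simp [Real.pi_pos.le, abs_of_pos Real.pi_pos]

theorem deriv_fourier_integrable :
    Integrable (fun ξ => (2 * π * ξ) ^ 2 * ‖𝓕 (f : ℝ → ℂ) ξ‖ ^ 2) := by
  set g : 𝓢(ℝ, ℂ) := SchwartzMap.derivCLM ℂ ℂ f with hg
  have hgc : ∀ x, g x = deriv f x := fun x => by simp [hg]
  have hf := Real.fourier_deriv (f := (f : ℝ → ℂ)) f.integrable f.differentiable
    (by
      have : (deriv (f : ℝ → ℂ)) = ⇑g := by ext x; rw [hgc]
      rw [this]
      exact g.integrable)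
  have h1 := fourier_sq_integrable g
  have hgeq : (g : ℝ → ℂ) = deriv f := by ext x; rw [hgc]
  simp only [hgeq, hf] at h1
  refine h1.congr (Eventually.of_forall (fun ξ => ?_))
  simp only [norm_smul, mul_pow, norm_mul, Complex.norm_I, Complex.norm_real, Real.norm_eq_abs, sq_abs]
  simp [Real.pi_pos.le, abs_of_pos Real.pi_pos]

/-- The Fourier integral form of `yk`, defined for all `κ`. -/
noncomputable def Yk (κ x : ℝ) : ℂ :=
  ∫ ξ : ℝ, Complex.exp (((2 * π * (x * ξ) : ℝ) : ℂ) * Complex.I) * ((Mk κ ξ : ℂ) * 𝓕 (f : ℝ → ℂ) ξ)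

lemma yk_eq_Yk {κ : ℝ} (hκ : 0 < κ) (x : ℝ) : yk f κ x = Yk f κ x := by
  rw [yk_eq_fourierInv f hκ, SchwartzMap.fourierInv_coe, Real.fourierInv_eq']
  simp only [Yk, smul_eq_mul, Complex.real_smul]
  refine integral_congr_ae (Eventually.of_forall (fun ξ => ?_))
  simp only [sk_apply f hκ, RCLike.inner_apply, conj_trivial]

lemma Mk_continuous_of_ne {ξ : ℝ} (hξ : ξ ≠ 0) : Continuous (fun κ => Mk κ ξ) := by
  unfold Mk
  have hp : 0 < (2 * π * ξ) ^ 2 := by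
    have : 2 * π * ξ ≠ 0 := by positivity
    positivity
  refine Continuous.pow (Continuous.div continuous_const (by fun_prop) (fun κ => ?_)) 2
  positivity

lemma Yk_continuous : Continuous (fun q : ℝ × ℝ => Yk f q.1 q.2) := by
  unfold Yk
  refine continuous_of_dominated (bound := fun ξ => ‖𝓕 (f : ℝ → ℂ) ξ‖) ?_ ?_ ?_ ?_
  · intro q
    have hm : Measurable (fun ξ : ℝ => Mk q.1 ξ) := by
      unfold Mk
      fun_prop
    have hc : Continuous (𝓕 (f : ℝ → ℂ)) := by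
      rw [← SchwartzMap.fourier_coe]
      exact (𝓕 f).continuous
    exact ((by fun_prop : Continuous fun ξ : ℝ => Complex.exp (((2 * π * (q.2 * ξ) : ℝ) : ℂ) * Complex.I)).aestronglyMeasurable).mul
      ((Complex.measurable_ofReal.comp hm).aestronglyMeasurable.mul hc.aestronglyMeasurable)
  · intro q
    refine Eventually.of_forall (fun ξ => ?_)
    rw [norm_mul, norm_mul, Complex.norm_real, Real.norm_of_nonneg (Mk_nonneg _ _)]
    have h1 : ‖Complex.exp (((2 * π * (q.2 * ξ) : ℝ) : ℂ) * Complex.I)‖ = 1 := Complex.norm_exp_ofReal_mul_I _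
    rw [h1, one_mul]
    have := Mk_le_one q.1 ξ
    have h2 := norm_nonneg (𝓕 (f : ℝ → ℂ) ξ)
    nlinarith [Mk_nonneg q.1 ξ]
  · have := ((𝓕 f : 𝓢(ℝ, ℂ)).integrable (μ := volume)).norm
    simpa [SchwartzMap.fourier_coe] using this
  · have hne : ∀ᵐ ξ : ℝ, ξ ≠ 0 := by
      have : ({0} : Set ℝ)ᶜ ∈ ae (volume : Measure ℝ) := by
        rw [mem_ae_iff, compl_compl]
        exact measure_singleton 0
      exact this
    filter_upwards [hne] with ξ hξ
    have h1 := Mk_continuous_of_ne hξ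
    fun_prop

end schwartz

/-- The explicit energy integral. -/
lemma energy_integral_Mk {p : ℝ} (hp : p ≠ 0) :
    IntegrableOn (fun κ : ℝ => 2 * κ * (p ^ 2 / (p ^ 2 + κ ^ 2)) ^ 4) (Ioi 0) ∧
    ∫ κ in Ioi (0:ℝ), 2 * κ * (p ^ 2 / (p ^ 2 + κ ^ 2)) ^ 4 = p ^ 2 / 3 := by
  have hp2 : 0 < p ^ 2 := by positivity
  set G : ℝ → ℝ := fun κ => - (p ^ 8 / (3 * (p ^ 2 + κ ^ 2) ^ 3)) with hG
  have hder : ∀ κ ∈ Ioi (0:ℝ), HasDerivAt G (2 * κ * (p ^ 2 / (p ^ 2 + κ ^ 2)) ^ 4) κ := by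
    intro κ _
    have hD : p ^ 2 + κ ^ 2 ≠ 0 := by positivity
    have h1 : HasDerivAt (fun κ : ℝ => p ^ 2 + κ ^ 2) (2 * κ) κ := by
      have := (hasDerivAt_id κ).pow 2
      simpa using this.const_add (p ^ 2)
    have h2 : HasDerivAt (fun κ : ℝ => 3 * (p ^ 2 + κ ^ 2) ^ 3) (3 * (3 * (p ^ 2 + κ ^ 2) ^ 2 * (2 * κ))) κ := by
      have := (h1.pow 3).const_mul (3:ℝ)
      simpa using this
    have h3 : (3 * (p ^ 2 + κ ^ 2) ^ 3) ≠ 0 := by positivity
    have h4 := ((hasDerivAt_const κ (p ^ 8)).div h2 h3).neg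
    refine h4.congr_deriv ?_
    field_simp
    ring
  have hcont : ContinuousWithinAt G (Ici 0) 0 := by
    have : Continuous G := by
      refine Continuous.neg (Continuous.div continuous_const (by fun_prop) (fun κ => ?_))
      positivity
    exact this.continuousWithinAt
  have hlim : Tendsto G atTop (𝓝 0) := by
    have h1 : Tendsto (fun κ : ℝ => 3 * (p ^ 2 + κ ^ 2) ^ 3) atTop atTop := by
      have h2 : Tendsto (fun κ : ℝ => p ^ 2 + κ ^ 2) atTop atTop :=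
        tendsto_atTop_add_const_left _ _ (tendsto_pow_atTop (by norm_num))
      exact ((tendsto_pow_atTop (by norm_num : (3:ℕ) ≠ 0)).comp h2).const_mul_atTop (by norm_num)
    have h3 := (h1.const_div_atTop (p ^ 8)).neg
    simpa [hG] using h3
  have hnn : ∀ κ ∈ Ioi (0:ℝ), 0 ≤ 2 * κ * (p ^ 2 / (p ^ 2 + κ ^ 2)) ^ 4 := by
    intro κ hκ
    have : (0:ℝ) < κ := hκ
    positivity
  have hI := integrableOn_Ioi_deriv_of_nonneg hcont hder hnn hlim
  refine ⟨hI, ?_⟩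
  rw [integral_Ioi_of_hasDerivAt_of_tendsto hcont hder hI hlim]
  simp only [hG]
  field_simp
  ring


/-- **The kinetic energy inequality for one Schwartz function.** -/
theorem kinetic_scalar (f : 𝓢(ℝ, ℂ)) :
    ∫⁻ x, ∫⁻ κ in Ioi (0:ℝ), ENNReal.ofReal (2 * κ * ‖yk f κ x‖ ^ 2) ≤
      ENNReal.ofReal ((1 / 3) * ∫ x, ‖deriv f x‖ ^ 2) := by
  -- step 1: pass to the continuous representative
  have h1 : ∀ x, ∫⁻ κ in Ioi (0:ℝ), ENNReal.ofReal (2 * κ * ‖yk f κ x‖ ^ 2) =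
      ∫⁻ κ in Ioi (0:ℝ), ENNReal.ofReal (2 * κ * ‖Yk f κ x‖ ^ 2) := by
    intro x
    refine setLIntegral_congr_fun measurableSet_Ioi (fun κ hκ => ?_)
    simp only [yk_eq_Yk f hκ]
  simp only [h1]
  -- step 2: swap
  have hmeas : Measurable (fun q : ℝ × ℝ => ENNReal.ofReal (2 * q.1 * ‖Yk f q.1 q.2‖ ^ 2)) := by
    have hc := (Yk_continuous f)
    refine ENNReal.measurable_ofReal.comp ?_
    exact (by fun_prop : Continuous fun q : ℝ × ℝ => 2 * q.1 * ‖Yk f q.1 q.2‖ ^ 2).measurable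
  have hswap : ∫⁻ x, ∫⁻ κ in Ioi (0:ℝ), ENNReal.ofReal (2 * κ * ‖Yk f κ x‖ ^ 2) =
      ∫⁻ κ in Ioi (0:ℝ), ∫⁻ x, ENNReal.ofReal (2 * κ * ‖Yk f κ x‖ ^ 2) := by
    refine lintegral_lintegral_swap ?_
    have : Measurable (Function.uncurry fun (x κ : ℝ) => ENNReal.ofReal (2 * κ * ‖Yk f κ x‖ ^ 2)) :=
      hmeas.comp measurable_swap
    exact this.aemeasurable
  rw [hswap]
  -- step 3: Plancherel
  have h3 : ∀ κ ∈ Ioi (0:ℝ), ∫⁻ x, ENNReal.ofReal (2 * κ * ‖Yk f κ x‖ ^ 2) =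
      ∫⁻ ξ, ENNReal.ofReal (2 * κ * ((Mk κ ξ) ^ 2 * ‖𝓕 (f : ℝ → ℂ) ξ‖ ^ 2)) := by
    intro κ hκ
    have hκ' : (0:ℝ) < κ := hκ
    have e1 : ∀ x, ENNReal.ofReal (2 * κ * ‖Yk f κ x‖ ^ 2) = ENNReal.ofReal (2 * κ * ‖yk f κ x‖ ^ 2) := by
      intro x
      rw [yk_eq_Yk f hκ']
    simp only [e1]
    have hI1 : Integrable (fun x => 2 * κ * ‖yk f κ x‖ ^ 2) := (yk_sq_integrable f hκ').const_mul _
    have hI2 : Integrable (fun ξ => 2 * κ * ((Mk κ ξ) ^ 2 * ‖𝓕 (f : ℝ → ℂ) ξ‖ ^ 2)) := by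
      refine Integrable.const_mul ?_ _
      refine (fourier_sq_integrable f).mono' ?_ ?_
      · have hm : Measurable (fun ξ : ℝ => Mk κ ξ) := by
          unfold Mk
          fun_prop
        have hc : Continuous (𝓕 (f : ℝ → ℂ)) := by
          rw [← SchwartzMap.fourier_coe]
          exact (𝓕 f).continuous
        exact (hm.pow_const 2).aestronglyMeasurable.mul (hc.norm.pow 2).aestronglyMeasurable
      · refine Eventually.of_forall (fun ξ => ?_)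
        have h0 := Mk_nonneg κ ξ
        have h1 := Mk_le_one κ ξ
        have h2 : (Mk κ ξ) ^ 2 ≤ 1 := by nlinarith
        have h3 : 0 ≤ ‖𝓕 (f : ℝ → ℂ) ξ‖ ^ 2 := by positivity
        rw [Real.norm_of_nonneg (by positivity)]
        nlinarith
    rw [← ofReal_integral_eq_lintegral_ofReal hI1 (Eventually.of_forall (fun x => by
        have : 0 ≤ 2 * κ * ‖yk f κ x‖ ^ 2 := by positivity
        exact this)),
      ← ofReal_integral_eq_lintegral_ofReal hI2 (Eventually.of_forall (fun x => by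
        have : 0 ≤ 2 * κ * ((Mk κ x) ^ 2 * ‖𝓕 (f : ℝ → ℂ) x‖ ^ 2) := by positivity
        exact this))]
    rw [integral_const_mul, integral_const_mul, integral_yk_sq f hκ']
  rw [setLIntegral_congr_fun measurableSet_Ioi h3]
  -- step 4: swap
  have hmeas2 : Measurable (fun q : ℝ × ℝ => ENNReal.ofReal (2 * q.1 * ((Mk q.1 q.2) ^ 2 * ‖𝓕 (f : ℝ → ℂ) q.2‖ ^ 2))) := by
    have hm : Measurable (fun q : ℝ × ℝ => Mk q.1 q.2) := by
      unfold Mk
      fun_prop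
    have hc : Continuous (𝓕 (f : ℝ → ℂ)) := by
      rw [← SchwartzMap.fourier_coe]
      exact (𝓕 f).continuous
    have hc2 : Measurable (fun q : ℝ × ℝ => ‖𝓕 (f : ℝ → ℂ) q.2‖ ^ 2) :=
      (by fun_prop : Continuous fun q : ℝ × ℝ => ‖𝓕 (f : ℝ → ℂ) q.2‖ ^ 2).measurable
    refine ENNReal.measurable_ofReal.comp ?_
    exact (measurable_const.mul measurable_fst).mul ((hm.pow_const 2).mul hc2)
  have hswap2 : ∫⁻ κ in Ioi (0:ℝ), ∫⁻ ξ, ENNReal.ofReal (2 * κ * ((Mk κ ξ) ^ 2 * ‖𝓕 (f : ℝ → ℂ) ξ‖ ^ 2)) =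
      ∫⁻ ξ, ∫⁻ κ in Ioi (0:ℝ), ENNReal.ofReal (2 * κ * ((Mk κ ξ) ^ 2 * ‖𝓕 (f : ℝ → ℂ) ξ‖ ^ 2)) := by
    refine lintegral_lintegral_swap ?_
    exact hmeas2.aemeasurable
  rw [hswap2]
  -- step 5: the explicit integral in κ
  have h5 : ∀ᵐ ξ : ℝ, ∫⁻ κ in Ioi (0:ℝ), ENNReal.ofReal (2 * κ * ((Mk κ ξ) ^ 2 * ‖𝓕 (f : ℝ → ℂ) ξ‖ ^ 2)) =
      ENNReal.ofReal ((1 / 3) * ((2 * π * ξ) ^ 2 * ‖𝓕 (f : ℝ → ℂ) ξ‖ ^ 2)) := by
    have hne : ∀ᵐ ξ : ℝ, ξ ≠ 0 := by
      have : ({0} : Set ℝ)ᶜ ∈ ae (volume : Measure ℝ) := by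
        rw [mem_ae_iff, compl_compl]
        exact measure_singleton 0
      exact this
    filter_upwards [hne] with ξ hξ
    have hp : 2 * π * ξ ≠ 0 := by positivity
    obtain ⟨hI, hV⟩ := energy_integral_Mk hp
    have e : ∀ κ : ℝ, 2 * κ * ((Mk κ ξ) ^ 2 * ‖𝓕 (f : ℝ → ℂ) ξ‖ ^ 2) =
        (2 * κ * ((2 * π * ξ) ^ 2 / ((2 * π * ξ) ^ 2 + κ ^ 2)) ^ 4) * ‖𝓕 (f : ℝ → ℂ) ξ‖ ^ 2 := by
      intro κ
      simp only [Mk]
      ring
    simp only [e]
    rw [← ofReal_integral_eq_lintegral_ofReal (hI.mul_const _)]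
    · rw [integral_mul_const, hV]
      congr 1
      ring
    · refine (ae_restrict_iff' measurableSet_Ioi).mpr (Eventually.of_forall (fun κ hκ => ?_))
      have hκ' : (0:ℝ) < κ := hκ
      have : 0 ≤ (2 * κ * ((2 * π * ξ) ^ 2 / ((2 * π * ξ) ^ 2 + κ ^ 2)) ^ 4) * ‖𝓕 (f : ℝ → ℂ) ξ‖ ^ 2 := by
        positivity
      exact this
  rw [lintegral_congr_ae h5]
  -- step 6
  have hI3 : Integrable (fun ξ => (1 / 3) * ((2 * π * ξ) ^ 2 * ‖𝓕 (f : ℝ → ℂ) ξ‖ ^ 2)) :=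
    (deriv_fourier_integrable f).const_mul _
  rw [← ofReal_integral_eq_lintegral_ofReal hI3 (Eventually.of_forall (fun ξ => by
    have : 0 ≤ (1 / 3) * ((2 * π * ξ) ^ 2 * ‖𝓕 (f : ℝ → ℂ) ξ‖ ^ 2) := by positivity
    exact this))]
  rw [integral_const_mul, integral_deriv_sq f]

end Vale.Agent.P371
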