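import Vale.Agent.Lib.P371.Kin2

/-!
The pointwise lower bound: multi-scale decomposition of the values of a Bessel family.
-/

set_option linter.unusedSectionVars false
set_option linter.unusedSimpArgs false
set_option linter.unusedVariables false

open MeasureTheory Set Filter Topology
open scoped Real FourierTransform SchwartzMap ENNReal ContDiff

namespace Vale.Agent.P371

/-- The admissible weights, with their closed form data. -/
structure WeightData (m g : ℝ → ℝ) (A B : ℝ) : Prop where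
  m_cont : Continuous m
  m_int : IntegrableOn m (Ioi 0)
  m_norm : ∫ t in Ioi (0:ℝ), m t = 1
  mt_int : IntegrableOn (fun t => t * m t) (Ioi 0)
  formula : ∀ s, 0 ≤ s → ∫ t in Ioi (0:ℝ), m t * (t * Real.exp (-t * s) * (3 - t * s) / 4) = g s
  B_int : IntegrableOn (fun t => m t ^ 2 / (2 * t)) (Ioi 0)
  B_eq : ∫ t in Ioi (0:ℝ), m t ^ 2 / (2 * t) = B
  g_cont : Continuous (fun z : ℝ => g |z|)
  A_int : Integrable (fun z : ℝ => g |z| ^ 2)
  A_eq : ∫ z : ℝ, g |z| ^ 2 = A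
  A_pos : 0 < A
  B_pos : 0 < B

lemma Pk_bound {κ : ℝ} (hκ : 0 ≤ κ) (z : ℝ) : |Pk κ z| ≤ (3 / 4) * κ := by
  unfold Pk
  set s := κ * |z| with hs
  have hs0 : 0 ≤ s := by positivity
  have hexp : Real.exp (-κ * |z|) = Real.exp (-s) := by
    congr 1
    simp only [hs]
    ring
  rw [hexp]
  have h1 : Real.exp (-s) * (3 + s) ≤ 3 := by
    have h2 : 1 + s ≤ Real.exp s := by linarith [Real.add_one_le_exp s]
    have h3 : Real.exp (-s) * Real.exp s = 1 := by rw [← Real.exp_add]; simp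
    have h4 := Real.exp_pos (-s)
    have h5 : Real.exp (-s) * (1 + s) ≤ 1 := by
      calc _ ≤ Real.exp (-s) * Real.exp s := mul_le_mul_of_nonneg_left h2 h4.le
        _ = 1 := h3
    have h6 : Real.exp (-s) ≤ 1 := by
      rw [Real.exp_le_one_iff]
      linarith
    nlinarith
  have h2 : |κ * Real.exp (-s) * (3 - s) / 4| = κ * (Real.exp (-s) * |3 - s|) / 4 := by
    rw [abs_div, abs_mul, abs_mul, abs_of_nonneg hκ, abs_of_pos (Real.exp_pos _)]
    norm_num
    ring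
  rw [h2]
  have h3 : |3 - s| ≤ 3 + s := by
    rw [abs_le]
    constructor <;> linarith
  have h4 : Real.exp (-s) * |3 - s| ≤ 3 :=
    le_trans (mul_le_mul_of_nonneg_left h3 (Real.exp_pos _).le) h1
  nlinarith

section pointwise

variable {m g : ℝ → ℝ} {A B : ℝ} (W : WeightData m g A B)

include W

/-- The scale averaged kernel. -/
lemma kernel_average {σ : ℝ} (hσ : 0 < σ) (z : ℝ) :
    ∫ t in Ioi (0:ℝ), m t * Pk (σ * t) z = σ * g (σ * |z|) := by
  have h := W.formula (σ * |z|) (by positivity)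
  rw [← h, ← integral_const_mul]
  refine setIntegral_congr_fun measurableSet_Ioi (fun t _ => ?_)
  simp only [Pk]
  have : -(σ * t) * |z| = -t * (σ * |z|) := by ring
  rw [this]
  ring

/-- Scaling of the L² norm. -/
lemma scaled_norm {σ : ℝ} (hσ : 0 < σ) (x : ℝ) :
    Integrable (fun y : ℝ => (σ * g (σ * |x - y|)) ^ 2) ∧
    ∫ y : ℝ, (σ * g (σ * |x - y|)) ^ 2 = σ * A := by
  have e : ∀ z : ℝ, g (σ * |z|) = g |σ * z| := by
    intro z
    rw [abs_mul, abs_of_pos hσ]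
  have h1 : Integrable (fun z : ℝ => g |σ * z| ^ 2) :=
    W.A_int.comp_mul_left' hσ.ne'
  have h2 : ∫ z : ℝ, g |σ * z| ^ 2 = σ⁻¹ * A := by
    have := Measure.integral_comp_mul_left (fun z : ℝ => g |z| ^ 2) σ
    rw [this, W.A_eq, abs_of_pos (inv_pos.mpr hσ), smul_eq_mul]
  have e2 : ∀ y : ℝ, (σ * g (σ * |x - y|)) ^ 2 = σ ^ 2 * (fun z : ℝ => g |σ * z| ^ 2) (x - y) := by
    intro y
    simp only [e]
    ring
  constructor
  · simp only [e2]
    exact (h1.comp_sub_left x).const_mul _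
  · simp only [e2]
    rw [integral_const_mul, integral_sub_left_eq_self (fun z : ℝ => g |σ * z| ^ 2) volume x, h2]
    field_simp

omit W in
lemma ae_prod_Ioi : ∀ᵐ q ∂((volume.restrict (Ioi (0:ℝ))).prod (volume : Measure ℝ)), 0 < q.1 := by
  have e : (volume.restrict (Ioi (0:ℝ))).prod (volume : Measure ℝ) =
      ((volume : Measure ℝ).prod (volume : Measure ℝ)).restrict (Ioi (0:ℝ) ×ˢ univ) := by
    rw [← Measure.prod_restrict, Measure.restrict_univ]
  rw [e]
  refine ae_restrict_of_forall_mem (measurableSet_Ioi.prod MeasurableSet.univ) (fun q hq => hq.1)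

/-- Integrability of the double integrand. -/
lemma double_integrable (f : 𝓢(ℝ, ℂ)) {σ : ℝ} (hσ : 0 < σ) (x : ℝ) :
    Integrable (Function.uncurry (fun (t z : ℝ) => (m t : ℂ) * ((Pk (σ * t) z : ℂ) * f (x - z))))
      ((volume.restrict (Ioi (0:ℝ))).prod (volume : Measure ℝ)) := by
  have hb : Integrable (fun q : ℝ × ℝ => (((3 / 4) * σ) * |q.1 * m q.1|) * ‖f (x - q.2)‖)
      ((volume.restrict (Ioi (0:ℝ))).prod (volume : Measure ℝ)) := by
    have h1 : Integrable (fun t : ℝ => ((3 / 4) * σ) * |t * m t|) (volume.restrict (Ioi (0:ℝ))) :=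
      (W.mt_int.abs).const_mul _
    have h2 : Integrable (fun z : ℝ => ‖f (x - z)‖) := (f.integrable.comp_sub_left x).norm
    exact h1.mul_prod h2
  refine hb.mono' ?_ ?_
  · have hc : Continuous (fun q : ℝ × ℝ => (m q.1 : ℂ) * ((Pk (σ * q.1) q.2 : ℂ) * f (x - q.2))) := by
      have h1 : Continuous (fun q : ℝ × ℝ => Pk (σ * q.1) q.2) := by
        unfold Pk
        fun_prop
      have h2 := W.m_cont
      have h3 := f.continuous
      fun_prop
    exact hc.aestronglyMeasurable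
  · filter_upwards [ae_prod_Ioi] with q hq
    simp only [Function.uncurry]
    rw [norm_mul, norm_mul, Complex.norm_real, Complex.norm_real, Real.norm_eq_abs, Real.norm_eq_abs]
    have h1 := Pk_bound (κ := σ * q.1) (by positivity) q.2
    have h2 : |q.1 * m q.1| = q.1 * |m q.1| := by rw [abs_mul, abs_of_pos hq]
    rw [h2]
    have h3 := norm_nonneg (f (x - q.2))
    have h4 := abs_nonneg (m q.1)
    calc |m q.1| * (|Pk (σ * q.1) q.2| * ‖f (x - q.2)‖)
        ≤ |m q.1| * ((3 / 4 * (σ * q.1)) * ‖f (x - q.2)‖) := by gcongr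
      _ = _ := by ring

/-- **The decomposition of the value.** -/
theorem decomposition (f : 𝓢(ℝ, ℂ)) {σ : ℝ} (hσ : 0 < σ) (x : ℝ) :
    f x = (∫ t in Ioi (0:ℝ), (m t : ℂ) * yk f (σ * t) x) +
      ∫ y : ℝ, ((σ * g (σ * |x - y|) : ℝ) : ℂ) * f y := by
  have hD := double_integrable W f hσ x
  have hI1 : Integrable (fun t : ℝ => (m t : ℂ) * f x) (volume.restrict (Ioi (0:ℝ))) :=
    (W.m_int.ofReal).mul_const _
  have hI2 : Integrable (fun t : ℝ => ∫ z, (m t : ℂ) * ((Pk (σ * t) z : ℂ) * f (x - z)))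
      (volume.restrict (Ioi (0:ℝ))) := hD.integral_prod_left
  have e1 : ∫ t in Ioi (0:ℝ), (m t : ℂ) * yk f (σ * t) x =
      f x - ∫ t in Ioi (0:ℝ), ∫ z, (m t : ℂ) * ((Pk (σ * t) z : ℂ) * f (x - z)) := by
    have : ∀ t : ℝ, (m t : ℂ) * yk f (σ * t) x =
        (m t : ℂ) * f x - ∫ z, (m t : ℂ) * ((Pk (σ * t) z : ℂ) * f (x - z)) := by
      intro t
      simp only [yk, mul_sub, integral_const_mul]
    simp only [this]
    rw [integral_sub hI1 hI2, integral_mul_const, integral_complex_ofReal, W.m_norm]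
    simp
  have e2 : ∫ t in Ioi (0:ℝ), ∫ z, (m t : ℂ) * ((Pk (σ * t) z : ℂ) * f (x - z)) =
      ∫ y : ℝ, ((σ * g (σ * |x - y|) : ℝ) : ℂ) * f y := by
    rw [integral_integral_swap hD]
    rw [← integral_sub_left_eq_self (fun y : ℝ => ((σ * g (σ * |x - y|) : ℝ) : ℂ) * f y) volume x]
    refine integral_congr_ae (Eventually.of_forall (fun z => ?_))
    simp only [sub_sub_cancel]
    have : ∀ t : ℝ, (m t : ℂ) * ((Pk (σ * t) z : ℂ) * f (x - z)) =
        ((m t * Pk (σ * t) z : ℝ) : ℂ) * f (x - z) := by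
      intro t
      push_cast
      ring
    simp only [this]
    rw [integral_mul_const, integral_complex_ofReal, kernel_average W hσ z]
  rw [e1, e2]
  ring

omit W in
/-- Measurability in the scale. -/
lemma yk_aesm (f : 𝓢(ℝ, ℂ)) (x : ℝ) :
    AEStronglyMeasurable (fun κ => yk f κ x) (volume.restrict (Ioi (0:ℝ))) := by
  have hc : Continuous (fun κ : ℝ => Yk f κ x) := by
    have := Yk_continuous f
    exact this.comp (by fun_prop : Continuous fun κ : ℝ => (κ, x))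
  refine hc.aestronglyMeasurable.congr ?_
  refine (ae_restrict_iff' measurableSet_Ioi).mpr (Eventually.of_forall (fun κ hκ => ?_))
  exact (yk_eq_Yk f hκ x).symm

/-- **The Cauchy-Schwarz step.** -/
lemma cs_part (f : 𝓢(ℝ, ℂ)) {σ : ℝ} (hσ : 0 < σ) (x : ℝ)
    (hJ : IntegrableOn (fun κ => 2 * κ * ‖yk f κ x‖ ^ 2) (Ioi 0)) :
    ‖∫ t in Ioi (0:ℝ), (m t : ℂ) * yk f (σ * t) x‖ ^ 2 ≤
      B * ((σ ^ 2)⁻¹ * ∫ κ in Ioi (0:ℝ), 2 * κ * ‖yk f κ x‖ ^ 2) := by
  set h : ℝ → ℂ := fun t => yk f (σ * t) x with hh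
  have hBp := W.B_pos
  -- the transformed energy
  have hJ1 : IntegrableOn (fun t => 2 * (σ * t) * ‖h t‖ ^ 2) (Ioi 0) := by
    have := (integrableOn_Ioi_comp_mul_left_iff (fun κ => 2 * κ * ‖yk f κ x‖ ^ 2) 0 hσ).mpr
      (by simpa using hJ)
    exact this
  have hJ2 : IntegrableOn (fun t => 2 * t * ‖h t‖ ^ 2) (Ioi 0) := by
    have := hJ1.const_mul σ⁻¹
    refine IntegrableOn.congr_fun this (fun t _ => ?_) measurableSet_Ioi
    field_simp
  have hJ3 : ∫ t in Ioi (0:ℝ), 2 * t * ‖h t‖ ^ 2 =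
      (σ ^ 2)⁻¹ * ∫ κ in Ioi (0:ℝ), 2 * κ * ‖yk f κ x‖ ^ 2 := by
    have h1 := integral_comp_mul_left_Ioi (fun κ => 2 * κ * ‖yk f κ x‖ ^ 2) 0 hσ
    simp only [mul_zero, smul_eq_mul] at h1
    have h2 : ∀ t : ℝ, 2 * t * ‖h t‖ ^ 2 = σ⁻¹ * (2 * (σ * t) * ‖yk f (σ * t) x‖ ^ 2) := by
      intro t
      simp only [hh]
      field_simp
    simp only [h2]
    rw [integral_const_mul, h1]
    field_simp
  set J' : ℝ := ∫ t in Ioi (0:ℝ), 2 * t * ‖h t‖ ^ 2 with hJ'
  rw [← hJ3]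
  have hamgm : ∀ (s : ℝ), 0 < s → ∀ t ∈ Ioi (0:ℝ),
      |m t| * ‖h t‖ ≤ (s / 2) * (m t ^ 2 / (2 * t)) + (1 / (2 * s)) * (2 * t * ‖h t‖ ^ 2) := by
    intro s hs t ht
    have ht' : (0:ℝ) < t := ht
    have hsq : (m t) ^ 2 = |m t| ^ 2 := (sq_abs _).symm
    rw [hsq]
    set u := |m t|
    set v := ‖h t‖
    have key : (s / 2) * (u ^ 2 / (2 * t)) + (1 / (2 * s)) * (2 * t * v ^ 2) - u * v =
        (s * u - 2 * t * v) ^ 2 / (4 * s * t) := by
      field_simp
      ring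
    have hnn : 0 ≤ (s * u - 2 * t * v) ^ 2 / (4 * s * t) := by positivity
    linarith
  have hhm : AEStronglyMeasurable h (volume.restrict (Ioi (0:ℝ))) := by
    have hc : Continuous (fun t : ℝ => Yk f (σ * t) x) := by
      have := Yk_continuous f
      exact this.comp (by fun_prop : Continuous fun t : ℝ => (σ * t, x))
    refine hc.aestronglyMeasurable.congr ?_
    refine (ae_restrict_iff' measurableSet_Ioi).mpr (Eventually.of_forall (fun t ht => ?_))
    have ht' : (0:ℝ) < t := ht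
    exact (yk_eq_Yk f (by positivity : 0 < σ * t) x).symm
  have hXint : IntegrableOn (fun t => |m t| * ‖h t‖) (Ioi 0) := by
    have hdom : IntegrableOn (fun t => (1 / 2 : ℝ) * (m t ^ 2 / (2 * t)) + (1 / (2 * 1)) * (2 * t * ‖h t‖ ^ 2)) (Ioi 0) :=
      (W.B_int.const_mul _).add (hJ2.const_mul _)
    refine Integrable.mono' hdom ?_ ?_
    · exact (W.m_cont.abs.aestronglyMeasurable).mul hhm.norm
    · refine (ae_restrict_iff' measurableSet_Ioi).mpr (Eventually.of_forall (fun t ht => ?_))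
      rw [Real.norm_of_nonneg (by positivity)]
      exact hamgm 1 one_pos t ht
  set X : ℝ := ∫ t in Ioi (0:ℝ), |m t| * ‖h t‖ with hX
  have hX0 : 0 ≤ X := setIntegral_nonneg measurableSet_Ioi (fun t _ => by positivity)
  have hcX : ‖∫ t in Ioi (0:ℝ), (m t : ℂ) * h t‖ ≤ X := by
    refine (norm_integral_le_integral_norm _).trans (le_of_eq ?_)
    refine setIntegral_congr_fun measurableSet_Ioi (fun t _ => ?_)
    simp only [norm_mul, Complex.norm_real, Real.norm_eq_abs]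
  have hXle : X ^ 2 ≤ B * J' := by
    rcases hX0.eq_or_lt with h0 | hpos
    · rw [← h0]
      have hJ0 : 0 ≤ J' := setIntegral_nonneg measurableSet_Ioi (fun t ht => by
        have ht' : (0:ℝ) < t := ht
        positivity)
      have := mul_nonneg hBp.le hJ0
      nlinarith
    · set s := X / B with hs
      have hspos : 0 < s := by positivity
      have h1 : X ≤ (s / 2) * B + (1 / (2 * s)) * J' := by
        have hI' : IntegrableOn (fun t => (s / 2) * (m t ^ 2 / (2 * t)) + (1 / (2 * s)) * (2 * t * ‖h t‖ ^ 2)) (Ioi 0) :=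
          (W.B_int.const_mul (s / 2)).add (hJ2.const_mul (1 / (2 * s)))
        have hmono := setIntegral_mono_on (μ := volume) hXint hI' measurableSet_Ioi (hamgm s hspos)
        rw [integral_add (W.B_int.const_mul (s / 2)) (hJ2.const_mul (1 / (2 * s))), integral_const_mul,
          integral_const_mul, W.B_eq] at hmono
        exact hmono
      have h2 : (s / 2) * B = X / 2 := by
        simp only [hs]
        field_simp
      rw [h2] at h1
      have h3 : X / 2 ≤ (1 / (2 * s)) * J' := by linarith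
      have h4 : (1 / (2 * s)) * J' = B * J' / (2 * X) := by
        simp only [hs]
        field_simp
      rw [h4] at h3
      have h5 : X / 2 * (2 * X) ≤ B * J' := by
        rwa [le_div_iff₀ (by positivity)] at h3
      nlinarith
  have hc0 := norm_nonneg (∫ t in Ioi (0:ℝ), (m t : ℂ) * h t)
  calc _ ≤ X ^ 2 := by gcongr
    _ ≤ _ := hXle

/-- **The pointwise bound for a Bessel family.** -/
theorem pointwise_real {ι : Type*} [Fintype ι] (f : ι → 𝓢(ℝ, ℂ))
    (hBessel : ∀ G : ℝ → ℝ, Continuous G → Integrable (fun y => G y ^ 2) →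
      ∑ n, ‖∫ y, (G y : ℂ) * f n y‖ ^ 2 ≤ ∫ y, G y ^ 2) (x : ℝ)
    (hJ : ∀ n, IntegrableOn (fun κ => 2 * κ * ‖yk (f n) κ x‖ ^ 2) (Ioi 0)) :
    16 / (729 * A ^ 2 * B) * (∑ n, ‖f n x‖ ^ 2) ^ 3 ≤
      ∑ n, ∫ κ in Ioi (0:ℝ), 2 * κ * ‖yk (f n) κ x‖ ^ 2 := by
  set lam : ℝ := ∑ n, ‖f n x‖ ^ 2 with hlam
  set J : ℝ := ∑ n, ∫ κ in Ioi (0:ℝ), 2 * κ * ‖yk (f n) κ x‖ ^ 2 with hJdef
  have hA := W.A_pos
  have hB := W.B_pos
  have hJ0 : 0 ≤ J := Finset.sum_nonneg (fun n _ => setIntegral_nonneg measurableSet_Ioi (fun t ht => by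
    have ht' : (0:ℝ) < t := ht
    positivity))
  have hlam0 : 0 ≤ lam := Finset.sum_nonneg (fun n _ => by positivity)
  rcases hlam0.eq_or_lt with h0 | hpos
  · rw [← h0]
    simpa using hJ0
  set σ : ℝ := 4 * lam / (9 * A) with hσdef
  have hσ : 0 < σ := by positivity
  -- the test function
  have hGc : Continuous (fun y : ℝ => σ * g (σ * |x - y|)) := by
    have e : ∀ y : ℝ, g (σ * |x - y|) = g |σ * (x - y)| := by
      intro y
      rw [abs_mul, abs_of_pos hσ]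
    simp only [e]
    have := W.g_cont
    exact continuous_const.mul (this.comp (by fun_prop : Continuous fun y : ℝ => σ * (x - y)))
  obtain ⟨hGi, hGv⟩ := scaled_norm W hσ x
  have hB1 := hBessel _ hGc hGi
  rw [hGv] at hB1
  -- the splitting
  have hsplit : ∀ n, ‖f n x‖ ^ 2 ≤ (3 / 2) * ‖∫ y : ℝ, ((σ * g (σ * |x - y|) : ℝ) : ℂ) * f n y‖ ^ 2 +
      3 * ‖∫ t in Ioi (0:ℝ), (m t : ℂ) * yk (f n) (σ * t) x‖ ^ 2 := by
    intro n
    have hd := decomposition W (f n) hσ x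
    set c := ∫ t in Ioi (0:ℝ), (m t : ℂ) * yk (f n) (σ * t) x
    set d := ∫ y : ℝ, ((σ * g (σ * |x - y|) : ℝ) : ℂ) * f n y
    rw [hd]
    have h1 : ‖c + d‖ ≤ ‖c‖ + ‖d‖ := norm_add_le _ _
    have h2 := norm_nonneg (c + d)
    have h3 : ‖c + d‖ ^ 2 ≤ (‖c‖ + ‖d‖) ^ 2 := by gcongr
    nlinarith [sq_nonneg (‖d‖ - 2 * ‖c‖)]
  have hsum : lam ≤ (3 / 2) * (σ * A) + 3 * (B * ((σ ^ 2)⁻¹ * J)) := by
    have h1 : lam ≤ ∑ n, ((3 / 2) * ‖∫ y : ℝ, ((σ * g (σ * |x - y|) : ℝ) : ℂ) * f n y‖ ^ 2 +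
        3 * ‖∫ t in Ioi (0:ℝ), (m t : ℂ) * yk (f n) (σ * t) x‖ ^ 2) :=
      Finset.sum_le_sum (fun n _ => hsplit n)
    rw [Finset.sum_add_distrib, ← Finset.mul_sum, ← Finset.mul_sum] at h1
    have h2 : ∑ n, ‖∫ t in Ioi (0:ℝ), (m t : ℂ) * yk (f n) (σ * t) x‖ ^ 2 ≤ B * ((σ ^ 2)⁻¹ * J) := by
      have : B * ((σ ^ 2)⁻¹ * J) = ∑ n, B * ((σ ^ 2)⁻¹ * ∫ κ in Ioi (0:ℝ), 2 * κ * ‖yk (f n) κ x‖ ^ 2) := by
        simp only [hJdef, Finset.mul_sum]
      rw [this]
      exact Finset.sum_le_sum (fun n _ => cs_part W (f n) hσ x (hJ n))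
    have h3 : ∑ n, ‖∫ y : ℝ, ((σ * g (σ * |x - y|) : ℝ) : ℂ) * f n y‖ ^ 2 ≤ σ * A := hB1
    nlinarith
  -- conclusion
  have e1 : (3 / 2) * (σ * A) = (2 / 3) * lam := by
    simp only [hσdef]
    field_simp
    ring
  have e2 : 3 * (B * ((σ ^ 2)⁻¹ * J)) = (243 / 16) * A ^ 2 * B * J / lam ^ 2 := by
    simp only [hσdef]
    field_simp
    ring
  rw [e1, e2] at hsum
  have h3 : lam / 3 ≤ (243 / 16) * A ^ 2 * B * J / lam ^ 2 := by linarith
  rw [le_div_iff₀ (by positivity)] at h3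
  have h4 : lam ^ 3 ≤ (729 / 16) * (A ^ 2 * B) * J := by nlinarith
  rw [div_mul_eq_mul_div, div_le_iff₀ (by positivity)]
  nlinarith

/-- **The pointwise bound in the extended nonnegative reals.** -/
theorem pointwise_enn {ι : Type*} [Fintype ι] (f : ι → 𝓢(ℝ, ℂ))
    (hBessel : ∀ G : ℝ → ℝ, Continuous G → Integrable (fun y => G y ^ 2) →
      ∑ n, ‖∫ y, (G y : ℂ) * f n y‖ ^ 2 ≤ ∫ y, G y ^ 2) (x : ℝ) :
    ENNReal.ofReal (16 / (729 * A ^ 2 * B) * (∑ n, ‖f n x‖ ^ 2) ^ 3) ≤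
      ∑ n, ∫⁻ κ in Ioi (0:ℝ), ENNReal.ofReal (2 * κ * ‖yk (f n) κ x‖ ^ 2) := by
  by_cases hfin : ∀ n, ∫⁻ κ in Ioi (0:ℝ), ENNReal.ofReal (2 * κ * ‖yk (f n) κ x‖ ^ 2) < (⊤ : ℝ≥0∞)
  · have hI : ∀ n, IntegrableOn (fun κ => 2 * κ * ‖yk (f n) κ x‖ ^ 2) (Ioi 0) := by
      intro n
      refine ⟨?_, ?_⟩
      · have h1 := (yk_aesm (f n) x).norm
        exact (continuous_const.mul continuous_id).aestronglyMeasurable.mul (h1.pow 2)
      · rw [hasFiniteIntegral_iff_ofReal]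
        · exact hfin n
        · refine (ae_restrict_iff' measurableSet_Ioi).mpr (Eventually.of_forall (fun t ht => ?_))
          have ht' : (0:ℝ) < t := ht
          have : 0 ≤ 2 * t * ‖yk (f n) t x‖ ^ 2 := by positivity
          exact this
    have h := pointwise_real W f hBessel x hI
    have h2 : ∀ n, ∫⁻ κ in Ioi (0:ℝ), ENNReal.ofReal (2 * κ * ‖yk (f n) κ x‖ ^ 2) =
        ENNReal.ofReal (∫ κ in Ioi (0:ℝ), 2 * κ * ‖yk (f n) κ x‖ ^ 2) := by
      intro n
      rw [ofReal_integral_eq_lintegral_ofReal (hI n)]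
      refine (ae_restrict_iff' measurableSet_Ioi).mpr (Eventually.of_forall (fun t ht => ?_))
      have ht' : (0:ℝ) < t := ht
      have : 0 ≤ 2 * t * ‖yk (f n) t x‖ ^ 2 := by positivity
      exact this
    simp only [h2]
    rw [← ENNReal.ofReal_sum_of_nonneg]
    · exact ENNReal.ofReal_le_ofReal h
    · intro n _
      exact setIntegral_nonneg measurableSet_Ioi (fun t ht => by
        have ht' : (0:ℝ) < t := ht
        positivity)
  · simp only [not_forall, not_lt] at hfin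
    obtain ⟨n, hn⟩ := hfin
    have : ∑ n, ∫⁻ κ in Ioi (0:ℝ), ENNReal.ofReal (2 * κ * ‖yk (f n) κ x‖ ^ 2) = (⊤ : ℝ≥0∞) := by
      rw [top_le_iff.mp (le_trans hn (Finset.single_le_sum
        (f := fun n => ∫⁻ κ in Ioi (0:ℝ), ENNReal.ofReal (2 * κ * ‖yk (f n) κ x‖ ^ 2))
        (fun i _ => bot_le) (Finset.mem_univ n)))]
    rw [this]
    exact le_top

end pointwise

end Vale.Agent.P371
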