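import Vale.Agent.Lib.P371.Kin3

/-!
Explicit weights: polynomials times an exponential, with rational data.
-/

set_option linter.unusedSectionVars false
set_option linter.unusedSimpArgs false
set_option linter.unusedVariables false

open MeasureTheory Set Filter Topology
open scoped Real

namespace Vale.Agent.P371

/-- Integrability of a monomial times an exponential. -/
lemma integrableOn_pow_exp (k : ℕ) {a : ℝ} (ha : 0 < a) :
    IntegrableOn (fun t : ℝ => t ^ k * Real.exp (-a * t)) (Ioi 0) := by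
  have h := integrableOn_rpow_mul_exp_neg_mul_rpow (s := (k:ℝ)) (p := 1) (b := a)
    (by have := Nat.cast_nonneg (α := ℝ) k; linarith) (by norm_num) ha
  refine IntegrableOn.congr_fun h (fun t ht => ?_) measurableSet_Ioi
  simp only [Real.rpow_natCast, Real.rpow_one]

/-- The Gamma integral with natural exponent. -/
lemma integral_pow_exp (k : ℕ) {a : ℝ} (ha : 0 < a) :
    ∫ t in Ioi (0:ℝ), t ^ k * Real.exp (-a * t) = (k.factorial : ℝ) / a ^ (k + 1) := by
  have h := Real.integral_rpow_mul_exp_neg_mul_Ioi (a := (k:ℝ) + 1) (r := a)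
    (by positivity) ha
  have e : ∀ t : ℝ, t ^ ((k:ℝ) + 1 - 1) * Real.exp (-(a * t)) = t ^ k * Real.exp (-a * t) := by
    intro t
    rw [add_sub_cancel_right, Real.rpow_natCast, neg_mul]
  simp only [e] at h
  rw [h, Real.Gamma_nat_eq_factorial]
  rw [one_div, Real.inv_rpow ha.le, show ((k:ℝ) + 1) = ((k + 1 : ℕ) : ℝ) by push_cast; ring,
    Real.rpow_natCast]
  field_simp

/-- Powers of `1 + t` on the half line. -/
lemma inv_pow_integral (k : ℕ) :
    IntegrableOn (fun t : ℝ => ((1 + t) ^ (k + 2))⁻¹) (Ioi 0) ∧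
    ∫ t in Ioi (0:ℝ), ((1 + t) ^ (k + 2))⁻¹ = 1 / ((k:ℝ) + 1) := by
  set G : ℝ → ℝ := fun t => -(((k:ℝ) + 1)⁻¹ * ((1 + t) ^ (k + 1))⁻¹) with hG
  have hk : ((k:ℝ) + 1) ≠ 0 := by positivity
  have hder : ∀ t ∈ Ioi (0:ℝ), HasDerivAt G (((1 + t) ^ (k + 2))⁻¹) t := by
    intro t ht
    have ht' : (0:ℝ) < t := ht
    have h1 : HasDerivAt (fun t : ℝ => 1 + t) 1 t := by
      simpa using (hasDerivAt_id t).const_add (1:ℝ)
    have h2 := h1.pow (k + 1)
    have hne : (1 + t) ^ (k + 1) ≠ 0 := by positivity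
    have h3 := ((h2.inv hne).const_mul (((k:ℝ) + 1)⁻¹)).neg
    refine h3.congr_deriv ?_
    push_cast
    field_simp
    simp
    ring
  have hcont : ContinuousWithinAt G (Ici 0) 0 := by
    have hc : ContinuousAt G 0 := by
      simp only [hG]
      refine ContinuousAt.neg (ContinuousAt.mul continuousAt_const (ContinuousAt.inv₀ (by fun_prop) ?_))
      simp
    exact hc.continuousWithinAt
  have hlim : Tendsto G atTop (𝓝 0) := by
    have h1 : Tendsto (fun t : ℝ => 1 + t) atTop atTop := tendsto_atTop_add_const_left _ _ tendsto_id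
    have h2 : Tendsto (fun t : ℝ => (1 + t) ^ (k + 1)) atTop atTop :=
      (tendsto_pow_atTop (by omega)).comp h1
    have h3 := (h2.inv_tendsto_atTop.const_mul (((k:ℝ) + 1)⁻¹)).neg
    simpa [hG] using h3
  have hnn : ∀ t ∈ Ioi (0:ℝ), 0 ≤ ((1 + t) ^ (k + 2))⁻¹ := by
    intro t ht
    have ht' : (0:ℝ) < t := ht
    positivity
  have hI := integrableOn_Ioi_deriv_of_nonneg hcont hder hnn hlim
  refine ⟨hI, ?_⟩
  rw [integral_Ioi_of_hasDerivAt_of_tendsto hcont hder hI hlim]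
  simp only [hG]
  simp

section laguerre

variable (c : ℕ → ℝ) (S : Finset ℕ)

/-- The weight `t e^{-t} ∑ c_i t^i`. -/
noncomputable def mL (t : ℝ) : ℝ := ∑ i ∈ S, c i * (t ^ (i + 1) * Real.exp (-1 * t))

/-- The closed form of one scale averaged kernel. -/
noncomputable def Gi (i : ℕ) (s : ℝ) : ℝ :=
  (((i + 2).factorial : ℝ) / 4) *
    (-(i:ℝ) * ((1 + s) ^ (i + 3))⁻¹ + ((i:ℝ) + 3) * ((1 + s) ^ (i + 4))⁻¹)

/-- The averaged kernel. -/
noncomputable def gL (s : ℝ) : ℝ := ∑ i ∈ S, c i * Gi i s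

/-- The L² norm coefficient. -/
noncomputable def Aij (i l : ℕ) : ℝ :=
  ((i + 2).factorial : ℝ) * ((l + 2).factorial : ℝ) / 16 *
    ((i:ℝ) * l / ((i:ℝ) + l + 5) - (i:ℝ) * ((l:ℝ) + 3) / ((i:ℝ) + l + 6)
      - ((i:ℝ) + 3) * l / ((i:ℝ) + l + 6) + ((i:ℝ) + 3) * ((l:ℝ) + 3) / ((i:ℝ) + l + 7))

/-- The constant `A`. -/
noncomputable def AL : ℝ := 2 * ∑ i ∈ S, ∑ l ∈ S, c i * c l * Aij i l

/-- The constant `B`. -/
noncomputable def BL : ℝ := ∑ i ∈ S, ∑ l ∈ S, c i * c l *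
  (((i + l + 1).factorial : ℝ) / (2 * 2 ^ (i + l + 2)))

lemma mL_continuous : Continuous (mL c S) := by
  unfold mL
  fun_prop

lemma mL_integrable : IntegrableOn (mL c S) (Ioi 0) := by
  unfold mL
  refine integrable_finsetSum _ (fun i _ => ?_)
  exact (integrableOn_pow_exp (i + 1) one_pos).const_mul _

lemma mL_integral : ∫ t in Ioi (0:ℝ), mL c S t = ∑ i ∈ S, c i * ((i + 1).factorial : ℝ) := by
  unfold mL
  rw [integral_finsetSum _ (fun i _ => (integrableOn_pow_exp (i + 1) one_pos).const_mul _)]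
  refine Finset.sum_congr rfl (fun i _ => ?_)
  rw [integral_const_mul, integral_pow_exp (i + 1) one_pos]
  simp

lemma mtL_integrable : IntegrableOn (fun t => t * mL c S t) (Ioi 0) := by
  unfold mL
  have e : (fun t => t * ∑ i ∈ S, c i * (t ^ (i + 1) * Real.exp (-1 * t))) =
      fun t => ∑ i ∈ S, t * (c i * (t ^ (i + 1) * Real.exp (-1 * t))) := by
    ext t
    rw [Finset.mul_sum]
  rw [e]
  refine integrable_finsetSum _ (fun i _ => ?_)
  refine IntegrableOn.congr_fun ((integrableOn_pow_exp (i + 2) one_pos).const_mul (c i)) (fun t _ => ?_)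
    measurableSet_Ioi
  ring

lemma Gi_eq (i : ℕ) {s : ℝ} (hs : 0 ≤ s) :
    Gi i s = (1 / 4) * (3 * (((i + 2).factorial : ℝ) / (1 + s) ^ (i + 3)) -
      s * (((i + 3).factorial : ℝ) / (1 + s) ^ (i + 4))) := by
  have hu : (1 + s) ≠ 0 := by positivity
  simp only [Gi]
  have hf : ((i + 3).factorial : ℝ) = ((i:ℝ) + 3) * ((i + 2).factorial : ℝ) := by
    rw [show i + 3 = (i + 2) + 1 by ring, Nat.factorial_succ]
    push_cast
    ring
  rw [hf]
  field_simp
  ring

lemma gL_formula {s : ℝ} (hs : 0 ≤ s) :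
    ∫ t in Ioi (0:ℝ), mL c S t * (t * Real.exp (-t * s) * (3 - t * s) / 4) = gL c S s := by
  have hu : 0 < 1 + s := by positivity
  have e : ∀ t : ℝ, mL c S t * (t * Real.exp (-t * s) * (3 - t * s) / 4) =
      ∑ i ∈ S, c i * ((1 / 4) * (3 * (t ^ (i + 2) * Real.exp (-(1 + s) * t)) -
        s * (t ^ (i + 3) * Real.exp (-(1 + s) * t)))) := by
    intro t
    unfold mL
    rw [Finset.sum_mul]
    refine Finset.sum_congr rfl (fun i _ => ?_)
    have hexp : Real.exp (-(1 + s) * t) = Real.exp (-1 * t) * Real.exp (-t * s) := by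
      rw [← Real.exp_add]
      congr 1
      ring
    rw [hexp]
    ring
  simp only [e]
  have hI2 := fun i => integrableOn_pow_exp (i + 2) hu
  have hI3 := fun i => integrableOn_pow_exp (i + 3) hu
  rw [integral_finsetSum]
  · unfold gL
    refine Finset.sum_congr rfl (fun i _ => ?_)
    rw [integral_const_mul, integral_const_mul, integral_sub ((hI2 i).const_mul _) ((hI3 i).const_mul _),
      integral_const_mul, integral_const_mul, integral_pow_exp _ hu, integral_pow_exp _ hu, Gi_eq i hs]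
  · intro i _
    exact ((((hI2 i).const_mul _).sub ((hI3 i).const_mul _)).const_mul _).const_mul _

lemma mL_sq_div {t : ℝ} (ht : 0 < t) :
    mL c S t ^ 2 / (2 * t) = ∑ i ∈ S, ∑ l ∈ S, c i * c l * ((1 / 2) * (t ^ (i + l + 1) * Real.exp (-2 * t))) := by
  have e2 : Real.exp (-2 * t) = Real.exp (-1 * t) * Real.exp (-1 * t) := by
    rw [← Real.exp_add]
    congr 1
    ring
  unfold mL
  rw [sq, Finset.sum_mul_sum, Finset.sum_div]
  refine Finset.sum_congr rfl (fun i _ => ?_)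
  rw [Finset.sum_div]
  refine Finset.sum_congr rfl (fun l _ => ?_)
  rw [e2]
  field_simp
  ring

lemma BL_int_aux (i l : ℕ) : IntegrableOn (fun t : ℝ => c i * c l * ((1 / 2) * (t ^ (i + l + 1) * Real.exp (-2 * t)))) (Ioi 0) :=
  ((integrableOn_pow_exp (i + l + 1) (by norm_num : (0:ℝ) < 2)).const_mul _).const_mul _

lemma BL_integrable : IntegrableOn (fun t => mL c S t ^ 2 / (2 * t)) (Ioi 0) := by
  have h : IntegrableOn (fun t : ℝ => ∑ i ∈ S, ∑ l ∈ S, c i * c l * ((1 / 2) * (t ^ (i + l + 1) * Real.exp (-2 * t)))) (Ioi 0) :=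
    integrable_finsetSum _ (fun i _ => integrable_finsetSum _ (fun l _ => BL_int_aux c i l))
  refine IntegrableOn.congr_fun h (fun t ht => ?_) measurableSet_Ioi
  exact (mL_sq_div c S ht).symm

lemma BL_integral : ∫ t in Ioi (0:ℝ), mL c S t ^ 2 / (2 * t) = BL c S := by
  rw [setIntegral_congr_fun measurableSet_Ioi (fun t ht => mL_sq_div c S ht)]
  rw [integral_finsetSum _ (fun i _ => integrable_finsetSum _ (fun l _ => BL_int_aux c i l))]
  unfold BL
  refine Finset.sum_congr rfl (fun i _ => ?_)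
  rw [integral_finsetSum _ (fun l _ => BL_int_aux c i l)]
  refine Finset.sum_congr rfl (fun l _ => ?_)
  rw [integral_const_mul, integral_const_mul, integral_pow_exp _ (by norm_num : (0:ℝ) < 2)]
  congr 1
  rw [show i + l + 1 + 1 = i + l + 2 by ring]
  field_simp

lemma Gi_mul (i l : ℕ) {s : ℝ} (hs : 0 ≤ s) :
    Gi i s * Gi l s = ((i + 2).factorial : ℝ) * ((l + 2).factorial : ℝ) / 16 *
      ((i:ℝ) * l * ((1 + s) ^ (i + l + 4 + 2))⁻¹ +
        (-(i:ℝ) * ((l:ℝ) + 3) - ((i:ℝ) + 3) * l) * ((1 + s) ^ (i + l + 5 + 2))⁻¹ +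
        ((i:ℝ) + 3) * ((l:ℝ) + 3) * ((1 + s) ^ (i + l + 6 + 2))⁻¹) := by
  have hu : (1 + s) ≠ 0 := by positivity
  simp only [Gi]
  have e1 : ((1 + s) ^ (i + l + 4 + 2))⁻¹ = ((1 + s) ^ (i + 3))⁻¹ * ((1 + s) ^ (l + 3))⁻¹ := by
    rw [← mul_inv, ← pow_add]
    congr 2
    ring
  have e2 : ((1 + s) ^ (i + l + 5 + 2))⁻¹ = ((1 + s) ^ (i + 3))⁻¹ * ((1 + s) ^ (l + 4))⁻¹ := by
    rw [← mul_inv, ← pow_add]
    congr 2
    ring
  have e2' : ((1 + s) ^ (i + l + 5 + 2))⁻¹ = ((1 + s) ^ (i + 4))⁻¹ * ((1 + s) ^ (l + 3))⁻¹ := by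
    rw [← mul_inv, ← pow_add]
    congr 2
    ring
  have e3 : ((1 + s) ^ (i + l + 6 + 2))⁻¹ = ((1 + s) ^ (i + 4))⁻¹ * ((1 + s) ^ (l + 4))⁻¹ := by
    rw [← mul_inv, ← pow_add]
    congr 2
    ring
  rw [e1, e3]
  have : (-(i:ℝ) * ((l:ℝ) + 3) - ((i:ℝ) + 3) * l) * ((1 + s) ^ (i + l + 5 + 2))⁻¹ =
      (-(i:ℝ) * ((l:ℝ) + 3)) * ((1 + s) ^ (i + l + 5 + 2))⁻¹ - ((i:ℝ) + 3) * l * ((1 + s) ^ (i + l + 5 + 2))⁻¹ := by
    ring
  rw [this]
  nth_rewrite 1 [e2]
  rw [e2']
  ring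

lemma Gi_mul_integrable (i l : ℕ) : IntegrableOn (fun s => Gi i s * Gi l s) (Ioi 0) := by
  have h1 := (inv_pow_integral (i + l + 4)).1
  have h2 := (inv_pow_integral (i + l + 5)).1
  have h3 := (inv_pow_integral (i + l + 6)).1
  have h := (((h1.const_mul ((i:ℝ) * l)).add (h2.const_mul (-(i:ℝ) * ((l:ℝ) + 3) - ((i:ℝ) + 3) * l))).add
    (h3.const_mul (((i:ℝ) + 3) * ((l:ℝ) + 3)))).const_mul
    (((i + 2).factorial : ℝ) * ((l + 2).factorial : ℝ) / 16)
  refine IntegrableOn.congr_fun h (fun s hs => ?_) measurableSet_Ioi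
  have hs' : (0:ℝ) < s := hs
  simp only [Pi.add_apply]
  exact (Gi_mul i l hs'.le).symm

lemma Gi_mul_integral (i l : ℕ) : ∫ s in Ioi (0:ℝ), Gi i s * Gi l s = Aij i l := by
  have h1 := (inv_pow_integral (i + l + 4))
  have h2 := (inv_pow_integral (i + l + 5))
  have h3 := (inv_pow_integral (i + l + 6))
  rw [setIntegral_congr_fun measurableSet_Ioi (fun s hs => Gi_mul i l (le_of_lt hs))]
  have I12 : IntegrableOn (fun x : ℝ => (i:ℝ) * l * ((1 + x) ^ (i + l + 4 + 2))⁻¹ +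
      (-(i:ℝ) * ((l:ℝ) + 3) - ((i:ℝ) + 3) * l) * ((1 + x) ^ (i + l + 5 + 2))⁻¹) (Ioi 0) :=
    (h1.1.const_mul _).add (h2.1.const_mul _)
  rw [integral_const_mul, integral_add I12 (h3.1.const_mul _),
    integral_add (h1.1.const_mul _) (h2.1.const_mul _), integral_const_mul, integral_const_mul,
    integral_const_mul, h1.2, h2.2, h3.2]
  unfold Aij
  congr 1
  push_cast
  have a1 : (i:ℝ) + l + 4 + 1 ≠ 0 := by positivity
  have a2 : (i:ℝ) + l + 5 + 1 ≠ 0 := by positivity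
  have a3 : (i:ℝ) + l + 6 + 1 ≠ 0 := by positivity
  have b1 : (i:ℝ) + l + 5 ≠ 0 := by positivity
  have b2 : (i:ℝ) + l + 6 ≠ 0 := by positivity
  have b3 : (i:ℝ) + l + 7 ≠ 0 := by positivity
  rw [show (i:ℝ) + l + 4 + 1 = (i:ℝ) + l + 5 by ring, show (i:ℝ) + l + 5 + 1 = (i:ℝ) + l + 6 by ring,
    show (i:ℝ) + l + 6 + 1 = (i:ℝ) + l + 7 by ring]
  field_simp
  ring

lemma gL_sq (s : ℝ) : gL c S s ^ 2 = ∑ i ∈ S, ∑ l ∈ S, c i * c l * (Gi i s * Gi l s) := by
  unfold gL
  rw [sq, Finset.sum_mul_sum]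
  refine Finset.sum_congr rfl (fun i _ => Finset.sum_congr rfl (fun l _ => ?_))
  ring

lemma gL_sq_integrableOn : IntegrableOn (fun s => gL c S s ^ 2) (Ioi 0) := by
  simp only [gL_sq]
  exact integrable_finsetSum _ (fun i _ => integrable_finsetSum _ (fun l _ =>
    (Gi_mul_integrable i l).const_mul _))

lemma gL_sq_integral : ∫ s in Ioi (0:ℝ), gL c S s ^ 2 = ∑ i ∈ S, ∑ l ∈ S, c i * c l * Aij i l := by
  simp only [gL_sq]
  rw [integral_finsetSum _ (fun i _ => integrable_finsetSum _ (fun l _ =>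
    (Gi_mul_integrable i l).const_mul _))]
  refine Finset.sum_congr rfl (fun i _ => ?_)
  rw [integral_finsetSum _ (fun l _ => (Gi_mul_integrable i l).const_mul _)]
  refine Finset.sum_congr rfl (fun l _ => ?_)
  rw [integral_const_mul, Gi_mul_integral]

lemma gL_abs_continuous : Continuous (fun z : ℝ => gL c S |z|) := by
  unfold gL Gi
  refine continuous_finsetSum _ (fun i _ => continuous_const.mul (continuous_const.mul ?_))
  refine Continuous.add (continuous_const.mul (Continuous.inv₀ (by fun_prop) (fun z => ?_)))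
    (continuous_const.mul (Continuous.inv₀ (by fun_prop) (fun z => ?_))) <;> positivity

/-- **The weight data of the explicit family.** -/
theorem weightData_L (hnorm : ∑ i ∈ S, c i * ((i + 1).factorial : ℝ) = 1)
    (hA : 0 < AL c S) (hB : 0 < BL c S) : WeightData (mL c S) (gL c S) (AL c S) (BL c S) where
  m_cont := mL_continuous c S
  m_int := mL_integrable c S
  m_norm := by rw [mL_integral, hnorm]
  mt_int := mtL_integrable c S
  formula := fun s hs => gL_formula c S hs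
  B_int := BL_integrable c S
  B_eq := BL_integral c S
  g_cont := gL_abs_continuous c S
  A_int := integrable_abs_of_Ioi (gL_sq_integrableOn c S)
  A_eq := by
    rw [integral_comp_abs (f := fun s => gL c S s ^ 2), gL_sq_integral]
    rfl
  A_pos := hA
  B_pos := hB

end laguerre

end Vale.Agent.P371
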