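import Vale.Agent.Lib.P371.Assemble

/-!
The limit of the lattice bound, and the main theorem for trial functions.
-/

set_option linter.unusedSectionVars false
set_option linter.unusedSimpArgs false
set_option linter.unusedVariables false

open Matrix MeasureTheory Set Filter Topology
open scoped ComplexOrder Real

namespace Vale.Agent.P371

variable {τ : Type*} [Fintype τ] [DecidableEq τ]

section limit

variable {W : ℝ → Matrix τ τ ℂ} (hWm : ∀ α β, Measurable (fun y => W y α β))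
  (hWpsd : ∀ y, (W y).PosSemidef) {γ : ℝ} (hγ : 1 / 2 < γ)
  (hint : Integrable (fun y => ∑ α, ((hWpsd y).1.eigenvalues α) ^ (γ + 1 / 2)))

include hWm hWpsd hγ hint in
theorem limit_bound {n : ℕ} {ψ ψ' : Fin n → ℝ → τ → ℂ}
    (hd : ∀ k α y, HasDerivAt (fun y => ψ k y α) (ψ' k y α) y)
    (hc' : ∀ k α, Continuous (fun y => ψ' k y α))
    {L : ℝ} (hL : 0 < L) (hsupp : ∀ k y α, L ≤ |y| → ψ k y α = 0)
    (hsupp' : ∀ k y α, L ≤ |y| → ψ' k y α = 0)
    {M : ℝ} (hMnn : 0 ≤ M) (hM0 : ∀ k y α, ‖ψ k y α‖ ≤ M) (hM1 : ∀ k y α, ‖ψ' k y α‖ ≤ M)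
    (hON : ∀ d : Fin n → ℂ, ∫ y, ∑ α, ‖∑ k, d k * ψ k y α‖ ^ 2 = ∑ k, ‖d k‖ ^ 2)
    (hIkin : ∀ d : Fin n → ℂ, Integrable (fun y => ∑ α, ‖∑ k, d k * ψ' k y α‖ ^ 2))
    (hIpot : ∀ d : Fin n → ℂ, Integrable (fun y => ∑ α, ‖∑ k, d k * ψ k y α‖ ^ 2))
    {Q : Matrix (Fin n) (Fin n) ℂ} (hQH : Q.IsHermitian)
    (hQform : ∀ d : Fin n → ℂ, (star d ⬝ᵥ (Q *ᵥ d)).re =
      (∫ y, ∑ α, ‖∑ k, d k * ψ' k y α‖ ^ 2) -
        ∫ y, (star (fun α => ∑ k, d k * ψ k y α) ⬝ᵥ (W y *ᵥ (fun α => ∑ k, d k * ψ k y α))).re) :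
    ∑ j, (max (-hQH.eigenvalues j) 0) ^ γ ≤
      Cst γ * ∫ y, ∑ α, ((hWpsd y).1.eigenvalues α) ^ (γ + 1 / 2) := by
  have h0γ : 0 < γ := by linarith
  set ML : ℝ := ∫ y in (-L)..L, rtr (W y) with hML
  set C₀ : ℝ := 2 * (Fintype.card τ : ℝ) ^ 2 * n * M ^ 2 * ML with hC₀
  set I : ℝ := ∫ y, ∑ α, ((hWpsd y).1.eigenvalues α) ^ (γ + 1 / 2) with hI
  set A₀ : ℝ := ∑ j, (max (-hQH.eigenvalues j) 0) ^ γ with hA₀
  -- the limit in the mesh
  have hstep1 : ∀ a : ℝ, 0 < a → A₀ ≤ (γ + 1 / 2) * (a ^ (2 * γ - 1) * ML / 2) + n * a ^ (2 * γ) +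
      Cst γ * I := by
    intro a ha
    set b : ℝ := a + ∑ j, Real.sqrt (max (-hQH.eigenvalues j) 0) with hb
    have hsum0 : 0 ≤ ∑ j, Real.sqrt (max (-hQH.eigenvalues j) 0) :=
      Finset.sum_nonneg (fun j _ => Real.sqrt_nonneg _)
    have hab : a ≤ b := by
      simp only [hb]
      linarith
    have hbj : ∀ j, Real.sqrt (max (-hQH.eigenvalues j) 0) ≤ b := by
      intro j
      have := Finset.single_le_sum (f := fun j => Real.sqrt (max (-hQH.eigenvalues j) 0))
        (fun i _ => Real.sqrt_nonneg _) (Finset.mem_univ j)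
      simp only [hb]
      linarith
    have hdlt : Tendsto (fun N : ℕ => dlt L N) atTop (𝓝 0) :=
      tendsto_const_div_atTop_nhds_zero_nat (2 * L)
    have hg : Continuous (fun t : ℝ => ∑ j, (max (-hQH.eigenvalues j - (C₀ + 1) * t) 0) ^ γ) := by
      apply continuous_finsetSum
      intro j _
      apply Continuous.rpow_const (by fun_prop)
      intro t
      right
      exact h0γ.le
    have hL1 : Tendsto (fun N : ℕ => ∑ j, (max (-hQH.eigenvalues j - (C₀ + 1) * dlt L N) 0) ^ γ)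
        atTop (𝓝 A₀) := by
      have := hg.tendsto 0
      have h2 := this.comp hdlt
      simp only [mul_zero, sub_zero] at h2
      exact h2
    have hL2 : Tendsto (fun N : ℕ => (γ + 1 / 2) * (a ^ (2 * γ - 1) * ML / 2) + n * a ^ (2 * γ) +
        Cst γ * I + (γ + 1 / 2) * (ML * dlt L N / π ^ 2) * b ^ (2 * γ)) atTop
        (𝓝 ((γ + 1 / 2) * (a ^ (2 * γ - 1) * ML / 2) + n * a ^ (2 * γ) + Cst γ * I +
          (γ + 1 / 2) * (ML * 0 / π ^ 2) * b ^ (2 * γ))) := by
      apply Tendsto.add tendsto_const_nhds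
      apply Tendsto.mul_const
      apply Tendsto.const_mul
      apply Tendsto.div_const
      exact hdlt.const_mul ML
    have hlim := le_of_tendsto_of_tendsto hL1 hL2 (by
      filter_upwards [eventually_gt_atTop 0] with N hN
      exact finite_bound hWm hWpsd hγ hint hd hc' hL hsupp hsupp' hMnn hM0 hM1 hON hIkin hIpot hQH
        hQform hML hC₀ hN ha hab hbj)
    simpa using hlim
  -- the limit in the spectral cutoff
  have hr : Continuous (fun a : ℝ => (γ + 1 / 2) * (a ^ (2 * γ - 1) * ML / 2) + n * a ^ (2 * γ) +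
      Cst γ * I) := by
    have h1 : Continuous (fun a : ℝ => a ^ (2 * γ - 1)) :=
      Real.continuous_rpow_const (by linarith)
    have h2 : Continuous (fun a : ℝ => a ^ (2 * γ)) :=
      Real.continuous_rpow_const (by linarith)
    fun_prop
  have hlim2 : Tendsto (fun a : ℝ => (γ + 1 / 2) * (a ^ (2 * γ - 1) * ML / 2) + n * a ^ (2 * γ) +
      Cst γ * I) (𝓝[>] 0) (𝓝 (Cst γ * I)) := by
    have := hr.tendsto 0
    have e1 : (0:ℝ) ^ (2 * γ - 1) = 0 := Real.zero_rpow (by linarith)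
    have e2 : (0:ℝ) ^ (2 * γ) = 0 := Real.zero_rpow (by linarith)
    simp only [e1, e2, zero_mul, zero_div, mul_zero, zero_add] at this
    exact this.mono_left nhdsWithin_le_nhds
  refine le_of_tendsto_of_tendsto tendsto_const_nhds hlim2 ?_
  filter_upwards [self_mem_nhdsWithin] with a ha
  exact hstep1 a ha

end limit

/-- Expansion of a quadratic form in a combination. -/
lemma form_comb {n : ℕ} (d : Fin n → ℂ) (u v : Fin n → τ → ℂ) (A : Matrix τ τ ℂ) :
    star (fun α => ∑ k, d k * u k α) ⬝ᵥ (A *ᵥ (fun α => ∑ k, d k * v k α)) =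
      ∑ j, ∑ k, star (d j) * d k * (star (u j) ⬝ᵥ (A *ᵥ v k)) := by
  have h1 : (fun α => ∑ k, d k * v k α) = ∑ k, d k • v k := by
    ext α
    simp [Finset.sum_apply]
  have h2 : (fun α => ∑ k, d k * u k α) = ∑ k, d k • u k := by
    ext α
    simp [Finset.sum_apply]
  rw [h1, h2, star_sum, Matrix.mulVec_sum, sum_dotProduct]
  refine Finset.sum_congr rfl (fun j _ => ?_)
  rw [dotProduct_sum]
  refine Finset.sum_congr rfl (fun k _ => ?_)
  rw [star_smul, Matrix.mulVec_smul, smul_dotProduct, dotProduct_smul, smul_eq_mul, smul_eq_mul]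
  ring


/-- **Main theorem**: the Lieb-Thirring bound on a trial space of continuously differentiable,
compactly supported orthonormal functions. -/
theorem main_theorem {m n : ℕ} {γ : ℝ} (hγ : 1 / 2 < γ) {W : ℝ → Matrix (Fin m) (Fin m) ℂ}
    (hWm : ∀ i j, Measurable fun x => W x i j) (hWpsd : ∀ x, (W x).PosSemidef)
    (hint : Integrable fun x => ∑ α, ((hWpsd x).1.eigenvalues α) ^ (γ + 1 / 2))
    {ψ : Fin n → ℝ → Fin m → ℂ} (hC1 : ∀ j, ContDiff ℝ 1 (ψ j))
    (hcs : ∀ j, HasCompactSupport (ψ j))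
    (hON : ∀ j k, ∫ x, star (ψ j x) ⬝ᵥ ψ k x = if j = k then 1 else 0)
    {Q : Matrix (Fin n) (Fin n) ℂ}
    (hQ : ∀ j k, Q j k = (∫ x, star (deriv (ψ j) x) ⬝ᵥ deriv (ψ k) x) -
      ∫ x, star (ψ j x) ⬝ᵥ (W x *ᵥ ψ k x)) :
    ∃ hQH : Q.IsHermitian, ∑ j, (max (-hQH.eigenvalues j) 0) ^ γ ≤
      Cst γ * ∫ x, ∑ α, ((hWpsd x).1.eigenvalues α) ^ (γ + 1 / 2) := by
  set ψ' : Fin n → ℝ → Fin m → ℂ := fun k y => deriv (ψ k) y with hψ'
  have hp : (1:ℝ) ≤ γ + 1 / 2 := by linarith
  have hd : ∀ k α y, HasDerivAt (fun y => ψ k y α) (ψ' k y α) y := by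
    intro k α y
    have h := ((hC1 k).differentiable (by norm_num) y).hasDerivAt
    exact hasDerivAt_pi.mp h α
  have hcd : ∀ k, Continuous (deriv (ψ k)) := fun k => (hC1 k).continuous_deriv le_rfl
  have hc' : ∀ k α, Continuous (fun y => ψ' k y α) :=
    fun k α => (continuous_apply α).comp (hcd k)
  have hc0 : ∀ k α, Continuous (fun y => ψ k y α) :=
    fun k α => (continuous_apply α).comp (hC1 k).continuous
  -- supports
  have hR : ∀ k, ∃ R : ℝ, ∀ y, R ≤ |y| → ψ k y = 0 ∧ deriv (ψ k) y = 0 := by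
    intro k
    have hS : IsCompact (tsupport (ψ k) ∪ tsupport (deriv (ψ k))) :=
      (hcs k).isCompact.union (hcs k).deriv.isCompact
    obtain ⟨C, hC⟩ := hS.isBounded.exists_norm_le
    refine ⟨C + 1, fun y hy => ?_⟩
    have hnot : y ∉ tsupport (ψ k) ∪ tsupport (deriv (ψ k)) := by
      intro hmem
      have := hC y hmem
      rw [Real.norm_eq_abs] at this
      linarith
    rw [mem_union, not_or] at hnot
    exact ⟨image_eq_zero_of_notMem_tsupport hnot.1, image_eq_zero_of_notMem_tsupport hnot.2⟩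
  choose R hRk using hR
  set L : ℝ := 1 + ∑ k, |R k| with hLdef
  have hL : 0 < L := by
    have : 0 ≤ ∑ k, |R k| := Finset.sum_nonneg (fun k _ => abs_nonneg _)
    simp only [hLdef]
    linarith
  have hRL : ∀ k, R k ≤ L := by
    intro k
    have h1 := Finset.single_le_sum (f := fun k => |R k|) (fun i _ => abs_nonneg _)
      (Finset.mem_univ k)
    have h2 := le_abs_self (R k)
    simp only [hLdef]
    linarith
  have hsuppv : ∀ k y, L ≤ |y| → ψ k y = 0 := fun k y hy => (hRk k y ((hRL k).trans hy)).1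
  have hsuppv' : ∀ k y, L ≤ |y| → ψ' k y = 0 := fun k y hy => (hRk k y ((hRL k).trans hy)).2
  have hsupp : ∀ k y α, L ≤ |y| → ψ k y α = 0 := fun k y α hy => by rw [hsuppv k y hy]; rfl
  have hsupp' : ∀ k y α, L ≤ |y| → ψ' k y α = 0 := fun k y α hy => by rw [hsuppv' k y hy]; rfl
  -- bounds
  have hB0 := fun k => (hcs k).exists_bound_of_continuous (hC1 k).continuous
  have hB1 := fun k => (hcs k).deriv.exists_bound_of_continuous (hcd k)
  choose C0 hC0 using hB0
  choose C1 hC1' using hB1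
  set M : ℝ := ∑ k, (|C0 k| + |C1 k|) with hMdef
  have hMnn : 0 ≤ M := Finset.sum_nonneg (fun k _ => by positivity)
  have hMk : ∀ k, |C0 k| + |C1 k| ≤ M := fun k =>
    Finset.single_le_sum (f := fun k => |C0 k| + |C1 k|) (fun i _ => by positivity)
      (Finset.mem_univ k)
  have hM0 : ∀ k y α, ‖ψ k y α‖ ≤ M := by
    intro k y α
    have h1 := norm_le_pi_norm (ψ k y) α
    have h2 := hC0 k y
    have h3 := le_abs_self (C0 k)
    have h4 := abs_nonneg (C1 k)
    have h5 := hMk k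
    linarith
  have hM1 : ∀ k y α, ‖ψ' k y α‖ ≤ M := by
    intro k y α
    have h1 := norm_le_pi_norm (ψ' k y) α
    have h2 := hC1' k y
    have h3 := le_abs_self (C1 k)
    have h4 := abs_nonneg (C0 k)
    have h5 := hMk k
    simp only [hψ'] at h1 ⊢
    linarith
  -- compact support helper
  have hcompact : ∀ {F : ℝ → ℂ}, (∀ y, L ≤ |y| → F y = 0) → HasCompactSupport F := by
    intro F hF
    apply HasCompactSupport.intro (isCompact_Icc (a := -L) (b := L))
    intro y hy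
    apply hF
    by_contra hlt
    rw [not_le, abs_lt] at hlt
    exact hy ⟨hlt.1.le, hlt.2.le⟩
  have hnormint : ∀ {ν : Fin n → ℝ → Fin m → ℂ} (d : Fin n → ℂ), (∀ k α, Continuous (fun y => ν k y α)) →
      (∀ k y α, L ≤ |y| → ν k y α = 0) → Integrable (fun y => ∑ α, ‖∑ k, d k * ν k y α‖ ^ 2) := by
    intro ν d hν hν0
    refine integrable_finsetSum _ (fun α _ => ?_)
    have hc : Continuous (fun y => ∑ k, d k * ν k y α) :=
      continuous_finsetSum _ (fun k _ => continuous_const.mul (hν k α))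
    apply Continuous.integrable_of_hasCompactSupport (by fun_prop)
    apply HasCompactSupport.intro (isCompact_Icc (a := -L) (b := L))
    intro y hy
    have hyL : L ≤ |y| := by
      by_contra hlt
      rw [not_le, abs_lt] at hlt
      exact hy ⟨hlt.1.le, hlt.2.le⟩
    have : ∑ k, d k * ν k y α = 0 :=
      Finset.sum_eq_zero (fun k _ => by rw [hν0 k y α hyL, mul_zero])
    rw [this]
    simp
  have hIkin : ∀ d : Fin n → ℂ, Integrable (fun y => ∑ α, ‖∑ k, d k * ψ' k y α‖ ^ 2) :=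
    fun d => hnormint d hc' hsupp'
  have hIpot : ∀ d : Fin n → ℂ, Integrable (fun y => ∑ α, ‖∑ k, d k * ψ k y α‖ ^ 2) :=
    fun d => hnormint d hc0 hsupp
  -- pairings are integrable
  have hdotint : ∀ {ν : Fin n → ℝ → Fin m → ℂ}, (∀ k α, Continuous (fun y => ν k y α)) →
      (∀ k y α, L ≤ |y| → ν k y α = 0) →
      ∀ j k, Integrable (fun y => star (ν j y) ⬝ᵥ ν k y) := by
    intro ν hν hν0 j k
    simp only [dotProduct, Pi.star_apply]
    refine integrable_finsetSum _ (fun α _ => ?_)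
    have hcc : Continuous (fun y => star (ν j y α) * ν k y α) :=
      (continuous_star.comp (hν j α)).mul (hν k α)
    apply hcc.integrable_of_hasCompactSupport
    apply hcompact
    intro y hy
    rw [hν0 j y α hy]
    simp
  have hVint : ∀ j k, Integrable (fun y => star (ψ j y) ⬝ᵥ (W y *ᵥ ψ k y)) := by
    intro j k
    exact quad_integrable hWm hWpsd hp hint (hc0 j) (hc0 k)
      (fun α => hcompact (fun y hy => hsupp j y α hy))
  -- general expansion of an integrated quadratic form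
  have hexpand : ∀ (d : Fin n → ℂ) {H : Fin n → Fin n → ℝ → ℂ},
      (∀ j k, Integrable (H j k)) →
      ∫ y, ∑ j, ∑ k, star (d j) * d k * H j k y =
        ∑ j, ∑ k, star (d j) * d k * ∫ y, H j k y := by
    intro d H hH
    rw [integral_finsetSum _ (fun j _ => integrable_finsetSum _
      (fun k _ => (hH j k).const_mul _))]
    refine Finset.sum_congr rfl (fun j _ => ?_)
    rw [integral_finsetSum _ (fun k _ => (hH j k).const_mul _)]
    refine Finset.sum_congr rfl (fun k _ => ?_)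
    rw [integral_const_mul]
  -- orthonormality in the combined form
  have hON' : ∀ d : Fin n → ℂ, ∫ y, ∑ α, ‖∑ k, d k * ψ k y α‖ ^ 2 = ∑ k, ‖d k‖ ^ 2 := by
    intro d
    have hpt : ∀ y, (((∑ α, ‖∑ k, d k * ψ k y α‖ ^ 2 : ℝ)) : ℂ) =
        ∑ j, ∑ k, star (d j) * d k * (star (ψ j y) ⬝ᵥ ψ k y) := by
      intro y
      have h1 := star_dot_self (fun α => ∑ k, d k * ψ k y α)
      have h2 := form_comb d (fun k => ψ k y) (fun k => ψ k y) (1 : Matrix (Fin m) (Fin m) ℂ)
      simp only [Matrix.one_mulVec] at h2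
      rw [← h1, h2]
    have h3 : ((∫ y, ∑ α, ‖∑ k, d k * ψ k y α‖ ^ 2 : ℝ) : ℂ) = ((∑ k, ‖d k‖ ^ 2 : ℝ) : ℂ) := by
      rw [← integral_complex_ofReal]
      simp only [hpt]
      rw [hexpand d (hdotint hc0 hsupp)]
      simp only [hON]
      rw [← star_dot_self d]
      simp only [dotProduct, Pi.star_apply]
      refine Finset.sum_congr rfl (fun j _ => ?_)
      rw [Finset.sum_eq_single j]
      · simp
      · intro k _ hk
        have : ¬ j = k := fun h => hk h.symm
        simp [this]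
      · simp
    exact_mod_cast h3
  -- the matrix is Hermitian
  have hstar_pot : ∀ j k y, star (star (ψ j y) ⬝ᵥ (W y *ᵥ ψ k y)) =
      star (ψ k y) ⬝ᵥ (W y *ᵥ ψ j y) := by
    intro j k y
    rw [← star_dotProduct, Matrix.star_mulVec, (hWpsd y).1.eq, ← Matrix.dotProduct_mulVec]
  have hstar_kin : ∀ j k y, star (star (ψ' j y) ⬝ᵥ ψ' k y) = star (ψ' k y) ⬝ᵥ ψ' j y := by
    intro j k y
    rw [← star_dotProduct]
  have hQH : Q.IsHermitian := by
    ext j k
    rw [Matrix.conjTranspose_apply, hQ k j, hQ j k, star_sub]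
    congr 1
    · rw [Complex.star_def, ← integral_conj]
      refine integral_congr_ae (Eventually.of_forall (fun y => ?_))
      exact hstar_kin k j y
    · rw [Complex.star_def, ← integral_conj]
      refine integral_congr_ae (Eventually.of_forall (fun y => ?_))
      exact hstar_pot k j y
  refine ⟨hQH, ?_⟩
  -- the quadratic form identity
  have hQform : ∀ d : Fin n → ℂ, (star d ⬝ᵥ (Q *ᵥ d)).re =
      (∫ y, ∑ α, ‖∑ k, d k * ψ' k y α‖ ^ 2) -
        ∫ y, (star (fun α => ∑ k, d k * ψ k y α) ⬝ᵥ (W y *ᵥ (fun α => ∑ k, d k * ψ k y α))).re := by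
    intro d
    have hkin : ((∫ y, ∑ α, ‖∑ k, d k * ψ' k y α‖ ^ 2 : ℝ) : ℂ) =
        ∑ j, ∑ k, star (d j) * d k * ∫ y, star (ψ' j y) ⬝ᵥ ψ' k y := by
      rw [← integral_complex_ofReal, ← hexpand d (hdotint hc' hsupp')]
      refine integral_congr_ae (Eventually.of_forall (fun y => ?_))
      have h1 := star_dot_self (fun α => ∑ k, d k * ψ' k y α)
      have h2 := form_comb d (fun k => ψ' k y) (fun k => ψ' k y) (1 : Matrix (Fin m) (Fin m) ℂ)
      simp only [Matrix.one_mulVec] at h2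
      simp only
      rw [← h1, h2]
    have hpot : ∫ y, star (fun α => ∑ k, d k * ψ k y α) ⬝ᵥ (W y *ᵥ (fun α => ∑ k, d k * ψ k y α)) =
        ∑ j, ∑ k, star (d j) * d k * ∫ y, star (ψ j y) ⬝ᵥ (W y *ᵥ ψ k y) := by
      rw [← hexpand d hVint]
      refine integral_congr_ae (Eventually.of_forall (fun y => ?_))
      exact form_comb d (fun k => ψ k y) (fun k => ψ k y) (W y)
    have hQd : star d ⬝ᵥ (Q *ᵥ d) = ((∫ y, ∑ α, ‖∑ k, d k * ψ' k y α‖ ^ 2 : ℝ) : ℂ) -
        ∫ y, star (fun α => ∑ k, d k * ψ k y α) ⬝ᵥ (W y *ᵥ (fun α => ∑ k, d k * ψ k y α)) := by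
      rw [hkin, hpot, dot_mulVec_expand, ← Finset.sum_sub_distrib]
      refine Finset.sum_congr rfl (fun j _ => ?_)
      rw [← Finset.sum_sub_distrib]
      refine Finset.sum_congr rfl (fun k _ => ?_)
      rw [hQ j k]
      ring
    rw [hQd, Complex.sub_re, Complex.ofReal_re]
    congr 1
    have hFint : Integrable (fun y => star (fun α => ∑ k, d k * ψ k y α) ⬝ᵥ
        (W y *ᵥ (fun α => ∑ k, d k * ψ k y α))) := by
      have hcF : ∀ α, Continuous (fun y => ∑ k, d k * ψ k y α) := fun α =>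
        continuous_finsetSum _ (fun k _ => continuous_const.mul (hc0 k α))
      refine quad_integrable hWm hWpsd hp hint hcF hcF (fun α => hcompact (fun y hy => ?_))
      exact Finset.sum_eq_zero (fun k _ => by rw [hsupp k y α hy, mul_zero])
    exact (integral_re hFint).symm
  exact limit_bound hWm hWpsd hγ hint hd hc' hL hsupp hsupp' hMnn hM0 hM1 hON' hIkin hIpot hQH hQform

end Vale.Agent.P371
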