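import Vale.Agent.Lib.P371.Kin4
import Vale.Agent.Lib.P371.Main

/-!
Assembly: the kinetic energy inequality for orthonormal families of vector valued functions.
-/

set_option linter.unusedSectionVars false
set_option linter.unusedSimpArgs false
set_option linter.unusedVariables false

open Matrix MeasureTheory Set Filter Topology
open scoped Real FourierTransform SchwartzMap ENNReal ContDiff ComplexOrder

namespace Vale.Agent.P371

variable {ι τ : Type*} [Fintype ι] [Fintype τ] [DecidableEq τ] [DecidableEq ι]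

lemma hcs_finsum {κ : Type*} (S : Finset κ) (f : κ → ℝ → ℂ) (h : ∀ k ∈ S, HasCompactSupport (f k)) :
    HasCompactSupport (fun y => ∑ k ∈ S, f k y) := by
  classical
  induction S using Finset.induction_on with
  | empty =>
    simp only [Finset.sum_empty]
    exact HasCompactSupport.zero
  | insert a S ha ih =>
    have h1 := h a (Finset.mem_insert_self a S)
    have h2 := ih (fun k hk => h k (Finset.mem_insert_of_mem hk))
    have e : (fun y => ∑ k ∈ insert a S, f k y) = f a + fun y => ∑ k ∈ S, f k y := by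
      ext y
      rw [Finset.sum_insert ha]
      rfl
    rw [e]
    exact h1.add h2

/-- Expansion of the integral of the square of a combination of orthonormal functions. -/
lemma integral_comb_sq {ψ : ι → ℝ → τ → ℂ} (hc : ∀ n α, Continuous (fun y => ψ n y α))
    (hs : ∀ n α, HasCompactSupport (fun y => ψ n y α))
    (hON : ∀ j k, ∫ x, star (ψ j x) ⬝ᵥ ψ k x = if j = k then 1 else 0) (d : ι → ℂ) :
    Integrable (fun y => ∑ α, ‖∑ k, d k * ψ k y α‖ ^ 2) ∧
    ∫ y, ∑ α, ‖∑ k, d k * ψ k y α‖ ^ 2 = ∑ k, ‖d k‖ ^ 2 := by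
  have hI : Integrable (fun y => ∑ α, ‖∑ k, d k * ψ k y α‖ ^ 2) := by
    refine integrable_finsetSum _ (fun α _ => ?_)
    have hcc : Continuous (fun y => ∑ k, d k * ψ k y α) :=
      continuous_finsetSum _ (fun k _ => continuous_const.mul (hc k α))
    have hcs : HasCompactSupport (fun y => ∑ k, d k * ψ k y α) := by
      exact hcs_finsum _ (fun k y => d k * ψ k y α) (fun k _ => (hs k α).mul_left)
    have h2 : HasCompactSupport (fun y => ‖∑ k, d k * ψ k y α‖ ^ 2) := by
      have := hcs.comp_left (g := fun z : ℂ => ‖z‖ ^ 2) (by simp)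
      exact this
    exact (by fun_prop : Continuous (fun y => ‖∑ k, d k * ψ k y α‖ ^ 2)).integrable_of_hasCompactSupport h2
  refine ⟨hI, ?_⟩
  have hpt : ∀ y, (((∑ α, ‖∑ k, d k * ψ k y α‖ ^ 2 : ℝ)) : ℂ) =
      ∑ j, ∑ k, star (d j) * d k * (star (ψ j y) ⬝ᵥ ψ k y) := by
    intro y
    have h1 := star_dot_self (fun α => ∑ k, d k * ψ k y α)
    rw [← h1]
    simp only [dotProduct, Pi.star_apply, star_sum, star_mul']
    have : ∀ α : τ, (∑ j, star (d j) * star (ψ j y α)) * ∑ k, d k * ψ k y α =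
        ∑ j, ∑ k, star (d j) * d k * (star (ψ j y α) * ψ k y α) := by
      intro α
      rw [Finset.sum_mul_sum]
      refine Finset.sum_congr rfl (fun j _ => Finset.sum_congr rfl (fun k _ => ?_))
      ring
    simp only [this]
    rw [Finset.sum_comm]
    refine Finset.sum_congr rfl (fun j _ => ?_)
    rw [Finset.sum_comm]
    refine Finset.sum_congr rfl (fun k _ => ?_)
    rw [Finset.mul_sum]
  have hdot : ∀ j k, Integrable (fun y => star (ψ j y) ⬝ᵥ ψ k y) := by
    intro j k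
    simp only [dotProduct, Pi.star_apply]
    refine integrable_finsetSum _ (fun α _ => ?_)
    have h1 : Continuous (fun y => star (ψ j y α) * ψ k y α) :=
      (continuous_star.comp (hc j α)).mul (hc k α)
    exact h1.integrable_of_hasCompactSupport (hs k α).mul_left
  have h3 : ((∫ y, ∑ α, ‖∑ k, d k * ψ k y α‖ ^ 2 : ℝ) : ℂ) = ((∑ k, ‖d k‖ ^ 2 : ℝ) : ℂ) := by
    rw [← integral_complex_ofReal]
    simp only [hpt]
    rw [integral_finsetSum _ (fun j _ => integrable_finsetSum _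
      (fun k _ => (hdot j k).const_mul _))]
    simp only [integral_finsetSum _ (fun k _ => (hdot _ k).const_mul _), integral_const_mul, hON]
    rw [← star_dot_self d]
    simp only [dotProduct, Pi.star_apply]
    refine Finset.sum_congr rfl (fun j _ => ?_)
    rw [Finset.sum_eq_single j]
    · simp
    · intro k _ hk
      have : ¬ j = k := fun h => hk h.symm
      simp [this]
    · simp
  exact_mod_cast h3

/-- **Bessel inequality** for values against a unit vector. -/
theorem bessel_vector {ψ : ι → ℝ → τ → ℂ} (hc : ∀ n α, Continuous (fun y => ψ n y α))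
    (hs : ∀ n α, HasCompactSupport (fun y => ψ n y α))
    (hON : ∀ j k, ∫ x, star (ψ j x) ⬝ᵥ ψ k x = if j = k then 1 else 0)
    {e : τ → ℂ} (he : ∑ α, ‖e α‖ ^ 2 = 1) {G : ℝ → ℝ} (hG : Continuous G)
    (hG2 : Integrable (fun y => G y ^ 2)) :
    ∑ n, ‖∫ y, (G y : ℂ) * (star e ⬝ᵥ ψ n y)‖ ^ 2 ≤ ∫ y, G y ^ 2 := by
  set c : ι → ℂ := fun n => ∫ y, (G y : ℂ) * (star e ⬝ᵥ ψ n y) with hcdef
  set V : ℝ := ∑ n, ‖c n‖ ^ 2 with hV
  set d : ι → ℂ := fun n => star (c n) with hd
  obtain ⟨hI, hvalue⟩ := integral_comb_sq hc hs hON d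
  have hnd : ∑ k, ‖d k‖ ^ 2 = V := by
    simp only [hd, norm_star, hV]
  rw [hnd] at hvalue
  have hdotc : ∀ n, Continuous (fun y => star e ⬝ᵥ ψ n y) := by
    intro n
    simp only [dotProduct]
    exact continuous_finsetSum _ (fun α _ => continuous_const.mul (by simpa using hc n α))
  have hpairI : ∀ n, Integrable (fun y => (G y : ℂ) * (star e ⬝ᵥ ψ n y)) := by
    intro n
    have h1 : Continuous (fun y => (G y : ℂ) * (star e ⬝ᵥ ψ n y)) :=
      (Complex.continuous_ofReal.comp hG).mul (hdotc n)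
    refine h1.integrable_of_hasCompactSupport ?_
    have : HasCompactSupport (fun y => star e ⬝ᵥ ψ n y) := by
      exact hcs_finsum _ (fun α y => star (e α) * ψ n y α) (fun α _ => (hs n α).mul_left)
    exact this.mul_left
  -- expansion of V
  set Φ : ℝ → τ → ℂ := fun y α => ∑ k, d k * ψ k y α with hΦ
  have hVeq : ((V : ℝ) : ℂ) = ∫ y, (G y : ℂ) * (star e ⬝ᵥ Φ y) := by
    have e1 : ∀ y, (G y : ℂ) * (star e ⬝ᵥ Φ y) = ∑ k, d k * ((G y : ℂ) * (star e ⬝ᵥ ψ k y)) := by
      intro y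
      simp only [dotProduct, hΦ, Finset.mul_sum]
      rw [Finset.sum_comm]
      refine Finset.sum_congr rfl (fun k _ => Finset.sum_congr rfl (fun α _ => ?_))
      ring
    simp only [e1]
    rw [integral_finsetSum _ (fun k _ => (hpairI k).const_mul _)]
    simp only [integral_const_mul]
    simp only [hV]
    push_cast
    refine Finset.sum_congr rfl (fun n _ => ?_)
    simp only [hd, hcdef]
    rw [Complex.star_def, Complex.conj_mul']
  -- pointwise Cauchy-Schwarz
  have hpt : ∀ y, ‖(G y : ℂ) * (star e ⬝ᵥ Φ y)‖ ≤ (1 / 2) * G y ^ 2 + (1 / 2) * ∑ α, ‖Φ y α‖ ^ 2 := by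
    intro y
    have h1 : ‖star e ⬝ᵥ Φ y‖ ^ 2 ≤ ∑ α, ‖Φ y α‖ ^ 2 := by
      have h2 : ‖star e ⬝ᵥ Φ y‖ ≤ ∑ α, ‖e α‖ * ‖Φ y α‖ := by
        simp only [dotProduct, Pi.star_apply]
        refine (norm_sum_le _ _).trans (Finset.sum_le_sum (fun α _ => ?_))
        rw [norm_mul, norm_star]
      have h3 := Finset.sum_mul_sq_le_sq_mul_sq Finset.univ (fun α => ‖e α‖) (fun α => ‖Φ y α‖)
      rw [he, one_mul] at h3
      have h4 := norm_nonneg (star e ⬝ᵥ Φ y)
      calc _ ≤ (∑ α, ‖e α‖ * ‖Φ y α‖) ^ 2 := by gcongr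
        _ ≤ _ := h3
    rw [norm_mul, Complex.norm_real, Real.norm_eq_abs]
    have h5 := sq_abs (G y)
    nlinarith [sq_nonneg (|G y| - ‖star e ⬝ᵥ Φ y‖), norm_nonneg (star e ⬝ᵥ Φ y), abs_nonneg (G y)]
  have hΦI : Integrable (fun y => (G y : ℂ) * (star e ⬝ᵥ Φ y)) := by
    have e1 : (fun y => (G y : ℂ) * (star e ⬝ᵥ Φ y)) = fun y => ∑ k, d k * ((G y : ℂ) * (star e ⬝ᵥ ψ k y)) := by
      ext y
      simp only [dotProduct, hΦ, Finset.mul_sum]
      rw [Finset.sum_comm]
      refine Finset.sum_congr rfl (fun k _ => Finset.sum_congr rfl (fun α _ => ?_))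
      ring
    rw [e1]
    exact integrable_finsetSum _ (fun k _ => (hpairI k).const_mul _)
  have hVle : V ≤ (1 / 2) * (∫ y, G y ^ 2) + (1 / 2) * V := by
    have h1 : ‖((V : ℝ) : ℂ)‖ ≤ ∫ y, (1 / 2) * G y ^ 2 + (1 / 2) * ∑ α, ‖Φ y α‖ ^ 2 := by
      rw [hVeq]
      refine (norm_integral_le_integral_norm _).trans ?_
      exact integral_mono hΦI.norm ((hG2.const_mul _).add (hI.const_mul _)) hpt
    rw [integral_add (hG2.const_mul _) (hI.const_mul _), integral_const_mul, integral_const_mul, hvalue] at h1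
    have h2 : V ≤ ‖((V : ℝ) : ℂ)‖ := by
      rw [Complex.norm_real, Real.norm_eq_abs]
      exact le_abs_self V
    linarith
  linarith

/-- The density matrix. -/
noncomputable def rhoM (ψ : ι → ℝ → τ → ℂ) (x : ℝ) : Matrix τ τ ℂ :=
  Matrix.of fun α β => ∑ n, ψ n x α * star (ψ n x β)

lemma rhoM_herm (ψ : ι → ℝ → τ → ℂ) (x : ℝ) : (rhoM ψ x).IsHermitian := by
  ext α β
  simp only [rhoM, Matrix.conjTranspose_apply, Matrix.of_apply, star_sum, star_mul', star_star]
  refine Finset.sum_congr rfl (fun n _ => ?_)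
  ring

lemma rhoM_quad (ψ : ι → ℝ → τ → ℂ) (x : ℝ) (e : τ → ℂ) :
    star e ⬝ᵥ (rhoM ψ x *ᵥ e) = ((∑ n, ‖star e ⬝ᵥ ψ n x‖ ^ 2 : ℝ) : ℂ) := by
  push_cast
  have h : ∀ n, ((‖star e ⬝ᵥ ψ n x‖ : ℂ)) ^ 2 =
      (star e ⬝ᵥ ψ n x) * star (star e ⬝ᵥ ψ n x) := by
    intro n
    rw [Complex.star_def, Complex.mul_conj']
  simp only [h]
  have L : star e ⬝ᵥ (rhoM ψ x *ᵥ e) =
      ∑ α, ∑ β, ∑ n, star (e α) * (ψ n x α * star (ψ n x β) * e β) := by
    simp only [dotProduct, mulVec, rhoM, Matrix.of_apply, Pi.star_apply, Finset.sum_mul, Finset.mul_sum]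
  have R : ∀ n, (star e ⬝ᵥ ψ n x) * star (star e ⬝ᵥ ψ n x) =
      ∑ α, ∑ β, star (e α) * (ψ n x α * star (ψ n x β) * e β) := by
    intro n
    simp only [dotProduct, Pi.star_apply, star_sum, star_mul', star_star]
    rw [Finset.sum_mul_sum]
    refine Finset.sum_congr rfl (fun α _ => Finset.sum_congr rfl (fun β _ => ?_))
    ring
  rw [L]
  simp only [R]
  calc _ = ∑ α, ∑ n, ∑ β, star (e α) * (ψ n x α * star (ψ n x β) * e β) :=
        Finset.sum_congr rfl (fun α _ => Finset.sum_comm)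
    _ = _ := Finset.sum_comm

/-- Eigenvalues of the density matrix. -/
lemma rhoM_eig (ψ : ι → ℝ → τ → ℂ) (x : ℝ) (a : τ) :
    (rhoM_herm ψ x).eigenvalues a =
      ∑ n, ‖star (fun β => ((rhoM_herm ψ x).eigenvectorUnitary : Matrix τ τ ℂ) β a) ⬝ᵥ ψ n x‖ ^ 2 := by
  have h1 := eig_quad (rhoM_herm ψ x) a
  rw [rhoM_quad] at h1
  exact_mod_cast h1.symm

lemma rhoM_eig_nonneg (ψ : ι → ℝ → τ → ℂ) (x : ℝ) (a : τ) : 0 ≤ (rhoM_herm ψ x).eigenvalues a := by
  rw [rhoM_eig]
  positivity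

/-- The trace of the cube in terms of the eigenvalues. -/
lemma trace_cube {Q : Matrix τ τ ℂ} (hQ : Q.IsHermitian) :
    ((Q * Q * Q).trace).re = ∑ a, (hQ.eigenvalues a) ^ 3 := by
  set U : Matrix τ τ ℂ := (hQ.eigenvectorUnitary : Matrix τ τ ℂ) with hU
  set D : Matrix τ τ ℂ := diagonal (fun i => ((hQ.eigenvalues i : ℝ) : ℂ)) with hD
  have hQe : Q = U * D * star U := by
    conv_lhs => rw [← fc_eigenvalues hQ]
    rfl
  have hSU : star U * U = 1 := unitary_star_mul hQ
  have h1 : Q * Q * Q = U * (D * D * D) * star U := by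
    rw [hQe]
    calc U * D * star U * (U * D * star U) * (U * D * star U)
        = U * D * (star U * U) * D * (star U * U) * D * star U := by
          simp only [Matrix.mul_assoc]
      _ = _ := by
          rw [hSU]
          simp only [Matrix.mul_one, Matrix.mul_assoc]
  rw [h1, Matrix.trace_mul_comm, ← Matrix.mul_assoc, hSU, Matrix.one_mul]
  simp only [hD, Matrix.diagonal_mul_diagonal, Matrix.trace_diagonal]
  rw [Complex.re_sum]
  refine Finset.sum_congr rfl (fun a _ => ?_)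
  have : ((hQ.eigenvalues a : ℂ)) * (hQ.eigenvalues a : ℂ) * (hQ.eigenvalues a : ℂ) =
      (((hQ.eigenvalues a) ^ 3 : ℝ) : ℂ) := by
    push_cast
    ring
  rw [this, Complex.ofReal_re]

section vector

variable {ψ : ι → ℝ → τ → ℂ}

lemma comp_smooth (hsm : ∀ n, ContDiff ℝ ∞ (ψ n)) (n : ι) (α : τ) :
    ContDiff ℝ ∞ (fun y => ψ n y α) := contDiff_pi.mp (hsm n) α

lemma comp_support (hcs : ∀ n, HasCompactSupport (ψ n)) (n : ι) (α : τ) :
    HasCompactSupport (fun y => ψ n y α) :=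
  (hcs n).comp_left (g := fun v : τ → ℂ => v α) rfl

/-- The component as a Schwartz function. -/
noncomputable def cS (hsm : ∀ n, ContDiff ℝ ∞ (ψ n)) (hcs : ∀ n, HasCompactSupport (ψ n)) (n : ι) (α : τ) :
    𝓢(ℝ, ℂ) := (comp_support hcs n α).toSchwartzMap (comp_smooth hsm n α)

lemma dot_smooth (hsm : ∀ n, ContDiff ℝ ∞ (ψ n)) (e : τ → ℂ) (n : ι) :
    ContDiff ℝ ∞ (fun y => star e ⬝ᵥ ψ n y) := by
  simp only [dotProduct]
  exact ContDiff.sum (fun α _ => contDiff_const.mul (by simpa using comp_smooth hsm n α))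

lemma dot_support (hcs : ∀ n, HasCompactSupport (ψ n)) (e : τ → ℂ) (n : ι) :
    HasCompactSupport (fun y => star e ⬝ᵥ ψ n y) := by
  exact hcs_finsum _ (fun α y => star (e α) * ψ n y α) (fun α _ => (comp_support hcs n α).mul_left)

/-- The pairing with a vector as a Schwartz function. -/
noncomputable def eS (hsm : ∀ n, ContDiff ℝ ∞ (ψ n)) (hcs : ∀ n, HasCompactSupport (ψ n)) (e : τ → ℂ) (n : ι) :
    𝓢(ℝ, ℂ) := (dot_support hcs e n).toSchwartzMap (dot_smooth hsm e n)

/-- `yk` is linear in the pairing. -/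
lemma yk_dot (hsm : ∀ n, ContDiff ℝ ∞ (ψ n)) (hcs : ∀ n, HasCompactSupport (ψ n)) (e : τ → ℂ) (n : ι)
    {κ : ℝ} (hκ : 0 < κ) (x : ℝ) :
    yk (eS hsm hcs e n) κ x = star e ⬝ᵥ (fun α => yk (cS hsm hcs n α) κ x) := by
  have hval : ∀ y, eS hsm hcs e n y = ∑ α, star (e α) * cS hsm hcs n α y := fun y => rfl
  simp only [yk, dotProduct, Pi.star_apply, hval]
  have hI : ∀ α, Integrable (fun z => (Pk κ z : ℂ) * cS hsm hcs n α (x - z)) := by
    intro α
    obtain ⟨C, hC⟩ := (cS hsm hcs n α).decay 0 0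
    refine (Pk_integrable_complex hκ).mul_bdd (c := C)
      ((cS hsm hcs n α).continuous.comp (by fun_prop)).aestronglyMeasurable
      (Eventually.of_forall (fun z => ?_))
    simpa using hC.2 (x - z)
  have e1 : ∫ z, (Pk κ z : ℂ) * ∑ α, star (e α) * cS hsm hcs n α (x - z) =
      ∑ α, star (e α) * ∫ z, (Pk κ z : ℂ) * cS hsm hcs n α (x - z) := by
    have : ∀ z, (Pk κ z : ℂ) * ∑ α, star (e α) * cS hsm hcs n α (x - z) =
        ∑ α, star (e α) * ((Pk κ z : ℂ) * cS hsm hcs n α (x - z)) := by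
      intro z
      rw [Finset.mul_sum]
      refine Finset.sum_congr rfl (fun α _ => ?_)
      ring
    simp only [this]
    rw [integral_finsetSum _ (fun α _ => (hI α).const_mul _)]
    simp only [integral_const_mul]
  rw [e1, ← Finset.sum_sub_distrib]
  refine Finset.sum_congr rfl (fun α _ => ?_)
  ring

omit [Fintype ι] [Fintype τ] [DecidableEq τ] [DecidableEq ι] in
lemma energy_aem (f : 𝓢(ℝ, ℂ)) (x : ℝ) :
    AEMeasurable (fun κ => ENNReal.ofReal (2 * κ * ‖yk f κ x‖ ^ 2)) (volume.restrict (Ioi (0:ℝ))) := by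
  refine ENNReal.measurable_ofReal.comp_aemeasurable ?_
  have h1 := (yk_aesm f x).norm
  have h2 := ((continuous_const.mul continuous_id).aestronglyMeasurable (μ := volume.restrict (Ioi (0:ℝ)))
    (α := ℝ) (f := fun κ : ℝ => 2 * id κ)).mul (h1.pow 2)
  exact h2.aemeasurable

omit [Fintype ι] [Fintype τ] [DecidableEq τ] [DecidableEq ι] in
lemma energy_measurable (f : 𝓢(ℝ, ℂ)) :
    Measurable (fun x => ∫⁻ κ in Ioi (0:ℝ), ENNReal.ofReal (2 * κ * ‖yk f κ x‖ ^ 2)) := by
  have e : (fun x => ∫⁻ κ in Ioi (0:ℝ), ENNReal.ofReal (2 * κ * ‖yk f κ x‖ ^ 2)) =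
      fun x => ∫⁻ κ in Ioi (0:ℝ), ENNReal.ofReal (2 * κ * ‖Yk f κ x‖ ^ 2) := by
    ext x
    refine setLIntegral_congr_fun measurableSet_Ioi (fun κ hκ => ?_)
    simp only [yk_eq_Yk f hκ]
  rw [e]
  have hc := Yk_continuous f
  have hmeas : Measurable (fun q : ℝ × ℝ => ENNReal.ofReal (2 * q.2 * ‖Yk f q.2 q.1‖ ^ 2)) := by
    refine ENNReal.measurable_ofReal.comp ?_
    have hc2 : Continuous (fun q : ℝ × ℝ => Yk f q.2 q.1) :=
      hc.comp (by fun_prop : Continuous fun q : ℝ × ℝ => (q.2, q.1))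
    exact (by fun_prop : Continuous fun q : ℝ × ℝ => 2 * q.2 * ‖Yk f q.2 q.1‖ ^ 2).measurable
  exact hmeas.lintegral_prod_right'

/-- **The pointwise inequality for a vector valued orthonormal family.** -/
theorem pointwise_vector {m g : ℝ → ℝ} {A B : ℝ} (W : WeightData m g A B)
    (hsm : ∀ n, ContDiff ℝ ∞ (ψ n)) (hcs : ∀ n, HasCompactSupport (ψ n))
    (hON : ∀ j k, ∫ x, star (ψ j x) ⬝ᵥ ψ k x = if j = k then 1 else 0) (x : ℝ) :
    ENNReal.ofReal (16 / (729 * A ^ 2 * B) * ∑ a, ((rhoM_herm ψ x).eigenvalues a) ^ 3) ≤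
      ∑ n, ∑ α, ∫⁻ κ in Ioi (0:ℝ), ENNReal.ofReal (2 * κ * ‖yk (cS hsm hcs n α) κ x‖ ^ 2) := by
  have hA := W.A_pos
  have hB := W.B_pos
  have hK : 0 ≤ 16 / (729 * A ^ 2 * B) := by positivity
  set U : Matrix τ τ ℂ := ((rhoM_herm ψ x).eigenvectorUnitary : Matrix τ τ ℂ) with hU
  set e : τ → τ → ℂ := fun a β => U β a with he
  have hUS : U * star U = 1 := unitary_mul_star (rhoM_herm ψ x)
  have heunit : ∀ a, ∑ β, ‖e a β‖ ^ 2 = 1 := by
    intro a
    have h := norm_eigenbasis (rhoM_herm ψ x) (Pi.single a (1:ℂ))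
    have hcol : (U *ᵥ (Pi.single a (1:ℂ))) = fun β => U β a := by
      rw [Matrix.mulVec_single_one]
      rfl
    rw [← hU, hcol] at h
    have h' : ∑ β, ‖e a β‖ ^ 2 = ∑ k, ‖(fun β => U β a) k‖ ^ 2 := rfl
    rw [h', h, Finset.sum_eq_single a]
    · simp
    · intro j _ hj
      simp [Pi.single_eq_of_ne hj]
    · simp
  have hortho : ∀ v : τ → ℂ, ∑ a, ‖star (e a) ⬝ᵥ v‖ ^ 2 = ∑ α, ‖v α‖ ^ 2 := by
    intro v
    have h := norm_eigenbasis (rhoM_herm ψ x) (star U *ᵥ v)
    rw [← hU, Matrix.mulVec_mulVec, hUS, Matrix.one_mulVec] at h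
    rw [h]
    refine Finset.sum_congr rfl (fun a _ => ?_)
    congr 2
  have hc : ∀ n α, Continuous (fun y => ψ n y α) := fun n α => (comp_smooth hsm n α).continuous
  have hs : ∀ n α, HasCompactSupport (fun y => ψ n y α) := comp_support hcs
  -- one eigenvector
  have hone : ∀ a, ENNReal.ofReal (16 / (729 * A ^ 2 * B) * ((rhoM_herm ψ x).eigenvalues a) ^ 3) ≤
      ∑ n, ∫⁻ κ in Ioi (0:ℝ), ENNReal.ofReal (2 * κ * ‖yk (eS hsm hcs (e a) n) κ x‖ ^ 2) := by
    intro a
    have h := pointwise_enn W (fun n => eS hsm hcs (e a) n)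
      (fun G hG hG2 => bessel_vector hc hs hON (heunit a) hG hG2) x
    have h2 : (rhoM_herm ψ x).eigenvalues a = ∑ n, ‖(eS hsm hcs (e a) n) x‖ ^ 2 := rhoM_eig ψ x a
    rw [h2]
    exact h
  have hnn : ∀ a, 0 ≤ 16 / (729 * A ^ 2 * B) * ((rhoM_herm ψ x).eigenvalues a) ^ 3 := by
    intro a
    have := rhoM_eig_nonneg ψ x a
    positivity
  rw [Finset.mul_sum, ENNReal.ofReal_sum_of_nonneg (fun a _ => hnn a)]
  refine (Finset.sum_le_sum (fun a _ => hone a)).trans ?_
  rw [Finset.sum_comm]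
  refine le_of_eq (Finset.sum_congr rfl (fun n _ => ?_))
  rw [← lintegral_finsetSum' _ (fun a _ => energy_aem _ x),
    ← lintegral_finsetSum' _ (fun α _ => energy_aem _ x)]
  refine setLIntegral_congr_fun measurableSet_Ioi (fun κ hκ => ?_)
  have hκ' : (0:ℝ) < κ := hκ
  rw [← ENNReal.ofReal_sum_of_nonneg (fun a _ => by positivity),
    ← ENNReal.ofReal_sum_of_nonneg (fun a _ => by positivity)]
  congr 1
  simp only [yk_dot hsm hcs _ n hκ' x]
  rw [← Finset.mul_sum, ← Finset.mul_sum, hortho]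

/-- The cube of the density is continuous with compact support. -/
lemma trace_integrable (hsm : ∀ n, ContDiff ℝ ∞ (ψ n)) (hcs : ∀ n, HasCompactSupport (ψ n)) :
    Integrable (fun x => ((rhoM ψ x * rhoM ψ x * rhoM ψ x).trace).re) := by
  have hcE : ∀ α β, Continuous (fun x => rhoM ψ x α β) := by
    intro α β
    simp only [rhoM, Matrix.of_apply]
    exact continuous_finsetSum _ (fun n _ => (comp_smooth hsm n α).continuous.mul
      (continuous_star.comp (comp_smooth hsm n β).continuous))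
  have hcont : Continuous (fun x => ((rhoM ψ x * rhoM ψ x * rhoM ψ x).trace).re) := by
    refine Complex.continuous_re.comp ?_
    simp only [Matrix.trace, Matrix.diag, Matrix.mul_apply]
    refine continuous_finsetSum _ (fun α _ => continuous_finsetSum _ (fun β _ => ?_))
    refine Continuous.mul ?_ (hcE β α)
    exact continuous_finsetSum _ (fun γ _ => (hcE α γ).mul (hcE γ β))
  refine hcont.integrable_of_hasCompactSupport ?_
  have hK : IsCompact (⋃ n, tsupport (ψ n)) := isCompact_iUnion (fun n => hcs n)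
  refine HasCompactSupport.intro hK (fun x hx => ?_)
  have h0 : ∀ n, ψ n x = 0 := by
    intro n
    by_contra hne
    exact hx (mem_iUnion.mpr ⟨n, subset_tsupport _ hne⟩)
  have h1 : rhoM ψ x = 0 := by
    ext α β
    simp [rhoM, h0]
  rw [h1]
  simp

/-- **The kinetic energy inequality for orthonormal vector valued functions.** -/
theorem kinetic_vector {m g : ℝ → ℝ} {A B : ℝ} (W : WeightData m g A B)
    (hsm : ∀ n, ContDiff ℝ ∞ (ψ n)) (hcs : ∀ n, HasCompactSupport (ψ n))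
    (hON : ∀ j k, ∫ x, star (ψ j x) ⬝ᵥ ψ k x = if j = k then 1 else 0) :
    16 / (243 * A ^ 2 * B) * ∫ x, ((rhoM ψ x * rhoM ψ x * rhoM ψ x).trace).re ≤
      ∑ n, ∑ α, ∫ y, ‖deriv (fun y => ψ n y α) y‖ ^ 2 := by
  have hA := W.A_pos
  have hB := W.B_pos
  set K0 : ℝ := 16 / (729 * A ^ 2 * B) with hK0
  have hK0p : 0 < K0 := by positivity
  have hI := trace_integrable hsm hcs
  have hT : ∀ x, ((rhoM ψ x * rhoM ψ x * rhoM ψ x).trace).re = ∑ a, ((rhoM_herm ψ x).eigenvalues a) ^ 3 :=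
    fun x => trace_cube (rhoM_herm ψ x)
  have hTnn : ∀ x, 0 ≤ ((rhoM ψ x * rhoM ψ x * rhoM ψ x).trace).re := by
    intro x
    rw [hT]
    exact Finset.sum_nonneg (fun a _ => pow_nonneg (rhoM_eig_nonneg ψ x a) 3)
  have hstep : ENNReal.ofReal (K0 * ∫ x, ((rhoM ψ x * rhoM ψ x * rhoM ψ x).trace).re) ≤
      ENNReal.ofReal ((1 / 3) * ∑ n, ∑ α, ∫ y, ‖deriv (fun y => ψ n y α) y‖ ^ 2) := by
    rw [← integral_const_mul, ofReal_integral_eq_lintegral_ofReal (hI.const_mul _)
      (Eventually.of_forall (fun x => mul_nonneg hK0p.le (hTnn x)))]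
    calc ∫⁻ x, ENNReal.ofReal (K0 * ((rhoM ψ x * rhoM ψ x * rhoM ψ x).trace).re)
        ≤ ∫⁻ x, ∑ n, ∑ α, ∫⁻ κ in Ioi (0:ℝ), ENNReal.ofReal (2 * κ * ‖yk (cS hsm hcs n α) κ x‖ ^ 2) := by
          refine lintegral_mono (fun x => ?_)
          simp only [hT]
          exact pointwise_vector W hsm hcs hON x
      _ = ∑ n, ∑ α, ∫⁻ x, ∫⁻ κ in Ioi (0:ℝ), ENNReal.ofReal (2 * κ * ‖yk (cS hsm hcs n α) κ x‖ ^ 2) := by
          rw [lintegral_finsetSum _ (fun n _ => Finset.measurable_sum _ (fun α _ => energy_measurable _))]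
          refine Finset.sum_congr rfl (fun n _ => ?_)
          rw [lintegral_finsetSum _ (fun α _ => energy_measurable _)]
      _ ≤ ∑ n, ∑ α, ENNReal.ofReal ((1 / 3) * ∫ y, ‖deriv (cS hsm hcs n α) y‖ ^ 2) :=
          Finset.sum_le_sum (fun n _ => Finset.sum_le_sum (fun α _ => kinetic_scalar _))
      _ = _ := by
          simp only [Finset.mul_sum]
          rw [ENNReal.ofReal_sum_of_nonneg]
          · refine Finset.sum_congr rfl (fun n _ => ?_)
            rw [ENNReal.ofReal_sum_of_nonneg]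
            · rfl
            · intro α _
              exact mul_nonneg (by norm_num) (integral_nonneg (fun y => by positivity))
          · intro n _
            exact Finset.sum_nonneg (fun α _ => mul_nonneg (by norm_num) (integral_nonneg (fun y => by positivity)))
  have hR : 0 ≤ (1 / 3) * ∑ n, ∑ α, ∫ y, ‖deriv (fun y => ψ n y α) y‖ ^ 2 :=
    mul_nonneg (by norm_num) (Finset.sum_nonneg (fun n _ => Finset.sum_nonneg
      (fun α _ => integral_nonneg (fun y => by positivity))))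
  have h3 := (ENNReal.ofReal_le_ofReal_iff hR).mp hstep
  have e : 16 / (243 * A ^ 2 * B) = 3 * K0 := by
    simp only [hK0]
    field_simp
    norm_num
  rw [e]
  linarith

end vector

end Vale.Agent.P371
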