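import Vale.Agent.Lib.P371.Kin5

/-!
From the kinetic energy inequality to the eigenvalue sum.
-/

set_option linter.unusedSectionVars false
set_option linter.unusedSimpArgs false
set_option linter.unusedVariables false

open Matrix MeasureTheory Set Filter Topology
open scoped Real FourierTransform SchwartzMap ContDiff ComplexOrder

namespace Vale.Agent.P371

/-- Young's inequality with the cubic term. -/
lemma young_cubic {K c : ℝ} (hK : 0 < K) (hc : 0 < c) (h : 4 ≤ 27 * c ^ 2 * K) {l q : ℝ}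
    (hl : 0 ≤ l) (hq : 0 ≤ q) : l * q - K * l ^ 3 ≤ c * q ^ ((3:ℝ) / 2) := by
  set y := Real.sqrt q with hy
  have hy0 : 0 ≤ y := Real.sqrt_nonneg q
  have hq2 : q = y ^ 2 := (Real.sq_sqrt hq).symm
  have hq3 : q ^ ((3:ℝ) / 2) = y ^ 3 := by
    rw [hq2, ← Real.rpow_natCast y 2, ← Real.rpow_mul hy0]
    norm_num
  rw [hq3, hq2]
  set s := Real.sqrt (3 * K) with hs
  have hs0 : 0 < s := Real.sqrt_pos.mpr (by positivity)
  have hs2 : s ^ 2 = 3 * K := Real.sq_sqrt (by positivity)
  have hcs : 2 ≤ 3 * c * s := by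
    have h1 : 2 ^ 2 ≤ (3 * c * s) ^ 2 := by
      rw [mul_pow, mul_pow, hs2]
      nlinarith
    have h2 : 0 ≤ 3 * c * s := by positivity
    nlinarith
  have key : 3 * s * (K * l ^ 3 + c * y ^ 3 - l * y ^ 2) =
      (s * l - y) ^ 2 * (s * l + 2 * y) + (3 * c * s - 2) * y ^ 3 := by
    have hK' : K = s ^ 2 / 3 := by rw [hs2]; ring
    rw [hK']
    ring
  have hnn : 0 ≤ (s * l - y) ^ 2 * (s * l + 2 * y) + (3 * c * s - 2) * y ^ 3 := by
    have h1 : 0 ≤ (s * l - y) ^ 2 * (s * l + 2 * y) := by positivity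
    have h2 : 0 ≤ (3 * c * s - 2) * y ^ 3 := mul_nonneg (by linarith) (by positivity)
    linarith
  rw [← key] at hnn
  have h3 : 0 ≤ K * l ^ 3 + c * y ^ 3 - l * y ^ 2 := by
    by_contra hneg
    rw [not_le] at hneg
    have : 3 * s * (K * l ^ 3 + c * y ^ 3 - l * y ^ 2) < 0 :=
      mul_neg_of_pos_of_neg (by positivity) hneg
    linarith
  linarith

section assemble

variable {τ : Type*} [Fintype τ] [DecidableEq τ]

/-- The trace of the product of a matrix and a density matrix, computed in two ways. -/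
lemma trace_rho_quad {ι : Type*} [Fintype ι] [DecidableEq ι] (φ : ι → ℝ → τ → ℂ) (x : ℝ) (A : Matrix τ τ ℂ) :
    ∑ j, star (φ j x) ⬝ᵥ (A *ᵥ φ j x) =
      ∑ a, ((rhoM_herm φ x).eigenvalues a : ℂ) *
        (star (fun β => ((rhoM_herm φ x).eigenvectorUnitary : Matrix τ τ ℂ) β a) ⬝ᵥ
          (A *ᵥ (fun β => ((rhoM_herm φ x).eigenvectorUnitary : Matrix τ τ ℂ) β a))) := by
  set U : Matrix τ τ ℂ := ((rhoM_herm φ x).eigenvectorUnitary : Matrix τ τ ℂ) with hU
  set D : Matrix τ τ ℂ := diagonal (fun i => (((rhoM_herm φ x).eigenvalues i : ℝ) : ℂ)) with hD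
  have hQe : rhoM φ x = U * D * star U := by
    conv_lhs => rw [← fc_eigenvalues (rhoM_herm φ x)]
    rfl
  have h1 : ∑ j, star (φ j x) ⬝ᵥ (A *ᵥ φ j x) = (A * rhoM φ x).trace := by
    simp only [Matrix.trace, Matrix.diag, Matrix.mul_apply, rhoM, Matrix.of_apply, dotProduct, mulVec,
      Pi.star_apply, Finset.mul_sum]
    rw [Finset.sum_comm]
    refine Finset.sum_congr rfl (fun α _ => ?_)
    rw [Finset.sum_comm]
    refine Finset.sum_congr rfl (fun β _ => ?_)
    refine Finset.sum_congr rfl (fun j _ => ?_)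
    ring
  have h2 : (A * rhoM φ x).trace = ∑ a, (D a a) * (star U * A * U) a a := by
    have e1 : A * (U * D * star U) = (A * U * D) * star U := by
      simp only [Matrix.mul_assoc]
    have e2 : star U * (A * U * D) = (star U * A * U) * D := by
      simp only [Matrix.mul_assoc]
    rw [hQe, e1, Matrix.trace_mul_comm, e2]
    simp only [Matrix.trace, Matrix.diag, hD, Matrix.mul_diagonal]
    refine Finset.sum_congr rfl (fun a _ => ?_)
    simp only [Matrix.diagonal_apply_eq]
    ring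
  rw [h1, h2]
  refine Finset.sum_congr rfl (fun a _ => ?_)
  have h3 : D a a = (((rhoM_herm φ x).eigenvalues a : ℝ) : ℂ) := by
    simp [hD]
  rw [h3]
  congr 1
  simp only [Matrix.mul_apply, dotProduct, mulVec, Matrix.star_apply, Pi.star_apply, Finset.mul_sum, Finset.sum_mul]
  rw [Finset.sum_comm]
  refine Finset.sum_congr rfl (fun j _ => Finset.sum_congr rfl (fun i _ => ?_))
  ring

/-- The pointwise estimate of the potential energy. -/
lemma potential_pointwise {ι : Type*} [Fintype ι] [DecidableEq ι] (φ : ι → ℝ → τ → ℂ) (x : ℝ)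
    {A : Matrix τ τ ℂ} (hA : A.PosSemidef) {K c : ℝ} (hK : 0 < K) (hc : 0 < c)
    (h4 : 4 ≤ 27 * c ^ 2 * K) :
    (∑ j, star (φ j x) ⬝ᵥ (A *ᵥ φ j x)).re - K * ∑ a, ((rhoM_herm φ x).eigenvalues a) ^ 3 ≤
      c * ∑ α, (hA.1.eigenvalues α) ^ ((3:ℝ) / 2) := by
  set U : Matrix τ τ ℂ := ((rhoM_herm φ x).eigenvectorUnitary : Matrix τ τ ℂ) with hU
  have hUS : U * star U = 1 := unitary_mul_star (rhoM_herm φ x)
  have hSU : star U * U = 1 := unitary_star_mul (rhoM_herm φ x)
  set q : τ → ℝ := fun a => (star (fun β => U β a) ⬝ᵥ (A *ᵥ (fun β => U β a))).re with hq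
  have hq0 : ∀ a, 0 ≤ q a := fun a => quad_re_nonneg hA _
  have h1 : (∑ j, star (φ j x) ⬝ᵥ (A *ᵥ φ j x)).re = ∑ a, (rhoM_herm φ x).eigenvalues a * q a := by
    rw [trace_rho_quad, Complex.re_sum]
    refine Finset.sum_congr rfl (fun a _ => ?_)
    rw [Complex.re_ofReal_mul]
  have hb := (berezin hA hSU hUS (p := (3:ℝ) / 2) (by norm_num)).2
  rw [h1, Finset.mul_sum, ← Finset.sum_sub_distrib]
  calc _ ≤ ∑ a, c * q a ^ ((3:ℝ) / 2) :=
        Finset.sum_le_sum (fun a _ => young_cubic hK hc h4 (rhoM_eig_nonneg φ x a) (hq0 a))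
    _ = c * ∑ a, q a ^ ((3:ℝ) / 2) := by rw [Finset.mul_sum]
    _ ≤ _ := mul_le_mul_of_nonneg_left hb hc.le

end assemble

section final

variable {m n : ℕ} {W : ℝ → Matrix (Fin m) (Fin m) ℂ}
  (hWm : ∀ i j, Measurable fun x => W x i j) (hWpsd : ∀ x, (W x).PosSemidef)
  {p : ℝ} (hp : 1 ≤ p)
  (hint : Integrable fun x => ∑ α, ((hWpsd x).1.eigenvalues α) ^ p)
  {ψ : Fin n → ℝ → Fin m → ℂ} (hsm : ∀ j, ContDiff ℝ ∞ (ψ j))
  (hcs : ∀ j, HasCompactSupport (ψ j))
  (hON : ∀ j k, ∫ x, star (ψ j x) ⬝ᵥ ψ k x = if j = k then 1 else 0)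
  {Q : Matrix (Fin n) (Fin n) ℂ}
  (hQ : ∀ j k, Q j k = (∫ x, star (deriv (ψ j) x) ⬝ᵥ deriv (ψ k) x) -
    ∫ x, star (ψ j x) ⬝ᵥ (W x *ᵥ ψ k x))

include hWm hp hint hsm hcs hQ in
/-- The matrix `Q` is Hermitian, and its quadratic form is the difference of the energies. -/
lemma Q_facts : ∃ hQH : Q.IsHermitian, ∀ d : Fin n → ℂ, (star d ⬝ᵥ (Q *ᵥ d)).re =
      (∫ y, ∑ α, ‖∑ k, d k * deriv (ψ k) y α‖ ^ 2) -
        ∫ y, (star (fun α => ∑ k, d k * ψ k y α) ⬝ᵥ (W y *ᵥ (fun α => ∑ k, d k * ψ k y α))).re := by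
  have hcd : ∀ k, Continuous (deriv (ψ k)) := fun k =>
    (hsm k).continuous_deriv (by simp)
  have hc' : ∀ k α, Continuous (fun y => deriv (ψ k) y α) :=
    fun k α => (continuous_apply α).comp (hcd k)
  have hc0 : ∀ k α, Continuous (fun y => ψ k y α) :=
    fun k α => (continuous_apply α).comp (hsm k).continuous
  have hs0 : ∀ k α, HasCompactSupport (fun y => ψ k y α) := fun k α =>
    (hcs k).comp_left (g := fun v : Fin m → ℂ => v α) rfl
  have hs' : ∀ k α, HasCompactSupport (fun y => deriv (ψ k) y α) := fun k α =>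
    ((hcs k).deriv).comp_left (g := fun v : Fin m → ℂ => v α) rfl
  have hdotint : ∀ {ν : Fin n → ℝ → Fin m → ℂ}, (∀ k α, Continuous (fun y => ν k y α)) →
      (∀ k α, HasCompactSupport (fun y => ν k y α)) →
      ∀ j k, Integrable (fun y => star (ν j y) ⬝ᵥ ν k y) := by
    intro ν hν hν0 j k
    simp only [dotProduct, Pi.star_apply]
    refine integrable_finsetSum _ (fun α _ => ?_)
    have hcc : Continuous (fun y => star (ν j y α) * ν k y α) :=
      (continuous_star.comp (hν j α)).mul (hν k α)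
    exact hcc.integrable_of_hasCompactSupport (hν0 k α).mul_left
  have hVint : ∀ j k, Integrable (fun y => star (ψ j y) ⬝ᵥ (W y *ᵥ ψ k y)) := by
    intro j k
    exact quad_integrable hWm hWpsd hp hint (hc0 j) (hc0 k) (hs0 j)
  have hexpand : ∀ (d : Fin n → ℂ) {H : Fin n → Fin n → ℝ → ℂ},
      (∀ j k, Integrable (H j k)) →
      ∫ y, ∑ j, ∑ k, star (d j) * d k * H j k y =
        ∑ j, ∑ k, star (d j) * d k * ∫ y, H j k y := by
    intro d H hH
    rw [integral_finsetSum _ (fun j _ => integrable_finsetSum _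
      (fun k _ => (hH j k).const_mul _))]
    refine Finset.sum_congr rfl (fun j _ => ?_)
    rw [integral_finsetSum _ (fun k _ => (hH j k).const_mul _)]
    refine Finset.sum_congr rfl (fun k _ => ?_)
    rw [integral_const_mul]
  have hstar_pot : ∀ j k y, star (star (ψ j y) ⬝ᵥ (W y *ᵥ ψ k y)) =
      star (ψ k y) ⬝ᵥ (W y *ᵥ ψ j y) := by
    intro j k y
    rw [← star_dotProduct, Matrix.star_mulVec, (hWpsd y).1.eq, ← Matrix.dotProduct_mulVec]
  have hstar_kin : ∀ j k y, star (star (deriv (ψ j) y) ⬝ᵥ deriv (ψ k) y) =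
      star (deriv (ψ k) y) ⬝ᵥ deriv (ψ j) y := by
    intro j k y
    rw [← star_dotProduct]
  have hQH : Q.IsHermitian := by
    ext j k
    rw [Matrix.conjTranspose_apply, hQ k j, hQ j k, star_sub]
    congr 1
    · rw [Complex.star_def, ← integral_conj]
      refine integral_congr_ae (Eventually.of_forall (fun y => ?_))
      exact hstar_kin k j y
    · rw [Complex.star_def, ← integral_conj]
      refine integral_congr_ae (Eventually.of_forall (fun y => ?_))
      exact hstar_pot k j y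
  refine ⟨hQH, ?_⟩
  intro d
  have hkin : ((∫ y, ∑ α, ‖∑ k, d k * deriv (ψ k) y α‖ ^ 2 : ℝ) : ℂ) =
      ∑ j, ∑ k, star (d j) * d k * ∫ y, star (deriv (ψ j) y) ⬝ᵥ deriv (ψ k) y := by
    rw [← integral_complex_ofReal, ← hexpand d (hdotint hc' hs')]
    refine integral_congr_ae (Eventually.of_forall (fun y => ?_))
    have h1 := star_dot_self (fun α => ∑ k, d k * deriv (ψ k) y α)
    have h2 := form_comb d (fun k => deriv (ψ k) y) (fun k => deriv (ψ k) y) (1 : Matrix (Fin m) (Fin m) ℂ)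
    simp only [Matrix.one_mulVec] at h2
    simp only
    rw [← h1, h2]
  have hpot : ∫ y, star (fun α => ∑ k, d k * ψ k y α) ⬝ᵥ (W y *ᵥ (fun α => ∑ k, d k * ψ k y α)) =
      ∑ j, ∑ k, star (d j) * d k * ∫ y, star (ψ j y) ⬝ᵥ (W y *ᵥ ψ k y) := by
    rw [← hexpand d hVint]
    refine integral_congr_ae (Eventually.of_forall (fun y => ?_))
    exact form_comb d (fun k => ψ k y) (fun k => ψ k y) (W y)
  have hQd : star d ⬝ᵥ (Q *ᵥ d) = ((∫ y, ∑ α, ‖∑ k, d k * deriv (ψ k) y α‖ ^ 2 : ℝ) : ℂ) -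
      ∫ y, star (fun α => ∑ k, d k * ψ k y α) ⬝ᵥ (W y *ᵥ (fun α => ∑ k, d k * ψ k y α)) := by
    rw [hkin, hpot, dot_mulVec_expand, ← Finset.sum_sub_distrib]
    refine Finset.sum_congr rfl (fun j _ => ?_)
    rw [← Finset.sum_sub_distrib]
    refine Finset.sum_congr rfl (fun k _ => ?_)
    rw [hQ j k]
    ring
  rw [hQd, Complex.sub_re, Complex.ofReal_re]
  congr 1
  have hFint : Integrable (fun y => star (fun α => ∑ k, d k * ψ k y α) ⬝ᵥ
      (W y *ᵥ (fun α => ∑ k, d k * ψ k y α))) := by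
    have hcF : ∀ α, Continuous (fun y => ∑ k, d k * ψ k y α) := fun α =>
      continuous_finsetSum _ (fun k _ => continuous_const.mul (hc0 k α))
    refine quad_integrable hWm hWpsd hp hint hcF hcF (fun α => ?_)
    exact hcs_finsum _ (fun k y => d k * ψ k y α) (fun k _ => (hs0 k α).mul_left)
  exact (integral_re hFint).symm

lemma form_comb2 {τ' : Type*} [Fintype τ'] (d e : Fin n → ℂ) (u v : Fin n → τ' → ℂ) :
    star (fun α => ∑ k, d k * u k α) ⬝ᵥ (fun α => ∑ k, e k * v k α) =
      ∑ j, ∑ k, star (d j) * e k * (star (u j) ⬝ᵥ v k) := by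
  simp only [dotProduct, Pi.star_apply, star_sum, star_mul']
  have : ∀ α : τ', (∑ j, star (d j) * star (u j α)) * ∑ k, e k * v k α =
      ∑ j, ∑ k, star (d j) * e k * (star (u j α) * v k α) := by
    intro α
    rw [Finset.sum_mul_sum]
    refine Finset.sum_congr rfl (fun j _ => Finset.sum_congr rfl (fun k _ => ?_))
    ring
  simp only [this]
  rw [Finset.sum_comm]
  refine Finset.sum_congr rfl (fun j _ => ?_)
  rw [Finset.sum_comm]
  refine Finset.sum_congr rfl (fun k _ => ?_)
  rw [Finset.mul_sum]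

include hsm in
lemma deriv_comb (d : Fin n → ℂ) (α : Fin m) (y : ℝ) :
    deriv (fun y => ∑ k, d k * ψ k y α) y = ∑ k, d k * deriv (ψ k) y α := by
  have h : ∀ k, HasDerivAt (fun y => ψ k y α) (deriv (ψ k) y α) y := fun k =>
    hasDerivAt_pi.mp ((hsm k).differentiable (by simp) y).hasDerivAt α
  have h2 := HasDerivAt.fun_sum (u := Finset.univ) (fun k _ => (h k).const_mul (d k))
  exact h2.deriv

include hWm hsm hcs hON hQ in
/-- **From the kinetic inequality to the eigenvalue sum.** -/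
theorem final_bound (hint' : Integrable fun x => ∑ α, ((hWpsd x).1.eigenvalues α) ^ ((3:ℝ) / 2))
    {mm gg : ℝ → ℝ} {A B : ℝ} (WD : WeightData mm gg A B) {c : ℝ} (hc : 0 < c)
    (hcK : 4 ≤ 27 * c ^ 2 * (16 / (243 * A ^ 2 * B))) :
    ∃ hQH : Q.IsHermitian, ∑ j, max (-hQH.eigenvalues j) 0 ≤
      c * ∫ x, ∑ α, ((hWpsd x).1.eigenvalues α) ^ ((3:ℝ) / 2) := by
  classical
  obtain ⟨hQH, hform⟩ := Q_facts hWm hWpsd (p := (3:ℝ) / 2) (by norm_num) hint' hsm hcs hQ
  refine ⟨hQH, ?_⟩
  have hA := WD.A_pos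
  have hB := WD.B_pos
  set K : ℝ := 16 / (243 * A ^ 2 * B) with hK
  have hKp : 0 < K := by positivity
  set U : Matrix (Fin n) (Fin n) ℂ := (hQH.eigenvectorUnitary : Matrix (Fin n) (Fin n) ℂ) with hU
  have hSU : star U * U = 1 := unitary_star_mul hQH
  -- the negative eigenspace
  set I := {j : Fin n // hQH.eigenvalues j < 0} with hI
  set φ : I → ℝ → Fin m → ℂ := fun j y α => ∑ k, U k j.1 * ψ k y α with hφ
  have hc0 : ∀ k α, Continuous (fun y => ψ k y α) :=
    fun k α => (continuous_apply α).comp (hsm k).continuous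
  have hs0 : ∀ k α, HasCompactSupport (fun y => ψ k y α) := fun k α =>
    (hcs k).comp_left (g := fun v : Fin m → ℂ => v α) rfl
  have hφsm : ∀ j, ContDiff ℝ ∞ (φ j) := by
    intro j
    refine contDiff_pi.mpr (fun α => ?_)
    exact ContDiff.sum (fun k _ => contDiff_const.mul (contDiff_pi.mp (hsm k) α))
  have hφcs : ∀ j, HasCompactSupport (φ j) := by
    intro j
    have hK' : IsCompact (⋃ k, tsupport (ψ k)) := isCompact_iUnion (fun k => hcs k)
    refine HasCompactSupport.intro hK' (fun y hy => ?_)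
    have h0 : ∀ k, ψ k y = 0 := by
      intro k
      by_contra hne
      exact hy (mem_iUnion.mpr ⟨k, subset_tsupport _ hne⟩)
    ext α
    simp [hφ, h0]
  have hdot : ∀ j k, Integrable (fun y => star (ψ j y) ⬝ᵥ ψ k y) := by
    intro j k
    simp only [dotProduct, Pi.star_apply]
    refine integrable_finsetSum _ (fun α _ => ?_)
    have hcc : Continuous (fun y => star (ψ j y α) * ψ k y α) :=
      (continuous_star.comp (hc0 j α)).mul (hc0 k α)
    exact hcc.integrable_of_hasCompactSupport (hs0 k α).mul_left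
  have hφON : ∀ i j, ∫ x, star (φ i x) ⬝ᵥ φ j x = if i = j then 1 else 0 := by
    intro i j
    have e1 : ∀ x, star (φ i x) ⬝ᵥ φ j x =
        ∑ a, ∑ b, star (U a i.1) * U b j.1 * (star (ψ a x) ⬝ᵥ ψ b x) := fun x =>
      form_comb2 (fun k => U k i.1) (fun k => U k j.1) (fun k => ψ k x) (fun k => ψ k x)
    simp only [e1]
    rw [integral_finsetSum _ (fun a _ => integrable_finsetSum _ (fun b _ => (hdot a b).const_mul _))]
    simp only [integral_finsetSum _ (fun b _ => (hdot _ b).const_mul _), integral_const_mul, hON]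
    have e2 : ∀ a, ∑ b, star (U a i.1) * U b j.1 * (if a = b then (1:ℂ) else 0) = star (U a i.1) * U a j.1 := by
      intro a
      rw [Finset.sum_eq_single a]
      · simp
      · intro b _ hb
        have : ¬ a = b := fun h => hb h.symm
        simp [this]
      · simp
    simp only [e2]
    have e3 := congrFun (congrFun hSU i.1) j.1
    simp only [Matrix.mul_apply, Matrix.star_apply] at e3
    rw [e3]
    by_cases h : i = j
    · subst h
      simp
    · have h' : i.1 ≠ j.1 := fun h'' => h (Subtype.ext h'')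
      simp [h, h', Matrix.one_apply]
  -- kinetic energy inequality
  have hkin := kinetic_vector WD hφsm hφcs hφON
  -- the eigenvalue of a column
  have hcol : ∀ j : I, hQH.eigenvalues j.1 =
      (∑ α, ∫ y, ‖deriv (fun y => φ j y α) y‖ ^ 2) -
        ∫ y, (star (φ j y) ⬝ᵥ (W y *ᵥ φ j y)).re := by
    intro j
    have h1 := hform (fun k => U k j.1)
    have h2 := eig_quad hQH j.1
    rw [← hU] at h2
    rw [h2, Complex.ofReal_re] at h1
    rw [h1]
    congr 1
    have hderi : ∀ y α, deriv (fun y => φ j y α) y = ∑ k, U k j.1 * deriv (ψ k) y α :=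
      fun y α => deriv_comb hsm (fun k => U k j.1) α y
    simp only [hderi]
    rw [integral_finsetSum]
    intro α _
    have hcd : ∀ k, Continuous (deriv (ψ k)) := fun k => (hsm k).continuous_deriv (by simp)
    have hc' : ∀ k, Continuous (fun y => deriv (ψ k) y α) :=
      fun k => (continuous_apply α).comp (hcd k)
    have hs' : ∀ k, HasCompactSupport (fun y => deriv (ψ k) y α) := fun k =>
      ((hcs k).deriv).comp_left (g := fun v : Fin m → ℂ => v α) rfl
    have hcc : Continuous (fun y => ∑ k, U k j.1 * deriv (ψ k) y α) :=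
      continuous_finsetSum _ (fun k _ => continuous_const.mul (hc' k))
    have hss : HasCompactSupport (fun y => ∑ k, U k j.1 * deriv (ψ k) y α) :=
      hcs_finsum _ (fun k y => U k j.1 * deriv (ψ k) y α) (fun k _ => (hs' k).mul_left)
    have h3 : HasCompactSupport (fun y => ‖∑ k, U k j.1 * deriv (ψ k) y α‖ ^ 2) :=
      hss.comp_left (g := fun z : ℂ => ‖z‖ ^ 2) (by simp)
    exact (by fun_prop : Continuous (fun y => ‖∑ k, U k j.1 * deriv (ψ k) y α‖ ^ 2)).integrable_of_hasCompactSupport h3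
  -- integrability of the potential energy
  have hφc : ∀ j α, Continuous (fun y => φ j y α) := fun j α =>
    continuous_finsetSum _ (fun k _ => continuous_const.mul (hc0 k α))
  have hφs : ∀ j α, HasCompactSupport (fun y => φ j y α) := fun j α =>
    hcs_finsum _ (fun k y => U k j.1 * ψ k y α) (fun k _ => (hs0 k α).mul_left)
  have hpotI : ∀ j, Integrable (fun y => star (φ j y) ⬝ᵥ (W y *ᵥ φ j y)) := fun j =>
    quad_integrable hWm hWpsd (p := (3:ℝ) / 2) (by norm_num) hint' (hφc j) (hφc j) (hφs j)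
  have hT := trace_integrable hφsm hφcs
  -- the sum over the negative eigenvalues
  have hsum : ∑ j, max (-hQH.eigenvalues j) 0 = ∑ j : I, (-hQH.eigenvalues j.1) := by
    have h1 : ∀ j, max (-hQH.eigenvalues j) 0 = if hQH.eigenvalues j < 0 then -hQH.eigenvalues j else 0 := by
      intro j
      split_ifs with h
      · exact max_eq_left (by linarith)
      · exact max_eq_right (by linarith [not_lt.mp h])
    simp only [h1]
    rw [← Finset.sum_filter]
    exact Finset.sum_subtype _ (by simp) _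
  rw [hsum]
  -- the combination
  have hpt : ∀ x, (∑ j, star (φ j x) ⬝ᵥ (W x *ᵥ φ j x)).re -
      K * ((rhoM φ x * rhoM φ x * rhoM φ x).trace).re ≤
      c * ∑ α, ((hWpsd x).1.eigenvalues α) ^ ((3:ℝ) / 2) := by
    intro x
    rw [trace_cube (rhoM_herm φ x)]
    exact potential_pointwise φ x (hWpsd x) hKp hc hcK
  have hRe : Integrable (fun x => (∑ j, star (φ j x) ⬝ᵥ (W x *ᵥ φ j x)).re) :=
    (integrable_finsetSum _ (fun j _ => hpotI j)).re
  have hL : Integrable (fun x => (∑ j, star (φ j x) ⬝ᵥ (W x *ᵥ φ j x)).re -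
      K * ((rhoM φ x * rhoM φ x * rhoM φ x).trace).re) :=
    hRe.sub (hT.const_mul K)
  have hmono := integral_mono hL (hint'.const_mul c) hpt
  rw [integral_sub hRe (hT.const_mul K),
    integral_const_mul, integral_const_mul] at hmono
  have hre : ∫ x, (∑ j, star (φ j x) ⬝ᵥ (W x *ᵥ φ j x)).re =
      ∑ j, ∫ x, (star (φ j x) ⬝ᵥ (W x *ᵥ φ j x)).re := by
    have hRj : ∀ j ∈ (Finset.univ : Finset I), Integrable (fun x => (star (φ j x) ⬝ᵥ (W x *ᵥ φ j x)).re) :=
      fun j _ => (hpotI j).re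
    rw [← integral_finsetSum _ hRj]
    refine integral_congr_ae (Eventually.of_forall (fun x => ?_))
    simp only [Complex.re_sum]
  rw [hre] at hmono
  simp only [hcol]
  simp only [neg_sub]
  rw [Finset.sum_sub_distrib]
  linarith

end final

end Vale.Agent.P371
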