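import Vale.Agent.Lib.P371.Kin5

/-!
The explicit numerical weight.
-/

set_option linter.unusedSectionVars false
set_option linter.unusedSimpArgs false
set_option linter.unusedVariables false

open MeasureTheory Set

namespace Vale.Agent.P371

/-- The coefficients. -/
noncomputable def cF : ℕ → ℝ
  | 0 => 333379 / 50000
  | 1 => -385303 / 50000
  | 2 => 423653 / 100000
  | 3 => -136586 / 100000
  | 4 => 20225 / 100000
  | 5 => -995 / 100000
  | _ => 0

lemma cF_norm : ∑ i ∈ Finset.range 6, cF i * ((i + 1).factorial : ℝ) = 1 := by
  simp only [Finset.sum_range_succ, Finset.sum_range_zero, cF, Nat.factorial]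
  norm_num

lemma AL_val : AL cF (Finset.range 6) = 1006044624461 / 5317812500000 := by
  simp only [AL, Finset.sum_range_succ, Finset.sum_range_zero, cF, Aij, Nat.factorial]
  norm_num

lemma BL_val : BL cF (Finset.range 6) = 375684326387 / 320000000000 := by
  simp only [BL, Finset.sum_range_succ, Finset.sum_range_zero, cF, Nat.factorial]
  norm_num

/-- The explicit weight data. -/
theorem weightF : WeightData (mL cF (Finset.range 6)) (gL cF (Finset.range 6))
    (1006044624461 / 5317812500000) (375684326387 / 320000000000) := by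
  have h := weightData_L cF (Finset.range 6) cF_norm (by rw [AL_val]; norm_num) (by rw [BL_val]; norm_num)
  rwa [AL_val, BL_val] at h

/-- The numerical condition on the final constant. -/
lemma final_numeric : 4 ≤ 27 * ((1449 / 1000) * (2 / (3 * Real.pi))) ^ 2 *
    (16 / (243 * (1006044624461 / 5317812500000 : ℝ) ^ 2 * (375684326387 / 320000000000))) := by
  have hpi := Real.pi_pos
  have hpi2 : Real.pi ^ 2 ≤ 98697 / 10000 := by
    have := Real.pi_lt_d4
    nlinarith [Real.pi_pos]
  have e : 27 * ((1449 / 1000) * (2 / (3 * Real.pi))) ^ 2 *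
      (16 / (243 * (1006044624461 / 5317812500000 : ℝ) ^ 2 * (375684326387 / 320000000000))) =
      (12 * (1449 / 1000) ^ 2 * (16 / (243 * (1006044624461 / 5317812500000 : ℝ) ^ 2 * (375684326387 / 320000000000)))) / Real.pi ^ 2 := by
    field_simp
    ring
  rw [e, le_div_iff₀ (by positivity)]
  have : (4:ℝ) * (98697 / 10000) ≤ 12 * (1449 / 1000) ^ 2 * (16 / (243 * (1006044624461 / 5317812500000 : ℝ) ^ 2 * (375684326387 / 320000000000))) := by
    norm_num
  nlinarith

end Vale.Agent.P371
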