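import Vale.Agent.Lib.P371.Pot

/-!
The grid, and the comparison between the potential and its cell averages.
-/

set_option linter.unusedSectionVars false
set_option linter.unusedSimpArgs false
set_option linter.unusedVariables false

open Matrix MeasureTheory Set Filter Topology
open scoped ComplexOrder Real

namespace Vale.Agent.P371

variable {σ τ : Type*} [Fintype σ] [Fintype τ] [DecidableEq σ] [DecidableEq τ]

section grid

/-- mesh size -/
noncomputable def dlt (L : ℝ) (N : ℕ) : ℝ := 2 * L / N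

/-- cell boundaries -/
noncomputable def cc (L : ℝ) (N : ℕ) (k : ℕ) : ℝ := -L + k * dlt L N

/-- cell midpoints -/
noncomputable def xx (L : ℝ) (N : ℕ) (i : Fin N) : ℝ := -L + ((i : ℕ) + 1 / 2) * dlt L N

variable {L : ℝ} {N : ℕ}

lemma dlt_pos (hL : 0 < L) (hN : 0 < N) : 0 < dlt L N := by
  unfold dlt
  positivity

lemma cc_succ (k : ℕ) : cc L N (k + 1) = cc L N k + dlt L N := by
  unfold cc
  push_cast
  ring

lemma cc_zero : cc L N 0 = -L := by simp [cc]

lemma cc_last (hN : 0 < N) : cc L N N = L := by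
  unfold cc dlt
  have : (N : ℝ) ≠ 0 := by positivity
  field_simp
  ring

lemma xx_eq_cc (i : Fin N) : xx L N i = cc L N i + dlt L N / 2 := by
  unfold xx cc
  ring

lemma xx_abs (hL : 0 < L) (hN : 0 < N) (i : Fin N) : |xx L N i| < L := by
  have hd := dlt_pos hL hN
  rw [abs_lt]
  have hi : ((i : ℕ) : ℝ) + 1 ≤ N := by exact_mod_cast i.2
  have hNpos : (N : ℝ) ≠ 0 := by positivity
  have hNd : (N : ℝ) * dlt L N = 2 * L := by
    unfold dlt
    field_simp
  have h0 : (0 : ℝ) ≤ (i : ℕ) := by positivity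
  constructor
  · unfold xx
    nlinarith
  · unfold xx
    nlinarith

lemma xx_per (i j : Fin N) (hij : i ≠ j) :
    ∃ n : ℤ, n ≠ 0 ∧ xx L N i - xx L N j = n * dlt L N := by
  refine ⟨((i : ℕ) : ℤ) - ((j : ℕ) : ℤ), ?_, ?_⟩
  · intro h
    apply hij
    ext
    omega
  · unfold xx
    push_cast
    ring

lemma cell_dist {i : Fin N} {y : ℝ} (hd : 0 ≤ dlt L N)
    (hy : y ∈ Icc (cc L N i) (cc L N ((i : ℕ) + 1))) : |y - xx L N i| ≤ dlt L N := by
  have h2 := hy.2
  rw [cc_succ] at h2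
  rw [xx_eq_cc, abs_le]
  constructor <;> linarith [hy.1]

lemma cc_le_succ (hd : 0 ≤ dlt L N) (k : ℕ) : cc L N k ≤ cc L N (k + 1) := by
  rw [cc_succ]
  linarith

lemma sum_cells {E : Type*} [NormedAddCommGroup E] [NormedSpace ℝ E] {f : ℝ → E}
    (hf : ∀ u v, IntervalIntegrable f volume u v) (hN : 0 < N) :
    ∑ i : Fin N, ∫ y in cc L N i..cc L N ((i : ℕ) + 1), f y = ∫ y in (-L)..L, f y := by
  rw [Fin.sum_univ_eq_sum_range (fun k => ∫ y in cc L N k..cc L N (k + 1), f y) N,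
    intervalIntegral.sum_integral_adjacent_intervals (fun k _ => hf _ _), cc_zero, cc_last hN]

end grid

lemma blk_form (Q : σ → Matrix τ τ ℂ) (u v : σ × τ → ℂ) :
    star u ⬝ᵥ (blk Q *ᵥ v) =
      ∑ i, star (fun α => u (i, α)) ⬝ᵥ (Q i *ᵥ (fun α => v (i, α))) := by
  simp only [dotProduct, mulVec, Fintype.sum_prod_type, Pi.star_apply]
  refine Finset.sum_congr rfl (fun i _ => Finset.sum_congr rfl (fun α _ => ?_))
  congr 1
  rw [Finset.sum_eq_single i]
  · simp [blk]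
  · intro j _ hj
    have : ¬ i = j := fun h => hj h.symm
    simp [blk, this]
  · simp

lemma blk_norm_form {Rb : σ → Matrix τ τ ℂ} (hRb : ∀ i, (Rb i).IsHermitian) (w : σ × τ → ℂ) :
    ∑ a, ‖(blk Rb *ᵥ w) a‖ ^ 2 =
      ∑ i, (star (fun α => w (i, α)) ⬝ᵥ ((Rb i * Rb i) *ᵥ (fun α => w (i, α)))).re := by
  have h1 := star_dot_self (blk Rb *ᵥ w)
  have hR : (blk Rb : Matrix (σ × τ) (σ × τ) ℂ)ᴴ = blk Rb := (blk_herm hRb).eq
  rw [Matrix.star_mulVec, hR, ← Matrix.dotProduct_mulVec, Matrix.mulVec_mulVec, blk_mul,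
    blk_form] at h1
  have h2 := congrArg Complex.re h1
  rw [Complex.ofReal_re, Complex.re_sum] at h2
  exact h2.symm

lemma quad_bilin_bound {A : Matrix τ τ ℂ} (hA : A.PosSemidef) {u v : τ → ℂ} {U V : ℝ}
    (hu : ∀ α, ‖u α‖ ≤ U) (hv : ∀ α, ‖v α‖ ≤ V) :
    ‖star u ⬝ᵥ (A *ᵥ v)‖ ≤ (Fintype.card τ : ℝ) ^ 2 * (U * V * rtr A) := by
  rw [dot_mulVec_expand]
  by_cases hne : Nonempty τ
  · obtain ⟨α0⟩ := hne
    have hU : 0 ≤ U := (norm_nonneg _).trans (hu α0)
    have hV : 0 ≤ V := (norm_nonneg _).trans (hv α0)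
    have hr := rtr_nonneg hA
    calc ‖∑ α, ∑ β, star (u α) * (A α β * v β)‖
        ≤ ∑ α, ∑ β, ‖star (u α) * (A α β * v β)‖ := by
          refine (norm_sum_le _ _).trans (Finset.sum_le_sum (fun α _ => norm_sum_le _ _))
      _ ≤ ∑ _α : τ, ∑ _β : τ, (U * V * rtr A) := by
          refine Finset.sum_le_sum (fun α _ => Finset.sum_le_sum (fun β _ => ?_))
          rw [norm_mul, norm_mul, norm_star]
          have h3 := entry_le_rtr hA α β
          calc ‖u α‖ * (‖A α β‖ * ‖v β‖) ≤ U * (rtr A * V) := by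
                gcongr
                · exact hu α
                · exact hv β
            _ = _ := by ring
      _ = _ := by
          simp only [Finset.sum_const, Finset.card_univ, nsmul_eq_mul]
          ring
  · have : IsEmpty τ := not_nonempty_iff.mp hne
    simp

lemma quad_diff {A : Matrix τ τ ℂ} (hA : A.PosSemidef) {u v : τ → ℂ} {U δ : ℝ}
    (hu : ∀ α, ‖u α‖ ≤ U) (hv : ∀ α, ‖v α‖ ≤ U) (huv : ∀ α, ‖u α - v α‖ ≤ δ) :
    (star u ⬝ᵥ (A *ᵥ u)).re ≤ (star v ⬝ᵥ (A *ᵥ v)).re +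
      2 * (Fintype.card τ : ℝ) ^ 2 * (U * δ * rtr A) := by
  have e : star u ⬝ᵥ (A *ᵥ u) = star (u - v) ⬝ᵥ (A *ᵥ u) + star v ⬝ᵥ (A *ᵥ (u - v)) +
      star v ⬝ᵥ (A *ᵥ v) := by
    rw [star_sub, Matrix.mulVec_sub, sub_dotProduct, dotProduct_sub]
    ring
  have h1 := quad_bilin_bound hA (u := u - v) (v := u) (U := δ) (V := U) huv hu
  have h2 := quad_bilin_bound hA (u := v) (v := u - v) (U := U) (V := δ) hv huv
  have h3 := (Complex.re_le_norm (star (u - v) ⬝ᵥ (A *ᵥ u))).trans h1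
  have h4 := (Complex.re_le_norm (star v ⬝ᵥ (A *ᵥ (u - v)))).trans h2
  rw [e, Complex.add_re, Complex.add_re]
  nlinarith

section main

variable {W : ℝ → Matrix τ τ ℂ} (hWm : ∀ α β, Measurable (fun y => W y α β))
  (hWpsd : ∀ y, (W y).PosSemidef) {p : ℝ} (hp : 1 ≤ p)
  (hint : Integrable (fun y => ∑ α, ((hWpsd y).1.eigenvalues α) ^ p))

include hWm hp hint in
lemma quad_re_intervalIntegrable (a b : ℝ) (u v : τ → ℂ) :
    IntervalIntegrable (fun y => (star u ⬝ᵥ (W y *ᵥ v)).re) volume a b := by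
  have h := quad_intervalIntegrable hWm hWpsd hp hint a b u v
  exact ⟨h.1.re, h.2.re⟩

include hWm hp hint in
lemma re_quad_cell (a b : ℝ) (u v : τ → ℂ) :
    ∫ y in a..b, (star u ⬝ᵥ (W y *ᵥ v)).re = (star u ⬝ᵥ (cellM W a b *ᵥ v)).re := by
  rw [← quad_cell hWm hWpsd hp hint]
  exact Complex.reCLM.intervalIntegral_comp_comm (quad_intervalIntegrable hWm hWpsd hp hint a b u v)

include hWm hp hint in
lemma rtr_intervalIntegrable (a b : ℝ) :
    IntervalIntegrable (fun y => rtr (W y)) volume a b :=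
  ((rtr_locInt hWm hWpsd hp hint).integrableOn_isCompact isCompact_uIcc).intervalIntegrable

include hWm hWpsd hp hint in
/-- The comparison of the potential energy with its lattice version. -/
theorem lattice_H {n : ℕ} {ψ ψ' : Fin n → ℝ → τ → ℂ}
    (hd : ∀ k α y, HasDerivAt (fun y => ψ k y α) (ψ' k y α) y)
    {L : ℝ} (hL : 0 < L) (hsupp : ∀ k y α, L ≤ |y| → ψ k y α = 0)
    {M : ℝ} (hMnn : 0 ≤ M) (hM0 : ∀ k y α, ‖ψ k y α‖ ≤ M) (hM1 : ∀ k y α, ‖ψ' k y α‖ ≤ M)
    {N : ℕ} (hN : 0 < N) {Rb : Fin N → Matrix τ τ ℂ} (hRb : ∀ i, (Rb i).IsHermitian)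
    (hRR : ∀ i, Rb i * Rb i = cellM W (cc L N i) (cc L N ((i : ℕ) + 1))) (d : Fin n → ℂ) :
    ∫ y, (star (fun α => ∑ k, d k * ψ k y α) ⬝ᵥ (W y *ᵥ (fun α => ∑ k, d k * ψ k y α))).re ≤
      (∑ a, ‖(blk Rb *ᵥ (fun a : Fin N × τ => ∑ k, d k * ψ k (xx L N a.1) a.2)) a‖ ^ 2) +
        (2 * (Fintype.card τ : ℝ) ^ 2 * n * M ^ 2 * dlt L N * ∫ y in (-L)..L, rtr (W y)) *
          ∑ k, ‖d k‖ ^ 2 := by
  set F : ℝ → τ → ℂ := fun y α => ∑ k, d k * ψ k y α with hF
  set q : ℝ → ℝ := fun y => (star (F y) ⬝ᵥ (W y *ᵥ F y)).re with hq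
  have hΔ := dlt_pos hL hN
  set Δ := dlt L N with hΔdef
  have hcF : ∀ k α, Continuous (fun y => ψ k y α) := fun k α =>
    continuous_iff_continuousAt.mpr (fun y => (hd k α y).continuousAt)
  have hcFF : ∀ α, Continuous (fun y => F y α) := fun α =>
    continuous_finsetSum _ (fun k _ => continuous_const.mul (hcF k α))
  have hF0 : ∀ y α, L ≤ |y| → F y α = 0 := by
    intro y α hy
    simp only [hF]
    exact Finset.sum_eq_zero (fun k _ => by rw [hsupp k y α hy, mul_zero])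
  have hcs : ∀ α, HasCompactSupport (fun y => F y α) := by
    intro α
    apply HasCompactSupport.intro (isCompact_Icc (a := -L) (b := L))
    intro y hy
    apply hF0
    by_contra hlt
    rw [not_le, abs_lt] at hlt
    exact hy ⟨hlt.1.le, hlt.2.le⟩
  have hqint : Integrable q :=
    (quad_integrable hWm hWpsd hp hint hcFF hcFF hcs).re
  have hqi : ∀ u v, IntervalIntegrable q volume u v := fun u v => hqint.intervalIntegrable
  have hq0 : ∀ y, y ∉ Ioc (-L) L → q y = 0 := by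
    intro y hy
    have hyL : L ≤ |y| := by
      by_contra hlt
      rw [not_le, abs_lt] at hlt
      exact hy ⟨hlt.1, hlt.2.le⟩
    have : F y = 0 := by
      ext α
      exact hF0 y α hyL
    simp [hq, this]
  have hq1 : ∫ y, q y = ∑ i : Fin N, ∫ y in cc L N i..cc L N ((i : ℕ) + 1), q y := by
    rw [sum_cells hqi hN, intervalIntegral.integral_of_le (by linarith),
      setIntegral_eq_integral_of_forall_compl_eq_zero hq0]
  set D₁ : ℝ := ∑ k, ‖d k‖ with hD₁
  have hD₁nn : 0 ≤ D₁ := Finset.sum_nonneg (fun k _ => norm_nonneg _)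
  have hbd : ∀ y α, ‖F y α‖ ≤ D₁ * M := by
    intro y α
    refine (norm_sum_le _ _).trans ?_
    rw [hD₁, Finset.sum_mul]
    refine Finset.sum_le_sum (fun k _ => ?_)
    rw [norm_mul]
    exact mul_le_mul_of_nonneg_left (hM0 k y α) (norm_nonneg _)
  have hlip : ∀ k α y z, ‖ψ k y α - ψ k z α‖ ≤ M * |y - z| := by
    intro k α y z
    have := Convex.norm_image_sub_le_of_norm_hasDerivWithin_le (s := univ)
      (f := fun y => ψ k y α) (f' := fun y => ψ' k y α) (C := M)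
      (fun x _ => (hd k α x).hasDerivWithinAt) (fun x _ => hM1 k x α) convex_univ
      (mem_univ z) (mem_univ y)
    simpa [Real.norm_eq_abs] using this
  have hdiff : ∀ y z α, ‖F y α - F z α‖ ≤ D₁ * (M * |y - z|) := by
    intro y z α
    simp only [hF]
    rw [← Finset.sum_sub_distrib, hD₁, Finset.sum_mul]
    refine (norm_sum_le _ _).trans (Finset.sum_le_sum (fun k _ => ?_))
    rw [← mul_sub, norm_mul]
    exact mul_le_mul_of_nonneg_left (hlip k α y z) (norm_nonneg _)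
  set K : ℝ := 2 * (Fintype.card τ : ℝ) ^ 2 * ((D₁ * M) * (D₁ * (M * Δ))) with hK
  have hcell : ∀ i : Fin N, ∫ y in cc L N i..cc L N ((i : ℕ) + 1), q y ≤
      (star (F (xx L N i)) ⬝ᵥ ((Rb i * Rb i) *ᵥ F (xx L N i))).re +
        K * ∫ y in cc L N i..cc L N ((i : ℕ) + 1), rtr (W y) := by
    intro i
    rw [hRR i, ← re_quad_cell hWm hWpsd hp hint, ← intervalIntegral.integral_const_mul,
      ← intervalIntegral.integral_add (quad_re_intervalIntegrable hWm hWpsd hp hint _ _ _ _)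
        ((rtr_intervalIntegrable hWm hWpsd hp hint _ _).const_mul _)]
    refine intervalIntegral.integral_mono_on (cc_le_succ hΔ.le _) (hqi _ _) ?_ ?_
    · exact (quad_re_intervalIntegrable hWm hWpsd hp hint _ _ _ _).add
        ((rtr_intervalIntegrable hWm hWpsd hp hint _ _).const_mul _)
    · intro y hy
      have hdist := cell_dist (i := i) hΔ.le hy
      have h1 : ∀ α, ‖F y α - F (xx L N i) α‖ ≤ D₁ * (M * Δ) := by
        intro α
        refine (hdiff y (xx L N i) α).trans ?_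
        gcongr
      have := quad_diff (hWpsd y) (u := F y) (v := F (xx L N i)) (U := D₁ * M) (δ := D₁ * (M * Δ))
        (fun α => hbd y α) (fun α => hbd _ α) h1
      simp only [hq, hK]
      calc _ ≤ _ := this
        _ = _ := by ring
  have hsumRR : (∑ a, ‖(blk Rb *ᵥ (fun a : Fin N × τ => F (xx L N a.1) a.2)) a‖ ^ 2) =
      ∑ i, (star (F (xx L N i)) ⬝ᵥ ((Rb i * Rb i) *ᵥ F (xx L N i))).re :=
    blk_norm_form hRb _
  rw [hq1, hsumRR]
  set ML : ℝ := ∫ y in (-L)..L, rtr (W y) with hML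
  have hMLnn : 0 ≤ ML :=
    intervalIntegral.integral_nonneg (by linarith) (fun y _ => rtr_nonneg (hWpsd y))
  have hsum2 : ∑ i : Fin N, K * ∫ y in cc L N i..cc L N ((i : ℕ) + 1), rtr (W y) = K * ML := by
    rw [← Finset.mul_sum, sum_cells (rtr_intervalIntegrable hWm hWpsd hp hint) hN]
  have hD₁2 : D₁ ^ 2 ≤ n * ∑ k, ‖d k‖ ^ 2 := by
    have := sq_sum_le_card_mul_sum_sq (s := (Finset.univ : Finset (Fin n))) (f := fun k => ‖d k‖)
    simpa using this
  have hfin : K * ML ≤ (2 * (Fintype.card τ : ℝ) ^ 2 * n * M ^ 2 * Δ * ML) * ∑ k, ‖d k‖ ^ 2 := by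
    have e : K = (2 * (Fintype.card τ : ℝ) ^ 2 * M ^ 2 * Δ) * D₁ ^ 2 := by
      simp only [hK]
      ring
    rw [e]
    have hc : 0 ≤ 2 * (Fintype.card τ : ℝ) ^ 2 * M ^ 2 * Δ * ML := by positivity
    have := mul_le_mul_of_nonneg_left hD₁2 hc
    calc _ = 2 * (Fintype.card τ : ℝ) ^ 2 * M ^ 2 * Δ * ML * D₁ ^ 2 := by ring
      _ ≤ _ := this
      _ = _ := by ring
  calc _ ≤ ∑ i : Fin N, ((star (F (xx L N i)) ⬝ᵥ ((Rb i * Rb i) *ᵥ F (xx L N i))).re +
        K * ∫ y in cc L N i..cc L N ((i : ℕ) + 1), rtr (W y)) :=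
        Finset.sum_le_sum (fun i _ => hcell i)
    _ = _ := by rw [Finset.sum_add_distrib, hsum2]
    _ ≤ _ := by linarith

end main

end Vale.Agent.P371
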