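import Vale.Agent.Lib.P371.Count

/-!
Matrix potentials: local integrability, cell integrals and the trace Jensen inequality.
-/

set_option linter.unusedSectionVars false
set_option linter.unusedSimpArgs false
set_option linter.unusedVariables false

open Matrix MeasureTheory Set Filter Topology
open scoped ComplexOrder Real

namespace Vale.Agent.P371

variable {τ : Type*} [Fintype τ] [DecidableEq τ]

lemma rtr_eq_sum_eig {A : Matrix τ τ ℂ} (hA : A.IsHermitian) : rtr A = ∑ α, hA.eigenvalues α := by
  conv_lhs => rw [← fc_eigenvalues hA]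
  rw [rtr_fc]

lemma entry_le_rtr {A : Matrix τ τ ℂ} (hA : A.PosSemidef) (α β : τ) : ‖A α β‖ ≤ rtr A := by
  have h := fc_entry_bound hA.1 hA.1.eigenvalues α β
  rw [fc_eigenvalues hA.1] at h
  rw [rtr_eq_sum_eig hA.1]
  refine h.trans (le_of_eq ?_)
  exact Finset.sum_congr rfl (fun i _ => abs_of_nonneg (hA.eigenvalues_nonneg i))

lemma le_one_add_rpow {e p : ℝ} (he : 0 ≤ e) (hp : 1 ≤ p) : e ≤ 1 + e ^ p := by
  rcases le_total e 1 with h | h
  · have : 0 ≤ e ^ p := Real.rpow_nonneg he p
    linarith
  · have : e ^ (1:ℝ) ≤ e ^ p := Real.rpow_le_rpow_of_exponent_le h hp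
    rw [Real.rpow_one] at this
    linarith

/-- Quadratic forms of a positive semidefinite matrix in a vector have nonnegative real part. -/
lemma quad_re_nonneg {A : Matrix τ τ ℂ} (hA : A.PosSemidef) (v : τ → ℂ) :
    0 ≤ (star v ⬝ᵥ (A *ᵥ v)).re :=
  (Complex.le_def.mp (hA.dotProduct_mulVec_nonneg v)).1

lemma dot_mulVec_expand (u v : τ → ℂ) (A : Matrix τ τ ℂ) :
    star u ⬝ᵥ (A *ᵥ v) = ∑ α, ∑ β, star (u α) * (A α β * v β) := by
  simp only [dotProduct, mulVec, Pi.star_apply, Finset.mul_sum]

section pot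

variable {W : ℝ → Matrix τ τ ℂ} (hWm : ∀ α β, Measurable (fun y => W y α β))
  (hWpsd : ∀ y, (W y).PosSemidef) {p : ℝ} (hp : 1 ≤ p)
  (hint : Integrable (fun y => ∑ α, ((hWpsd y).1.eigenvalues α) ^ p))

include hWm in
lemma rtr_measurable : Measurable (fun y => rtr (W y)) := by
  unfold rtr Matrix.trace
  simp only [diag_apply]
  have : Measurable (fun y => ∑ α, W y α α) := Finset.measurable_fun_sum _ (fun α _ => hWm α α)
  exact Complex.measurable_re.comp this

include hWm hp hint in
lemma rtr_locInt : LocallyIntegrable (fun y => rtr (W y)) := by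
  have h1 : LocallyIntegrable (fun y => (Fintype.card τ : ℝ) +
      ∑ α, ((hWpsd y).1.eigenvalues α) ^ p) :=
    (locallyIntegrable_const _).add hint.locallyIntegrable
  refine h1.mono (rtr_measurable hWm).aestronglyMeasurable (Eventually.of_forall (fun y => ?_))
  have hnn : ∀ α, 0 ≤ (hWpsd y).1.eigenvalues α := fun α => (hWpsd y).eigenvalues_nonneg α
  have hr : rtr (W y) = ∑ α, (hWpsd y).1.eigenvalues α := rtr_eq_sum_eig _
  have hrnn : 0 ≤ rtr (W y) := rtr_nonneg (hWpsd y)
  have hsum : 0 ≤ ∑ α, ((hWpsd y).1.eigenvalues α) ^ p :=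
    Finset.sum_nonneg (fun α _ => Real.rpow_nonneg (hnn α) p)
  rw [Real.norm_eq_abs, Real.norm_eq_abs, abs_of_nonneg hrnn, abs_of_nonneg (by positivity), hr]
  calc ∑ α, (hWpsd y).1.eigenvalues α ≤ ∑ α, (1 + ((hWpsd y).1.eigenvalues α) ^ p) :=
        Finset.sum_le_sum (fun α _ => le_one_add_rpow (hnn α) hp)
    _ = _ := by simp [Finset.sum_add_distrib]

include hWm hp hint in
lemma entry_locInt (α β : τ) : LocallyIntegrable (fun y => W y α β) := by
  refine (rtr_locInt hWm hWpsd hp hint).mono (hWm α β).aestronglyMeasurable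
    (Eventually.of_forall (fun y => ?_))
  rw [Real.norm_eq_abs, abs_of_nonneg (rtr_nonneg (hWpsd y))]
  exact entry_le_rtr (hWpsd y) α β

include hWm hp hint in
/-- Integrability of quadratic forms with continuous compactly supported test functions. -/
lemma quad_integrable {u v : ℝ → τ → ℂ} (hu : ∀ α, Continuous (fun y => u y α))
    (hv : ∀ α, Continuous (fun y => v y α)) (hcs : ∀ α, HasCompactSupport (fun y => u y α)) :
    Integrable (fun y => star (u y) ⬝ᵥ (W y *ᵥ v y)) := by
  simp only [dot_mulVec_expand]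
  refine integrable_finsetSum _ (fun α _ => ?_)
  refine integrable_finsetSum _ (fun β _ => ?_)
  have hg : Continuous (fun y => star (u y α) * v y β) := (continuous_star.comp (hu α)).mul (hv β)
  have hgc : HasCompactSupport (fun y => star (u y α) * v y β) := by
    have : HasCompactSupport (fun y => star (u y α)) := (hcs α).comp_left (g := star) (by simp)
    exact this.mul_right
  have := (entry_locInt hWm hWpsd hp hint α β).integrable_smul_left_of_hasCompactSupport hg hgc
  refine this.congr (Eventually.of_forall (fun y => ?_))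
  simp only [smul_eq_mul]
  ring

/-- The integral of the potential over an interval, as a matrix. -/
noncomputable def cellM (W : ℝ → Matrix τ τ ℂ) (a b : ℝ) : Matrix τ τ ℂ :=
  fun α β => ∫ y in a..b, W y α β

include hWm hp hint in
lemma entry_intervalIntegrable (a b : ℝ) (α β : τ) :
    IntervalIntegrable (fun y => W y α β) volume a b :=
  ((entry_locInt hWm hWpsd hp hint α β).integrableOn_isCompact isCompact_uIcc).intervalIntegrable

include hWm hp hint in
lemma quad_intervalIntegrable (a b : ℝ) (u v : τ → ℂ) :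
    IntervalIntegrable (fun y => star u ⬝ᵥ (W y *ᵥ v)) volume a b := by
  apply IntegrableOn.intervalIntegrable
  simp only [dot_mulVec_expand]
  refine integrable_finsetSum _ (fun α _ => integrable_finsetSum _ (fun β _ => ?_))
  have := (entry_locInt hWm hWpsd hp hint α β).integrableOn_isCompact (k := uIcc a b) isCompact_uIcc
  exact (this.mul_const (v β)).const_mul (star (u α))

include hWm hp hint in
/-- The quadratic form of the cell matrix. -/
lemma quad_cell (a b : ℝ) (u v : τ → ℂ) :
    ∫ y in a..b, star u ⬝ᵥ (W y *ᵥ v) = star u ⬝ᵥ (cellM W a b *ᵥ v) := by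
  simp only [dot_mulVec_expand]
  have hi := fun α β => entry_intervalIntegrable hWm hWpsd hp hint a b α β
  rw [intervalIntegral.integral_finsetSum]
  · refine Finset.sum_congr rfl (fun α _ => ?_)
    rw [intervalIntegral.integral_finsetSum]
    · refine Finset.sum_congr rfl (fun β _ => ?_)
      rw [intervalIntegral.integral_const_mul, intervalIntegral.integral_mul_const]
      rfl
    · intro β _
      exact ((hi α β).mul_const (v β)).const_mul _
  · intro α _
    apply IntegrableOn.intervalIntegrable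
    refine integrable_finsetSum _ (fun β _ => ?_)
    have := (entry_locInt hWm hWpsd hp hint α β).integrableOn_isCompact (k := uIcc a b)
      isCompact_uIcc
    exact (this.mul_const (v β)).const_mul _

include hWm hWpsd in
lemma cellM_herm {a b : ℝ} (hab : a ≤ b) : (cellM W a b).IsHermitian := by
  ext α β
  simp only [conjTranspose_apply, cellM]
  rw [intervalIntegral.integral_of_le hab, intervalIntegral.integral_of_le hab, Complex.star_def,
    ← integral_conj]
  refine integral_congr_ae (Eventually.of_forall (fun y => ?_))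
  have := (hWpsd y).1.apply α β
  simp only
  rw [← Complex.star_def, this]

include hWm hp hint in
lemma cellM_psd {a b : ℝ} (hab : a ≤ b) : (cellM W a b).PosSemidef := by
  refine PosSemidef.of_dotProduct_mulVec_nonneg (cellM_herm hWm hWpsd hab) (fun v => ?_)
  rw [← quad_cell hWm hWpsd hp hint]
  have hii : ∀ y, star v ⬝ᵥ (W y *ᵥ v) = (((star v ⬝ᵥ (W y *ᵥ v)).re : ℝ) : ℂ) := by
    intro y
    have h := hWpsd y |>.dotProduct_mulVec_nonneg v
    apply Complex.ext
    · simp
    · simp only [Complex.ofReal_im]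
      exact (Complex.le_def.mp h).2.symm
  have h1 : ∫ y in a..b, star v ⬝ᵥ (W y *ᵥ v) =
      ((∫ y in a..b, (star v ⬝ᵥ (W y *ᵥ v)).re : ℝ) : ℂ) := by
    rw [intervalIntegral.integral_ofReal.symm]
    apply intervalIntegral.integral_congr
    intro y _
    exact hii y
  rw [h1]
  have h2 : 0 ≤ ∫ y in a..b, (star v ⬝ᵥ (W y *ᵥ v)).re :=
    intervalIntegral.integral_nonneg hab (fun y _ => quad_re_nonneg (hWpsd y) v)
  exact_mod_cast h2

include hWm hp hint in
/-- Trace of the cell matrix. -/
lemma rtr_cellM (a b : ℝ) : rtr (cellM W a b) = ∫ y in a..b, rtr (W y) := by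
  have hi := fun α β => entry_intervalIntegrable hWm hWpsd hp hint a b α β
  unfold rtr Matrix.trace
  simp only [diag_apply, cellM]
  rw [← intervalIntegral.integral_finsetSum (fun α _ => hi α α)]
  have : IntervalIntegrable (fun y => ∑ α, W y α α) volume a b := by
    apply IntegrableOn.intervalIntegrable
    refine integrable_finsetSum _ (fun α _ => ?_)
    exact (entry_locInt hWm hWpsd hp hint α α).integrableOn_isCompact (k := uIcc a b)
      isCompact_uIcc
  exact (Complex.reCLM.intervalIntegral_comp_comm this).symm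

end pot

/-- Norms of rows and columns of a unitary matrix. -/
lemma unitary_col_row {M : Matrix τ τ ℂ} (h1 : star M * M = 1) (h2 : M * star M = 1) :
    (∀ k, ∑ α, ‖M α k‖ ^ 2 = 1) ∧ (∀ α, ∑ k, ‖M α k‖ ^ 2 = 1) := by
  constructor
  · intro k
    have h := congrFun (congrFun h1 k) k
    rw [Matrix.mul_apply, Matrix.one_apply_eq] at h
    have h' : ∑ j, star M k j * M j k = ((∑ α, ‖M α k‖ ^ 2 : ℝ) : ℂ) := by
      push_cast
      refine Finset.sum_congr rfl (fun j _ => ?_)
      rw [Matrix.star_apply, Complex.star_def, Complex.conj_mul']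
    rw [h'] at h
    exact_mod_cast h
  · intro α
    have h := congrFun (congrFun h2 α) α
    rw [Matrix.mul_apply, Matrix.one_apply_eq] at h
    have h' : ∑ j, M α j * star M j α = ((∑ k, ‖M α k‖ ^ 2 : ℝ) : ℂ) := by
      push_cast
      refine Finset.sum_congr rfl (fun j _ => ?_)
      rw [Matrix.star_apply, Complex.star_def, Complex.mul_conj']
    rw [h'] at h
    exact_mod_cast h

/-- A quadratic form in terms of eigenvalues of `A`. -/
lemma quad_weights {A : Matrix τ τ ℂ} (hA : A.PosSemidef) {V : Matrix τ τ ℂ} (k : τ) :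
    (star (fun β => V β k) ⬝ᵥ (A *ᵥ (fun β => V β k))).re =
      ∑ α, ‖(star (hA.1.eigenvectorUnitary : Matrix τ τ ℂ) * V) α k‖ ^ 2 * hA.1.eigenvalues α := by
  set U : Matrix τ τ ℂ := (hA.1.eigenvectorUnitary : Matrix τ τ ℂ) with hU
  have hUS : U * star U = 1 := unitary_mul_star hA.1
  set c : τ → ℂ := fun α => (star U * V) α k with hc
  have hcol : U *ᵥ c = fun β => V β k := by
    have h1 : c = star U *ᵥ (fun β => V β k) := by
      ext α
      simp [hc, Matrix.mul_apply, mulVec, dotProduct]
    rw [h1, Matrix.mulVec_mulVec, hUS, Matrix.one_mulVec]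
  have h := quad_eigenbasis hA.1 c
  rw [← hU, hcol] at h
  rw [h, Complex.re_sum]
  refine Finset.sum_congr rfl (fun α _ => ?_)
  rw [← Complex.ofReal_mul, Complex.ofReal_re, mul_comm]

/-- Berezin type inequality. -/
lemma berezin {A : Matrix τ τ ℂ} (hA : A.PosSemidef) {V : Matrix τ τ ℂ} (hV1 : star V * V = 1)
    (hV2 : V * star V = 1) {p : ℝ} (hp : 1 ≤ p) :
    (∀ k, ((star (fun β => V β k) ⬝ᵥ (A *ᵥ (fun β => V β k))).re) ^ p ≤
        ∑ α, (hA.1.eigenvalues α) ^ p) ∧
    ∑ k, ((star (fun β => V β k) ⬝ᵥ (A *ᵥ (fun β => V β k))).re) ^ p ≤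
        ∑ α, (hA.1.eigenvalues α) ^ p := by
  set U : Matrix τ τ ℂ := (hA.1.eigenvectorUnitary : Matrix τ τ ℂ) with hU
  have hUS : U * star U = 1 := unitary_mul_star hA.1
  have hSU : star U * U = 1 := unitary_star_mul hA.1
  set T := star U * V with hT
  have hT1 : star T * T = 1 := by
    rw [hT, star_mul, star_star]
    calc star V * U * (star U * V) = star V * (U * star U) * V := by
          simp only [Matrix.mul_assoc]
      _ = 1 := by rw [hUS, Matrix.mul_one, hV1]
  have hT2 : T * star T = 1 := by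
    rw [hT, star_mul, star_star]
    calc star U * V * (star V * U) = star U * (V * star V) * U := by
          simp only [Matrix.mul_assoc]
      _ = 1 := by rw [hV2, Matrix.mul_one, hSU]
  obtain ⟨hcol, hrow⟩ := unitary_col_row hT1 hT2
  have hnn : ∀ α, 0 ≤ hA.1.eigenvalues α := fun α => hA.eigenvalues_nonneg α
  have hone : ∀ k, ((star (fun β => V β k) ⬝ᵥ (A *ᵥ (fun β => V β k))).re) ^ p ≤
      ∑ α, ‖T α k‖ ^ 2 * (hA.1.eigenvalues α) ^ p := by
    intro k
    rw [quad_weights hA k]
    have := (convexOn_rpow hp).map_sum_le (t := Finset.univ) (w := fun α => ‖T α k‖ ^ 2)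
      (p := fun α => hA.1.eigenvalues α) (fun α _ => by positivity) (hcol k)
      (fun α _ => hnn α)
    simpa [smul_eq_mul] using this
  constructor
  · intro k
    refine (hone k).trans (Finset.sum_le_sum (fun α _ => ?_))
    have h1 : ‖T α k‖ ^ 2 ≤ 1 := by
      rw [← hcol k]
      exact Finset.single_le_sum (f := fun α => ‖T α k‖ ^ 2) (fun i _ => by positivity)
        (Finset.mem_univ α)
    have h2 : 0 ≤ (hA.1.eigenvalues α) ^ p := Real.rpow_nonneg (hnn α) p
    nlinarith
  · calc _ ≤ ∑ k, ∑ α, ‖T α k‖ ^ 2 * (hA.1.eigenvalues α) ^ p :=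
          Finset.sum_le_sum (fun k _ => hone k)
      _ = ∑ α, ∑ k, ‖T α k‖ ^ 2 * (hA.1.eigenvalues α) ^ p := Finset.sum_comm
      _ = ∑ α, (hA.1.eigenvalues α) ^ p := by
          refine Finset.sum_congr rfl (fun α _ => ?_)
          rw [← Finset.sum_mul, hrow α, one_mul]

/-- The eigenvalue as a quadratic form in the eigenvector. -/
lemma eig_quad {B : Matrix τ τ ℂ} (hB : B.IsHermitian) (k : τ) :
    star (fun β => (hB.eigenvectorUnitary : Matrix τ τ ℂ) β k) ⬝ᵥ
      (B *ᵥ (fun β => (hB.eigenvectorUnitary : Matrix τ τ ℂ) β k)) = ((hB.eigenvalues k : ℝ) : ℂ) := by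
  set U : Matrix τ τ ℂ := (hB.eigenvectorUnitary : Matrix τ τ ℂ) with hU
  have h := quad_eigenbasis hB (Pi.single k 1)
  have hcol : U *ᵥ (Pi.single k 1) = fun β => U β k := by
    rw [Matrix.mulVec_single_one]
    rfl
  rw [← hU, hcol] at h
  rw [h, Finset.sum_eq_single k]
  · simp
  · intro j _ hj
    simp [Pi.single_eq_of_ne hj]
  · simp

section jensen

variable {W : ℝ → Matrix τ τ ℂ} (hWm : ∀ α β, Measurable (fun y => W y α β))
  (hWpsd : ∀ y, (W y).PosSemidef) {p : ℝ} (hp : 1 ≤ p)
  (hint : Integrable (fun y => ∑ α, ((hWpsd y).1.eigenvalues α) ^ p))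

include hWm hp hint in
/-- **Trace Jensen inequality** on one cell. -/
theorem trace_jensen {a b : ℝ} (hab : a < b) {B : Matrix τ τ ℂ} (hB : B.PosSemidef)
    (hBe : cellM W a b = ((b - a : ℝ) : ℂ) • B) :
    (b - a) * ∑ k, (hB.1.eigenvalues k) ^ p ≤ ∫ y in a..b, ∑ α, ((hWpsd y).1.eigenvalues α) ^ p := by
  set V : Matrix τ τ ℂ := (hB.1.eigenvectorUnitary : Matrix τ τ ℂ) with hV
  have hV1 : star V * V = 1 := unitary_star_mul hB.1
  have hV2 : V * star V = 1 := unitary_mul_star hB.1
  have hΔ : 0 < b - a := by linarith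
  set f : τ → ℝ → ℝ := fun k y => (star (fun β => V β k) ⬝ᵥ (W y *ᵥ (fun β => V β k))).re with hf
  set μ := volume.restrict (Ioc a b) with hμ
  have hμuniv : μ.real univ = b - a := by
    simp only [hμ, measureReal_restrict_apply_univ]
    exact Real.volume_real_Ioc_of_le hab.le
  have : IsFiniteMeasure μ := by
    rw [hμ]
    infer_instance
  have : NeZero μ := by
    constructor
    intro h0
    have := hμuniv
    rw [h0] at this
    simp at this
    linarith
  have hfint : ∀ k, Integrable (f k) μ := by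
    intro k
    have h := quad_intervalIntegrable hWm hWpsd hp hint a b (fun β => V β k) (fun β => V β k)
    rw [intervalIntegrable_iff_integrableOn_Ioc_of_le hab.le] at h
    exact h.re
  have hval : ∀ k, ∫ y, f k y ∂μ = (b - a) * hB.1.eigenvalues k := by
    intro k
    have h := quad_cell hWm hWpsd hp hint a b (fun β => V β k) (fun β => V β k)
    rw [hBe, Matrix.smul_mulVec, dotProduct_smul, smul_eq_mul, eig_quad hB.1 k,
      ← Complex.ofReal_mul] at h
    have hi := quad_intervalIntegrable hWm hWpsd hp hint a b (fun β => V β k) (fun β => V β k)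
    have h2 := Complex.reCLM.intervalIntegral_comp_comm hi
    simp only [Complex.reCLM_apply] at h2
    rw [h, Complex.ofReal_re, intervalIntegral.integral_of_le hab.le] at h2
    exact h2
  have hbound : ∀ k y, (f k y) ^ p ≤ ∑ α, ((hWpsd y).1.eigenvalues α) ^ p :=
    fun k y => (berezin (hWpsd y) hV1 hV2 hp).1 k
  have hsumbound : ∀ y, ∑ k, (f k y) ^ p ≤ ∑ α, ((hWpsd y).1.eigenvalues α) ^ p :=
    fun y => (berezin (hWpsd y) hV1 hV2 hp).2
  have hfnn : ∀ k y, 0 ≤ f k y := fun k y => quad_re_nonneg (hWpsd y) _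
  have hgint : ∀ k, Integrable (fun y => (f k y) ^ p) μ := by
    intro k
    refine (hint.restrict (s := Ioc a b)).mono' ?_ (Eventually.of_forall (fun y => ?_))
    · exact ((hfint k).aemeasurable.pow_const p).aestronglyMeasurable
    · rw [Real.norm_eq_abs, abs_of_nonneg (Real.rpow_nonneg (hfnn k y) p)]
      exact hbound k y
  have hj : ∀ k, (b - a) * (hB.1.eigenvalues k) ^ p ≤ ∫ y, (f k y) ^ p ∂μ := by
    intro k
    have h := (convexOn_rpow hp).map_average_le (μ := μ) (f := f k)
      (Real.continuous_rpow_const (by linarith)).continuousOn isClosed_Ici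
      (Eventually.of_forall (fun y => hfnn k y)) (hfint k) (hgint k)
    rw [average_eq, average_eq, hμuniv, hval k, smul_eq_mul, smul_eq_mul, inv_mul_cancel_left₀ hΔ.ne'] at h
    rw [le_inv_mul_iff₀ hΔ] at h
    exact h
  have hmono : ∑ k, ∫ y, (f k y) ^ p ∂μ ≤ ∫ y, ∑ α, ((hWpsd y).1.eigenvalues α) ^ p ∂μ := by
    rw [← integral_finsetSum _ (fun k _ => hgint k)]
    exact integral_mono (integrable_finsetSum _ (fun k _ => hgint k)) hint.restrict hsumbound
  rw [intervalIntegral.integral_of_le hab.le, Finset.mul_sum]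
  exact (Finset.sum_le_sum (fun k _ => hj k)).trans hmono

end jensen

end Vale.Agent.P371
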