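import Vale.Agent.Lib.P371.Bound
import Mathlib

/-!
Comparison of the constant with the semiclassical and one bound state constants.
-/

set_option linter.unusedSectionVars false
set_option linter.unusedSimpArgs false
set_option linter.unusedVariables false

open MeasureTheory Set Filter Topology
open scoped Real

namespace Vale.Agent.P371

/-- The integral defining the semiclassical constant. -/
noncomputable def fInt (γ : ℝ) : ℝ := ∫ ξ : ℝ, (max (1 - ξ ^ 2) 0) ^ γ

lemma fInt_eq_set {γ : ℝ} (hγ : 0 < γ) :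
    fInt γ = ∫ ξ in Ioc (-1 : ℝ) 1, (max (1 - ξ ^ 2) 0) ^ γ := by
  unfold fInt
  symm
  apply setIntegral_eq_integral_of_forall_compl_eq_zero
  intro ξ hξ
  have h1 : 1 ≤ ξ ^ 2 := by
    by_contra hlt
    rw [not_le] at hlt
    apply hξ
    have := abs_lt_of_sq_lt_sq' (a := ξ) (b := 1) (by simpa using hlt) (by norm_num)
    exact ⟨this.1, this.2.le⟩
  rw [max_eq_right (by linarith), Real.zero_rpow hγ.ne']

/-- Lower bound by Jensen's inequality. -/
theorem fInt_lower {γ : ℝ} (hγ : 1 / 2 ≤ γ) : (π / 2) * (π / 4) ^ (2 * γ - 1) ≤ fInt γ := by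
  have h0γ : 0 < γ := by linarith
  have ha : (1:ℝ) ≤ 2 * γ := by linarith
  set h : ℝ → ℝ := fun ξ => Real.sqrt (1 - ξ ^ 2) with hh
  have hc : Continuous h := by
    simp only [hh]
    fun_prop
  set μ := volume.restrict (Ioc (-1 : ℝ) 1) with hμ
  have hμuniv : μ.real univ = 2 := by
    simp only [hμ, measureReal_restrict_apply_univ]
    rw [Real.volume_real_Ioc_of_le (by norm_num)]
    norm_num
  have : IsFiniteMeasure μ := by
    rw [hμ]
    infer_instance
  have : NeZero μ := by
    constructor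
    intro h0
    have := hμuniv
    rw [h0] at this
    simp at this
  have hi : Integrable h μ := (hc.integrableOn_Icc (a := -1) (b := 1)).mono_set Ioc_subset_Icc_self
  have hpow : ∀ ξ, (h ξ) ^ (2 * γ) = (max (1 - ξ ^ 2) 0) ^ γ := by
    intro ξ
    simp only [hh]
    have e : Real.sqrt (1 - ξ ^ 2) = Real.sqrt (max (1 - ξ ^ 2) 0) := by
      rcases le_total (1 - ξ ^ 2) 0 with h1 | h1
      · rw [max_eq_right h1, Real.sqrt_eq_zero_of_nonpos h1, Real.sqrt_zero]
      · rw [max_eq_left h1]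
    rw [e, Real.sqrt_eq_rpow, ← Real.rpow_mul (le_max_right _ _)]
    congr 1
    ring
  have hci : Continuous (fun ξ => (h ξ) ^ (2 * γ)) :=
    (Real.continuous_rpow_const (by linarith)).comp hc
  have hgi : Integrable (fun ξ => (h ξ) ^ (2 * γ)) μ :=
    (hci.integrableOn_Icc (a := -1) (b := 1)).mono_set Ioc_subset_Icc_self
  have hj := (convexOn_rpow ha).map_average_le (μ := μ) (f := h)
    (Real.continuous_rpow_const (by linarith)).continuousOn isClosed_Ici
    (Eventually.of_forall (fun ξ => Real.sqrt_nonneg _)) hi hgi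
  have hval : ∫ ξ, h ξ ∂μ = π / 2 := by
    rw [hμ, ← intervalIntegral.integral_of_le (by norm_num)]
    exact integral_sqrt_one_sub_sq
  rw [average_eq, average_eq, hμuniv, hval, smul_eq_mul, smul_eq_mul] at hj
  simp only [hpow] at hj
  rw [hμ, ← fInt_eq_set h0γ] at hj
  have e1 : (2:ℝ)⁻¹ * (π / 2) = π / 4 := by ring
  rw [e1] at hj
  have hπ : 0 < π / 4 := by positivity
  have e2 : (π / 4) ^ (2 * γ) = (π / 4) * (π / 4) ^ (2 * γ - 1) := by
    rw [← Real.rpow_one_add' hπ.le (by linarith)]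
    congr 1
    ring
  rw [e2] at hj
  linarith

/-- Numerical value at `γ = 1`. -/
lemma fInt_one : fInt 1 = 4 / 3 := by
  rw [fInt_eq_set (by norm_num), ← intervalIntegral.integral_of_le (by norm_num)]
  have : ∫ ξ in (-1 : ℝ)..1, (max (1 - ξ ^ 2) 0) ^ (1:ℝ) = ∫ ξ in (-1 : ℝ)..1, (1 - ξ ^ 2) := by
    apply intervalIntegral.integral_congr
    intro ξ hξ
    rw [uIcc_of_le (by norm_num)] at hξ
    have h1 : ξ ^ 2 ≤ 1 := by
      have := abs_le.mpr ⟨hξ.1, hξ.2⟩
      have h2 := sq_abs ξ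
      nlinarith [abs_nonneg ξ]
    simp only
    rw [max_eq_left (by linarith), Real.rpow_one]
  rw [this]
  simp
  norm_num


/-- Estimate of the logarithm of the cosine. -/
lemma log_cos_bound {r : ℝ} (h0 : 0 ≤ r) (h1 : r ≤ 1 / 3) :
    -Real.log (Real.cos ((π / 2) * r)) ≤ (143 / 100) * r ^ 2 := by
  set u := (π / 2) * r with hu
  set t := u ^ 2 / 2 with ht
  have hπ1 := Real.pi_gt_d4
  have hπ2 := Real.pi_lt_d4
  have hπ2' : π ^ 2 ≤ 9.8697 := by nlinarith
  have ht_eq : t = (π ^ 2 / 8) * r ^ 2 := by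
    simp only [ht, hu]
    ring
  have ht_nn : 0 ≤ t := by positivity
  have hr2 : r ^ 2 ≤ 1 / 9 := by nlinarith
  have ht_le : t ≤ 0.1371 := by
    rw [ht_eq]
    have : π ^ 2 / 8 * r ^ 2 ≤ (9.8697 / 8) * (1 / 9) := by
      apply mul_le_mul
      · linarith
      · exact hr2
      · positivity
      · positivity
    norm_num at this ⊢
    linarith
  have hcos : 1 - t ≤ Real.cos u := Real.one_sub_sq_div_two_le_cos
  have h1t : 0 < 1 - t := by linarith
  have hlog : Real.log (1 - t) ≤ Real.log (Real.cos u) := Real.log_le_log h1t hcos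
  have hlog2 : 1 - (1 - t)⁻¹ ≤ Real.log (1 - t) := Real.one_sub_inv_le_log_of_pos h1t
  have hinv : (1 - t)⁻¹ ≤ 1 + 1.159 * t := by
    rw [inv_le_iff_one_le_mul₀ h1t]
    have h5 : 0 ≤ t * (0.159 - 1.159 * t) := mul_nonneg ht_nn (by linarith)
    nlinarith
  have hfin : 1.159 * t ≤ (143 / 100) * r ^ 2 := by
    rw [ht_eq]
    have hr0 : 0 ≤ r ^ 2 := by positivity
    nlinarith
  linarith

/-- A crude numerical bound. -/
lemma log_eight_div_pi : Real.log (8 / π) ≤ 0.94 := by
  have hπ1 := Real.pi_gt_d4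
  have hexp : (8 / π : ℝ) ≤ Real.exp 0.94 := by
    have h5 := Real.sum_le_exp_of_nonneg (x := 0.94) (by norm_num) 5
    have hs : ∑ i ∈ Finset.range 5, (0.94 : ℝ) ^ i / (i.factorial : ℝ) ≥ 2.55 := by
      simp only [Finset.sum_range_succ, Finset.sum_range_zero, Nat.factorial]
      norm_num
    have h8 : (8 / π : ℝ) ≤ 2.55 := by
      rw [div_le_iff₀ (by positivity)]
      nlinarith
    linarith
  have hpos : (0:ℝ) < 8 / π := by positivity
  calc Real.log (8 / π) ≤ Real.log (Real.exp 0.94) := Real.log_le_log hpos hexp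
    _ = 0.94 := Real.log_exp _

section compare

variable {γ : ℝ} (h1 : 1 / 2 < γ) (h2 : γ ≤ 1)
include h1 h2

/-- The logarithm of the main factor of the constant. -/
lemma Cst_factor :
    ∃ ℓ : ℝ, 0 ≤ ℓ + 143 / 100 * ((γ - 1 / 2) / (γ + 1 / 2)) ^ 2 ∧
      0 < Cst γ ∧
      Real.log (π * Cst γ) = (1 - 2 * γ) * Real.log γ +
        (γ - 1 / 2) * (Real.log (γ + 1 / 2) + Real.log (γ - 1 / 2)) +
        (γ + 1 / 2) * (Real.log (π / 2) - Real.log (γ + 1 / 2) - ℓ) := by
  set ε := γ - 1 / 2 with hε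
  set p := γ + 1 / 2 with hp
  have hε0 : 0 < ε := by simp only [hε]; linarith
  have hp0 : 0 < p := by simp only [hp]; linarith
  have h0γ : 0 < γ := by linarith
  have hπ := Real.pi_pos
  set r := ε / p with hr
  have hr0 : 0 ≤ r := by positivity
  have hr1 : r ≤ 1 / 3 := by
    simp only [hr]
    rw [div_le_iff₀ hp0]
    simp only [hε, hp]
    linarith
  set u := (π / 2) * r with hu
  have hsin : Real.sin (π / (2 * p)) = Real.cos u := by
    have e : u = π / 2 - π / (2 * p) := by
      simp only [hu, hr, hε, hp]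
      field_simp
      ring
    rw [e, Real.cos_pi_div_two_sub]
  have hcos_pos : 0 < Real.cos u := by
    apply Real.cos_pos_of_mem_Ioo
    constructor
    · have : 0 ≤ u := by positivity
      linarith [Real.pi_pos]
    · simp only [hu]
      nlinarith [Real.pi_pos]
  refine ⟨Real.log (Real.cos u), ?_, ?_, ?_⟩
  · have : -Real.log (Real.cos u) ≤ 143 / 100 * r ^ 2 := log_cos_bound hr0 hr1
    linarith
  · unfold Cst
    rw [← hε, ← hp, hsin]
    have h3 : 0 < γ ^ (1 - 2 * γ) := Real.rpow_pos_of_pos h0γ _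
    have h4 : 0 < (p * ε) ^ ε := Real.rpow_pos_of_pos (by positivity) _
    have h5 : 0 < (π / (2 * p * Real.cos u)) ^ p := Real.rpow_pos_of_pos (by positivity) _
    positivity
  · unfold Cst
    rw [← hε, ← hp, hsin]
    have h3 : 0 < γ ^ (1 - 2 * γ) := Real.rpow_pos_of_pos h0γ _
    have h4 : 0 < (p * ε) ^ ε := Real.rpow_pos_of_pos (by positivity) _
    have h5 : 0 < (π / (2 * p * Real.cos u)) ^ p := Real.rpow_pos_of_pos (by positivity) _
    have e : π * (1 / π * γ ^ (1 - 2 * γ) * (p * ε) ^ ε * (π / (2 * p * Real.cos u)) ^ p) =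
        γ ^ (1 - 2 * γ) * (p * ε) ^ ε * (π / (2 * p * Real.cos u)) ^ p := by
      field_simp
    rw [e, Real.log_mul (by positivity) (by positivity), Real.log_mul (by positivity) (by positivity),
      Real.log_rpow h0γ, Real.log_rpow (by positivity), Real.log_rpow (by positivity),
      Real.log_mul hp0.ne' hε0.ne']
    have e2 : π / (2 * p * Real.cos u) = (π / 2) / (p * Real.cos u) := by
      field_simp
    rw [e2, Real.log_div (by positivity) (by positivity), Real.log_mul hp0.ne' hcos_pos.ne']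
    ring

/-- **Comparison with twice the semiclassical constant.** -/
theorem Cst_lt_two_Lcl : Cst γ < 2 * ((1 / (2 * π)) * fInt γ) := by
  obtain ⟨ℓ, hℓ, hC, hlog⟩ := Cst_factor h1 h2
  set ε := γ - 1 / 2 with hε
  set p := γ + 1 / 2 with hp
  have hε0 : 0 < ε := by simp only [hε]; linarith
  have hε1 : ε ≤ 1 / 2 := by simp only [hε]; linarith
  have hp0 : 0 < p := by simp only [hp]; linarith
  have h0γ : 0 < γ := by linarith
  have hγe : γ = 1 / 2 + ε := by simp only [hε]; ring
  have hpe : p = 1 + ε := by simp only [hε, hp]; ring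
  have hπ := Real.pi_pos
  have hf := fInt_lower (γ := γ) h1.le
  have e2γ : 2 * γ - 1 = 2 * ε := by simp only [hε]; ring
  rw [e2γ] at hf
  have hB : 0 < (π / 2) * (π / 4) ^ (2 * ε) := by
    have : 0 < (π / 4) ^ (2 * ε) := Real.rpow_pos_of_pos (by positivity) _
    positivity
  -- the main inequality
  have hmain : π * Cst γ < (π / 2) * (π / 4) ^ (2 * ε) := by
    rw [← Real.log_lt_log_iff (by positivity) hB, hlog,
      Real.log_mul (by positivity) (by positivity),
      Real.log_rpow (by positivity)]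
    have hl1 : Real.log p + Real.log ε - 2 * Real.log γ ≤ p * ε / γ ^ 2 - 1 := by
      have hpos : 0 < p * ε / γ ^ 2 := by positivity
      have := Real.log_le_sub_one_of_pos hpos
      rw [Real.log_div (by positivity) (by positivity), Real.log_mul hp0.ne' hε0.ne',
        Real.log_pow] at this
      push_cast at this
      linarith
    have hl2 : 2 * ε / (ε + 2) ≤ Real.log p := by
      rw [hpe]
      exact Real.le_log_one_add_of_nonneg hε0.le
    have hl3 : Real.log (π / 2) - 2 * Real.log (π / 4) ≤ 0.94 := by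
      have e : Real.log (π / 2) - 2 * Real.log (π / 4) = Real.log (8 / π) := by
        rw [Real.log_div hπ.ne' (by norm_num), Real.log_div hπ.ne' (by norm_num),
          Real.log_div (by norm_num) hπ.ne']
        have : Real.log 4 = 2 * Real.log 2 := by
          rw [show (4:ℝ) = 2 ^ 2 by norm_num, Real.log_pow]
          norm_num
        have h8 : Real.log 8 = 3 * Real.log 2 := by
          rw [show (8:ℝ) = 2 ^ 3 by norm_num, Real.log_pow]
          norm_num
        rw [this, h8]
        ring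
      rw [e]
      exact log_eight_div_pi
    -- assemble
    have hb1 : ε * (Real.log p + Real.log ε - 2 * Real.log γ) ≤ ε * (p * ε / γ ^ 2 - 1) :=
      mul_le_mul_of_nonneg_left hl1 hε0.le
    have hb2 : ε * (Real.log (π / 2) - 2 * Real.log (π / 4)) ≤ ε * 0.94 :=
      mul_le_mul_of_nonneg_left hl3 hε0.le
    have hb3 : p * (2 * ε / (ε + 2)) ≤ p * Real.log p :=
      mul_le_mul_of_nonneg_left hl2 hp0.le
    have hb4 : p * (-ℓ) ≤ p * (143 / 100 * (ε / p) ^ 2) := by
      apply mul_le_mul_of_nonneg_left _ hp0.le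
      linarith
    have hkey : ε * (p * ε / γ ^ 2 - 1) + ε * 0.94 - p * (2 * ε / (ε + 2)) +
        p * (143 / 100 * (ε / p) ^ 2) < 0 := by
      have e3 : ε * (p * ε / γ ^ 2 - 1) + ε * 0.94 - p * (2 * ε / (ε + 2)) +
          p * (143 / 100 * (ε / p) ^ 2) =
          ε * (((1 + ε) * ε / (1 / 2 + ε) ^ 2) - 6 / 100 - 2 * (1 + ε) / (2 + ε) +
            143 / 100 * ε / (1 + ε)) := by
        rw [hpe, ← hγe]
        rw [hγe] 
        field_simp
        ring
      rw [e3]
      apply mul_neg_of_pos_of_neg hε0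
      have hd1 : 0 < (1 / 2 + ε) ^ 2 := by positivity
      have hd2 : 0 < 2 + ε := by positivity
      have hd3 : 0 < 1 + ε := by positivity
      have e4 : ((1 + ε) * ε / (1 / 2 + ε) ^ 2) - 6 / 100 - 2 * (1 + ε) / (2 + ε) +
            143 / 100 * ε / (1 + ε) =
          (-(53 / 100) - 9 / 20 * ε + 561 / 400 * ε ^ 2 + 41 / 20 * ε ^ 3 + 37 / 100 * ε ^ 4) /
            ((1 / 2 + ε) ^ 2 * (2 + ε) * (1 + ε)) := by
        field_simp
        ring
      rw [e4]
      apply div_neg_of_neg_of_pos _ (by positivity)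
      have h12 : 0 ≤ 1 / 2 - ε := by linarith
      have t1 : 0 ≤ ε ^ 2 * (1 / 2 - ε) := by positivity
      have t2 : 0 ≤ ε ^ 3 * (1 / 2 - ε) := by positivity
      nlinarith [pow_pos hε0 2, pow_pos hε0 3, pow_pos hε0 4, mul_nonneg hε0.le h12,
        mul_nonneg (pow_pos hε0 2).le h12, mul_nonneg (pow_pos hε0 3).le h12]
    have e1 : (1 - 2 * γ) = -(2 * ε) := by simp only [hε]; ring
    rw [e1]
    have e5 : -(2 * ε) * Real.log γ + ε * (Real.log p + Real.log ε) +
        p * (Real.log (π / 2) - Real.log p - ℓ) - (Real.log (π / 2) + 2 * ε * Real.log (π / 4)) =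
        ε * (Real.log p + Real.log ε - 2 * Real.log γ) +
          ε * (Real.log (π / 2) - 2 * Real.log (π / 4)) - p * Real.log p + p * (-ℓ) := by
      have : p * Real.log (π / 2) = Real.log (π / 2) + ε * Real.log (π / 2) := by
        rw [hpe]
        ring
      linear_combination this
    linarith
  -- conclusion
  have hf2 : (1 / (2 * π)) * fInt γ * (2 * π) = fInt γ := by
    field_simp
  have : π * Cst γ < fInt γ := lt_of_lt_of_le hmain hf
  have e6 : 2 * ((1 / (2 * π)) * fInt γ) = (1 / π) * fInt γ := by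
    field_simp
  rw [e6]
  have e7 := mul_lt_mul_of_pos_left this (by positivity : 0 < 1 / π)
  have e8 : (1 / π) * (π * Cst γ) = Cst γ := by
    field_simp
  rwa [e8] at e7

/-- **Comparison with the one bound state constant**: `C(γ) ≤ (1 + (3/2)(γ - 1/2)) L^{(1)}_γ`. -/
theorem Cst_le_L1 : Cst γ ≤ (1 + (3 / 2) * (γ - 1 / 2)) *
    (2 * ((γ - 1 / 2) / (γ + 1 / 2)) ^ (γ - 1 / 2) * ((1 / (2 * π)) * fInt γ)) := by
  obtain ⟨ℓ, hℓ, hC, hlog⟩ := Cst_factor h1 h2
  set ε := γ - 1 / 2 with hε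
  set p := γ + 1 / 2 with hp
  have hε0 : 0 < ε := by simp only [hε]; linarith
  have hε1 : ε ≤ 1 / 2 := by simp only [hε]; linarith
  have hp0 : 0 < p := by simp only [hp]; linarith
  have h0γ : 0 < γ := by linarith
  have hγe : γ = (1 + 2 * ε) / 2 := by simp only [hε]; ring
  have hpe : p = 1 + ε := by simp only [hε, hp]; ring
  have hπ := Real.pi_pos
  have hf := fInt_lower (γ := γ) h1.le
  have e2γ : 2 * γ - 1 = 2 * ε := by simp only [hε]; ring
  rw [e2γ] at hf
  have hB0 : 0 < (π / 4) ^ (2 * ε) := Real.rpow_pos_of_pos (by positivity) _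
  have hR0 : 0 < (ε / p) ^ ε := Real.rpow_pos_of_pos (by positivity) _
  have hk0 : 0 < 1 + (3 / 2) * ε := by positivity
  have hmain : π * Cst γ ≤ ((1 + (3 / 2) * ε) * (ε / p) ^ ε) * ((π / 2) * (π / 4) ^ (2 * ε)) := by
    rw [← Real.log_le_log_iff (by positivity) (by positivity), hlog,
      Real.log_mul (by positivity) (by positivity), Real.log_mul (by positivity) (by positivity),
      Real.log_mul (by positivity) (by positivity), Real.log_rpow (by positivity),
      Real.log_rpow (by positivity), Real.log_div hε0.ne' hp0.ne']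
    have hlγ : Real.log γ = Real.log (1 + 2 * ε) - Real.log 2 := by
      rw [hγe, Real.log_div (by positivity) (by norm_num)]
    have hl2 : Real.log 2 ≤ 0.6932 := by
      have := Real.log_two_lt_d9
      norm_num at this ⊢
      linarith
    have hl3 : Real.log (π / 2) - 2 * Real.log (π / 4) ≤ 0.94 := by
      have e : Real.log (π / 2) - 2 * Real.log (π / 4) = Real.log (8 / π) := by
        rw [Real.log_div hπ.ne' (by norm_num), Real.log_div hπ.ne' (by norm_num),
          Real.log_div (by norm_num) hπ.ne']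
        have : Real.log 4 = 2 * Real.log 2 := by
          rw [show (4:ℝ) = 2 ^ 2 by norm_num, Real.log_pow]
          norm_num
        have h8 : Real.log 8 = 3 * Real.log 2 := by
          rw [show (8:ℝ) = 2 ^ 3 by norm_num, Real.log_pow]
          norm_num
        rw [this, h8]
        ring
      rw [e]
      exact log_eight_div_pi
    have hp1 : 2 * ε / (ε + 2) ≤ Real.log p := by
      rw [hpe]
      exact Real.le_log_one_add_of_nonneg hε0.le
    have hp2 : 2 * (2 * ε) / (2 * ε + 2) ≤ Real.log (1 + 2 * ε) :=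
      Real.le_log_one_add_of_nonneg (by positivity)
    have hp3 : 2 * (3 / 2 * ε) / (3 / 2 * ε + 2) ≤ Real.log (1 + 3 / 2 * ε) :=
      Real.le_log_one_add_of_nonneg (by positivity)
    have hb1 : 2 * ε * Real.log 2 ≤ 2 * ε * 0.6932 :=
      mul_le_mul_of_nonneg_left hl2 (by positivity)
    have hb2 : ε * (Real.log (π / 2) - 2 * Real.log (π / 4)) ≤ ε * 0.94 :=
      mul_le_mul_of_nonneg_left hl3 hε0.le
    have hb3 : 2 * ε * (2 * (2 * ε) / (2 * ε + 2)) ≤ 2 * ε * Real.log (1 + 2 * ε) :=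
      mul_le_mul_of_nonneg_left hp2 (by positivity)
    have hb4 : (1 - ε) * (2 * ε / (ε + 2)) ≤ (1 - ε) * Real.log p :=
      mul_le_mul_of_nonneg_left hp1 (by linarith)
    have hb5 : p * (-ℓ) ≤ p * (143 / 100 * (ε / p) ^ 2) := by
      apply mul_le_mul_of_nonneg_left _ hp0.le
      linarith
    have hkey : 2 * ε * 0.6932 + ε * 0.94 - 2 * ε * (2 * (2 * ε) / (2 * ε + 2)) -
        (1 - ε) * (2 * ε / (ε + 2)) + p * (143 / 100 * (ε / p) ^ 2) -
          2 * (3 / 2 * ε) / (3 / 2 * ε + 2) ≤ 0 := by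
      have e3 : 2 * ε * 0.6932 + ε * 0.94 - 2 * ε * (2 * (2 * ε) / (2 * ε + 2)) -
          (1 - ε) * (2 * ε / (ε + 2)) + p * (143 / 100 * (ε / p) ^ 2) -
            2 * (3 / 2 * ε) / (3 / 2 * ε + 2) =
          ε * ((-(868 / 625) - 1678 / 625 * ε + 8179 / 1250 * ε ^ 2 + 13173 / 2500 * ε ^ 3) /
            ((1 + ε) * (2 + ε) * (3 * ε + 4))) := by
        rw [hpe]
        field_simp
        ring
      rw [e3]
      apply mul_nonpos_of_nonneg_of_nonpos hε0.le
      apply div_nonpos_of_nonpos_of_nonneg _ (by positivity)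
      have h12 : 0 ≤ 1 / 2 - ε := by linarith
      nlinarith [pow_pos hε0 2, pow_pos hε0 3, mul_nonneg hε0.le h12,
        mul_nonneg (pow_pos hε0 2).le h12]
    have e1 : (1 - 2 * γ) = -(2 * ε) := by simp only [hε]; ring
    rw [e1, hlγ]
    have e5 : -(2 * ε) * (Real.log (1 + 2 * ε) - Real.log 2) + ε * (Real.log p + Real.log ε) +
        p * (Real.log (π / 2) - Real.log p - ℓ) -
        (Real.log (1 + 3 / 2 * ε) + ε * (Real.log ε - Real.log p) +
          (Real.log (π / 2) + 2 * ε * Real.log (π / 4))) =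
        2 * ε * Real.log 2 + ε * (Real.log (π / 2) - 2 * Real.log (π / 4)) -
          2 * ε * Real.log (1 + 2 * ε) - (1 - ε) * Real.log p + p * (-ℓ) -
          Real.log (1 + 3 / 2 * ε) := by
      have h1 : p * Real.log (π / 2) = Real.log (π / 2) + ε * Real.log (π / 2) := by
        rw [hpe]
        ring
      have h2 : p * Real.log p = Real.log p + ε * Real.log p := by
        nth_rewrite 1 [hpe]
        ring
      linear_combination h1 - h2
    linarith
  -- conclusion
  have hcoef : 0 ≤ (1 + (3 / 2) * ε) * (ε / p) ^ ε := by positivity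
  have hstep := hmain.trans (mul_le_mul_of_nonneg_left hf hcoef)
  have e6 : (1 + 3 / 2 * ε) * (2 * (ε / p) ^ ε * (1 / (2 * π) * fInt γ)) =
      (1 / π) * (((1 + (3 / 2) * ε) * (ε / p) ^ ε) * fInt γ) := by
    field_simp
  rw [e6]
  have e7 := mul_le_mul_of_nonneg_left hstep (by positivity : 0 ≤ 1 / π)
  have e8 : (1 / π) * (π * Cst γ) = Cst γ := by
    field_simp
  rwa [e8] at e7

end compare

/-- Numerical value at `γ = 1`: `C(1) ≤ 1.73 L^{cl}_1`. -/
theorem Cst_one_le : Cst 1 ≤ (173 / 100) * ((1 / (2 * π)) * fInt 1) := by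
  rw [fInt_one]
  unfold Cst
  have hπ := Real.pi_pos
  have hπ2 := Real.pi_lt_d4
  have hπ1 := Real.pi_gt_d4
  have e1 : ((1:ℝ) + 1 / 2) = 3 / 2 := by norm_num
  have e2 : ((1:ℝ) - 1 / 2) = 1 / 2 := by norm_num
  rw [e1, e2]
  have e3 : π / (2 * (3 / 2)) = π / 3 := by ring
  rw [e3, Real.sin_pi_div_three]
  have h3 : 0 < Real.sqrt 3 := by positivity
  set x : ℝ := π / (2 * (3 / 2) * (Real.sqrt 3 / 2)) with hx
  have hx0 : 0 < x := by positivity
  have hs3 : Real.sqrt 3 ^ 2 = 3 := Real.sq_sqrt (by norm_num)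
  have hs1 : (1.732:ℝ) ≤ Real.sqrt 3 := by
    apply Real.le_sqrt_of_sq_le
    norm_num
  set y : ℝ := ((3 / 2 * (1 / 2) : ℝ)) ^ ((1:ℝ) / 2) * x ^ ((3:ℝ) / 2) with hy
  have hy0 : 0 < y := by positivity
  have hy2 : y ^ 2 = (3 / 4) * x ^ 3 := by
    simp only [hy]
    rw [mul_pow, ← Real.rpow_natCast, ← Real.rpow_mul (by norm_num), ← Real.rpow_natCast,
      ← Real.rpow_mul hx0.le]
    norm_num
  have hxle : x ≤ 1.2094 := by
    simp only [hx]
    rw [div_le_iff₀ (by positivity)]
    nlinarith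
  have hx3 : x ^ 3 ≤ 1.2094 ^ 3 := pow_le_pow_left₀ hx0.le hxle 3
  have hyle : y ≤ 1.1533 := by
    have h4 : y ^ 2 ≤ (1.1533 : ℝ) ^ 2 := by
      rw [hy2]
      norm_num at hx3 ⊢
      nlinarith
    exact (abs_le_of_sq_le_sq' h4 (by norm_num)).2
  have e5 : (1 / π * (1:ℝ) ^ (1 - 2 * 1 : ℝ) * (3 / 2 * (1 / 2)) ^ ((1:ℝ) / 2) * x ^ ((3:ℝ) / 2)) =
      (1 / π) * y := by
    simp only [hy, Real.one_rpow]
    ring
  rw [e5]
  have e6 : (173 / 100 : ℝ) * (1 / (2 * π) * (4 / 3)) = (1 / π) * (173 / 150) := by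
    field_simp
    ring
  rw [e6]
  apply mul_le_mul_of_nonneg_left _ (by positivity)
  norm_num at hyle ⊢
  linarith

end Vale.Agent.P371
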