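import Mathlib

/-!
Scalar analysis: layer cake in the frequency variable and allocation of thresholds.
-/

set_option linter.unusedSectionVars false
set_option linter.unusedSimpArgs false
set_option linter.unusedVariables false

open MeasureTheory Set Filter Topology
open scoped Real

namespace Vale.Agent.P371

/-- the inverse of `t = 1/(1+u²)` : `u = sqrt ((1-t)/t)` -/
noncomputable def nn (t : ℝ) : ℝ := Real.sqrt ((1 - t) / t)

lemma nn_nonneg (t : ℝ) : 0 ≤ nn t := Real.sqrt_nonneg _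

lemma measurable_nn : Measurable nn := by
  unfold nn
  fun_prop

/-- For `0<t<1` and `η>0`: `t < μ²/(η²+μ²)` iff `η < μ nn t`. -/
lemma lt_level_iff {μ η t : ℝ} (hμ : 0 < μ) (hη : 0 < η) (ht0 : 0 < t) (ht1 : t < 1) :
    t < μ ^ 2 / (η ^ 2 + μ ^ 2) ↔ η < μ * nn t := by
  have hpos : 0 < η ^ 2 + μ ^ 2 := by positivity
  have hq : 0 < (1 - t) / t := div_pos (by linarith) ht0
  rw [lt_div_iff₀ hpos]
  constructor
  · intro h
    have h1 : η ^ 2 < μ ^ 2 * ((1 - t) / t) := by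
      rw [mul_div_assoc', lt_div_iff₀ ht0]
      nlinarith
    have h2 : (μ * nn t) ^ 2 = μ ^ 2 * ((1 - t) / t) := by
      rw [mul_pow, nn, Real.sq_sqrt hq.le]
    have h3 : 0 ≤ μ * nn t := mul_nonneg hμ.le (nn_nonneg t)
    nlinarith
  · intro h
    have h2 : (μ * nn t) ^ 2 = μ ^ 2 * ((1 - t) / t) := by
      rw [mul_pow, nn, Real.sq_sqrt hq.le]
    have h1 : η ^ 2 < μ ^ 2 * ((1 - t) / t) := by
      rw [← h2]
      exact pow_lt_pow_left₀ h hη.le two_ne_zero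
    rw [mul_div_assoc', lt_div_iff₀ ht0] at h1
    nlinarith

/-- Layer cake (Fubini) on the low frequencies. -/
lemma layer_cake {L : ℝ → ℝ} (hL : Continuous L) {M : ℝ} (hL0 : ∀ η, 0 ≤ L η) (hLM : ∀ η, L η ≤ M)
    {μ Ξ : ℝ} (hμ : 0 < μ) (hΞ : 0 < Ξ) :
    ∫ η in Ioo 0 Ξ, L η / (η ^ 2 + μ ^ 2) =
      (1 / μ ^ 2) * ∫ t in Ioo (0:ℝ) 1, ∫ η in Ioo 0 (min Ξ (μ * nn t)), L η := by
  set H : ℝ → ℝ → ℝ := fun η t => if t < μ ^ 2 / (η ^ 2 + μ ^ 2) then L η else 0 with hH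
  have hint : Integrable (Function.uncurry H)
      ((volume.restrict (Ioo 0 Ξ)).prod (volume.restrict (Ioo (0:ℝ) 1))) := by
    refine Integrable.of_bound ?_ M ?_
    · apply Measurable.aestronglyMeasurable
      have h1 : Measurable (fun p : ℝ × ℝ => μ ^ 2 / (p.1 ^ 2 + μ ^ 2)) := by fun_prop
      have h2 : MeasurableSet {p : ℝ × ℝ | p.2 < μ ^ 2 / (p.1 ^ 2 + μ ^ 2)} :=
        measurableSet_lt measurable_snd h1
      exact Measurable.ite h2 (hL.measurable.comp measurable_fst) measurable_const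
    · refine Eventually.of_forall (fun p => ?_)
      simp only [Function.uncurry, hH]
      split_ifs
      · rw [Real.norm_of_nonneg (hL0 _)]; exact hLM _
      · simpa using (hL0 0).trans (hLM 0)
  have hswap := integral_integral_swap (f := H) hint
  -- inner integral in `t`
  have h1 : ∀ η ∈ Ioo 0 Ξ, ∫ t in Ioo (0:ℝ) 1, H η t = L η * (μ ^ 2 / (η ^ 2 + μ ^ 2)) := by
    intro η hη
    set a := μ ^ 2 / (η ^ 2 + μ ^ 2) with ha
    have ha0 : 0 < a := by have := hη.1; positivity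
    have ha1 : a ≤ 1 := by
      rw [ha, div_le_one (by have := hη.1; positivity)]
      nlinarith [sq_nonneg η]
    have e : ∀ t, H η t = (Iio a).indicator (fun _ => L η) t := by
      intro t
      simp only [hH, indicator, mem_Iio, ← ha]
    simp only [e]
    rw [setIntegral_indicator measurableSet_Iio]
    have : Ioo (0:ℝ) 1 ∩ Iio a = Ioo 0 a := by
      ext t
      simp only [mem_inter_iff, mem_Ioo, mem_Iio]
      constructor
      · rintro ⟨⟨h1, h2⟩, h3⟩; exact ⟨h1, h3⟩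
      · rintro ⟨h1, h3⟩; exact ⟨⟨h1, lt_of_lt_of_le h3 ha1⟩, h3⟩
    rw [this, setIntegral_const]
    simp [Real.volume_real_Ioo, ha0.le, mul_comm]
  -- inner integral in `η`
  have h2 : ∀ t ∈ Ioo (0:ℝ) 1, ∫ η in Ioo 0 Ξ, H η t = ∫ η in Ioo 0 (min Ξ (μ * nn t)), L η := by
    intro t ht
    have e : ∀ η ∈ Ioo 0 Ξ, H η t = (Iio (μ * nn t)).indicator L η := by
      intro η hη
      simp only [hH, indicator, mem_Iio]
      by_cases hc : η < μ * nn t
      · rw [if_pos hc, if_pos ((lt_level_iff hμ hη.1 ht.1 ht.2).mpr hc)]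
      · rw [if_neg hc, if_neg (fun h => hc ((lt_level_iff hμ hη.1 ht.1 ht.2).mp h))]
    rw [setIntegral_congr_fun measurableSet_Ioo e, setIntegral_indicator measurableSet_Iio]
    have : Ioo 0 Ξ ∩ Iio (μ * nn t) = Ioo 0 (min Ξ (μ * nn t)) := by
      ext η
      simp only [mem_inter_iff, mem_Ioo, mem_Iio, lt_min_iff]
      tauto
    rw [this]
  have h3 : ∫ η in Ioo 0 Ξ, ∫ t in Ioo (0:ℝ) 1, H η t =
      μ ^ 2 * ∫ η in Ioo 0 Ξ, L η / (η ^ 2 + μ ^ 2) := by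
    rw [setIntegral_congr_fun measurableSet_Ioo h1, ← integral_const_mul]
    refine integral_congr_ae (Eventually.of_forall (fun η => ?_))
    simp only
    ring
  have h4 : ∫ t in Ioo (0:ℝ) 1, ∫ η in Ioo 0 Ξ, H η t =
      ∫ t in Ioo (0:ℝ) 1, ∫ η in Ioo 0 (min Ξ (μ * nn t)), L η :=
    setIntegral_congr_fun measurableSet_Ioo h2
  rw [h3, h4] at hswap
  have hμ2 : μ ^ 2 ≠ 0 := by positivity
  rw [← hswap]
  field_simp

/-- Tail of the frequency integral. -/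
lemma tail_bound {L : ℝ → ℝ} (hL : Continuous L) {M : ℝ} (hL0 : ∀ η, 0 ≤ L η) (hLM : ∀ η, L η ≤ M)
    {μ Ξ : ℝ} (hμ : 0 < μ) (hΞ : 0 < Ξ) :
    IntegrableOn (fun η => L η / (η ^ 2 + μ ^ 2)) (Ioi 0) ∧
    ∫ η in Ioi Ξ, L η / (η ^ 2 + μ ^ 2) ≤ M / Ξ := by
  have hM : 0 ≤ M := (hL0 0).trans (hLM 0)
  have hmeas : Measurable (fun η => L η / (η ^ 2 + μ ^ 2)) := by
    have := hL.measurable
    fun_prop
  -- integrability on the whole line
  have hI : Integrable (fun η : ℝ => M / μ ^ 2 * (1 + (μ⁻¹ * η) ^ 2)⁻¹) := by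
    have h0 : Integrable (fun x : ℝ => (1 + x ^ 2)⁻¹) := integrable_inv_one_add_sq
    exact (h0.comp_mul_left' (inv_ne_zero hμ.ne')).const_mul _
  have hdom : ∀ η : ℝ, ‖L η / (η ^ 2 + μ ^ 2)‖ ≤ M / μ ^ 2 * (1 + (μ⁻¹ * η) ^ 2)⁻¹ := by
    intro η
    have hpos : 0 < η ^ 2 + μ ^ 2 := by positivity
    rw [Real.norm_of_nonneg (div_nonneg (hL0 η) hpos.le)]
    have e : M / μ ^ 2 * (1 + (μ⁻¹ * η) ^ 2)⁻¹ = M / (η ^ 2 + μ ^ 2) := by
      have : μ ≠ 0 := hμ.ne'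
      field_simp
      ring
    rw [e]
    exact div_le_div_of_nonneg_right (hLM η) hpos.le
  have hI2 : Integrable (fun η => L η / (η ^ 2 + μ ^ 2)) :=
    hI.mono' hmeas.aestronglyMeasurable (Eventually.of_forall hdom)
  refine ⟨hI2.integrableOn, ?_⟩
  have hb : IntegrableOn (fun η : ℝ => M * η ^ (-2 : ℝ)) (Ioi Ξ) :=
    (integrableOn_Ioi_rpow_of_lt (by norm_num : (-2:ℝ) < -1) hΞ).const_mul M
  have hval : ∫ η in Ioi Ξ, M * η ^ (-2 : ℝ) = M / Ξ := by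
    rw [integral_const_mul, integral_Ioi_rpow_of_lt (by norm_num : (-2:ℝ) < -1) hΞ]
    have : (-2:ℝ) + 1 = -1 := by norm_num
    rw [this, Real.rpow_neg_one]
    field_simp
  rw [← hval]
  refine setIntegral_mono_on hI2.integrableOn hb measurableSet_Ioi (fun η hη => ?_)
  have hη' : 0 < η := hΞ.trans hη
  have hpos : 0 < η ^ 2 + μ ^ 2 := by positivity
  have e : M * η ^ (-2:ℝ) = M / η ^ 2 := by
    rw [Real.rpow_neg hη'.le, div_eq_mul_inv]
    norm_cast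
  rw [e]
  have h1 : L η / (η ^ 2 + μ ^ 2) ≤ M / (η ^ 2 + μ ^ 2) :=
    div_le_div_of_nonneg_right (hLM η) hpos.le
  have h2 : M / (η ^ 2 + μ ^ 2) ≤ M / η ^ 2 :=
    div_le_div_of_nonneg_left hM (by positivity) (by nlinarith [sq_nonneg μ])
  linarith

/-- Frequency integral estimate (before allocation). -/
lemma freq_split {L : ℝ → ℝ} (hL : Continuous L) {M : ℝ} (hL0 : ∀ η, 0 ≤ L η) (hLM : ∀ η, L η ≤ M)
    {μ Ξ : ℝ} (hμ : 0 < μ) (hΞ : 0 < Ξ) :
    (1 / π) * (∫ η in Ioi 0, L η / (η ^ 2 + μ ^ 2)) ≤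
      (1 / μ ^ 2) * (∫ t in Ioo (0:ℝ) 1, ((1 / π) * ∫ η in Ioo 0 (min Ξ (μ * nn t)), L η))
        + M / (π * Ξ) := by
  obtain ⟨hint, htail⟩ := tail_bound hL hL0 hLM hμ hΞ
  have hsplit : ∫ η in Ioi 0, L η / (η ^ 2 + μ ^ 2) =
      (∫ η in Ioo 0 Ξ, L η / (η ^ 2 + μ ^ 2)) + ∫ η in Ici Ξ, L η / (η ^ 2 + μ ^ 2) := by
    rw [← Ioo_union_Ici_eq_Ioi hΞ, setIntegral_union (by
      rw [Set.disjoint_left]
      intro x hx hx'
      exact absurd hx.2 (not_lt.mpr hx')) measurableSet_Ici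
      (hint.mono_set (fun x hx => hx.1)) (hint.mono_set (fun x hx => hΞ.trans_le hx))]
  have hIci : ∫ η in Ici Ξ, L η / (η ^ 2 + μ ^ 2) = ∫ η in Ioi Ξ, L η / (η ^ 2 + μ ^ 2) :=
    integral_Ici_eq_integral_Ioi
  rw [hsplit, hIci, layer_cake hL hL0 hLM hμ hΞ, mul_add]
  have e1 : (1 / π) * ((1 / μ ^ 2) * ∫ t in Ioo (0:ℝ) 1, ∫ η in Ioo 0 (min Ξ (μ * nn t)), L η) =
      (1 / μ ^ 2) * ∫ t in Ioo (0:ℝ) 1, ((1 / π) * ∫ η in Ioo 0 (min Ξ (μ * nn t)), L η) := by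
    rw [integral_const_mul]
    ring
  rw [e1]
  have hπ : 0 < π := Real.pi_pos
  have e2 : (1 / π) * (∫ η in Ioi Ξ, L η / (η ^ 2 + μ ^ 2)) ≤ M / (π * Ξ) := by
    have : M / (π * Ξ) = (1 / π) * (M / Ξ) := by
      field_simp
    rw [this]
    exact mul_le_mul_of_nonneg_left htail (by positivity)
  linarith

/-- Allocation of the thresholds over the layers. -/
theorem alloc_bound {L : ℝ → ℝ} (hL : Continuous L) {M : ℝ} (hL0 : ∀ η, 0 ≤ L η)
    (hLM : ∀ η, L η ≤ M) {μ Ξ r ℓ : ℝ} (hμ : 0 < μ) (hΞ : 0 < Ξ)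
    {Φ : ℝ → ℝ} (hΦ0 : ∀ c, 0 ≤ Φ c)
    (hFB : ∀ b c : ℝ, 0 ≤ b → b ≤ Ξ → 0 ≤ c →
      (1 / π) * ∫ η in Ioo 0 b, L η ≤ c * r + (b / π) * Φ c)
    {cc : ℝ → ℝ} (hcc0 : ∀ t ∈ Ioo (0:ℝ) 1, 0 ≤ cc t)
    (hcc1 : IntegrableOn cc (Ioo (0:ℝ) 1)) (hcc2 : ∫ t in Ioo (0:ℝ) 1, cc t = ℓ)
    (hΦi : IntegrableOn (fun t => nn t * Φ (μ ^ 2 * cc t)) (Ioo (0:ℝ) 1)) :
    (1 / π) * (∫ η in Ioi 0, L η / (η ^ 2 + μ ^ 2)) - ℓ * r ≤
      (1 / μ) * ((1 / π) * ∫ t in Ioo (0:ℝ) 1, nn t * Φ (μ ^ 2 * cc t)) + M / (π * Ξ) := by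
  have h1 := freq_split hL hL0 hLM hμ hΞ
  have hπ : 0 < π := Real.pi_pos
  have hM : 0 ≤ M := (hL0 0).trans (hLM 0)
  -- measurability and boundedness of the layer function
  obtain ⟨A, hA⟩ : ∃ A : ℝ → ℝ, A = fun t => (1 / π) * ∫ η in Ioo 0 (min Ξ (μ * nn t)), L η :=
    ⟨_, rfl⟩
  rw [← hA] at h1
  have hAi : IntegrableOn A (Ioo (0:ℝ) 1) := by
    have hcontB : Continuous (fun b : ℝ => ∫ η in (0:ℝ)..b, L η) :=
      intervalIntegral.continuous_primitive (fun a b => hL.intervalIntegrable a b) 0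
    have hmeas : Measurable A := by
      have h2 : Measurable (fun t => min Ξ (μ * nn t)) :=
        measurable_const.min (measurable_const.mul measurable_nn)
      have h3 : A = fun t => (1 / π) * ∫ η in (0:ℝ)..(min Ξ (μ * nn t)), L η := by
        ext t
        rw [hA]
        simp only
        rw [intervalIntegral.integral_of_le (le_min hΞ.le (mul_nonneg hμ.le (nn_nonneg t))),
          integral_Ioc_eq_integral_Ioo]
      rw [h3]
      exact measurable_const.mul (hcontB.measurable.comp h2)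
    have hbd : ∀ t, ‖A t‖ ≤ (1 / π) * (M * Ξ) := by
      intro t
      rw [hA]
      simp only
      set b := min Ξ (μ * nn t) with hb
      have hb0 : 0 ≤ b := le_min hΞ.le (mul_nonneg hμ.le (nn_nonneg t))
      have hbΞ : b ≤ Ξ := min_le_left _ _
      have hnn : 0 ≤ ∫ η in Ioo 0 b, L η := integral_nonneg (fun η => hL0 η)
      rw [Real.norm_of_nonneg (by positivity)]
      have hle : ∫ η in Ioo 0 b, L η ≤ M * Ξ := by
        have h4 : ∫ η in Ioo 0 b, L η ≤ ∫ η in Ioo 0 b, M := by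
          refine setIntegral_mono_on ?_ ?_ measurableSet_Ioo (fun η _ => hLM η)
          · exact (hL.integrableOn_Icc (a := 0) (b := b)).mono_set Ioo_subset_Icc_self
          · exact integrableOn_const (by simp)
        refine h4.trans ?_
        rw [setIntegral_const]
        simp only [Real.volume_real_Ioo, sub_zero, max_eq_left hb0, smul_eq_mul]
        rw [mul_comm]
        exact mul_le_mul_of_nonneg_left hbΞ hM
      exact mul_le_mul_of_nonneg_left hle (by positivity)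
    exact Measure.integrableOn_of_bounded (by simp) hmeas.aestronglyMeasurable
      (Eventually.of_forall hbd)
  -- pointwise bound
  have hpt : ∀ t ∈ Ioo (0:ℝ) 1, A t - μ ^ 2 * cc t * r ≤
      (μ / π) * (nn t * Φ (μ ^ 2 * cc t)) := by
    intro t ht
    set b := min Ξ (μ * nn t) with hb
    have hb0 : 0 ≤ b := le_min hΞ.le (mul_nonneg hμ.le (nn_nonneg t))
    have hbΞ : b ≤ Ξ := min_le_left _ _
    have hbμ : b ≤ μ * nn t := min_le_right _ _
    have hc0 : 0 ≤ μ ^ 2 * cc t := mul_nonneg (by positivity) (hcc0 t ht)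
    have := hFB b _ hb0 hbΞ hc0
    have h2 : (b / π) * Φ (μ ^ 2 * cc t) ≤ (μ / π) * (nn t * Φ (μ ^ 2 * cc t)) := by
      have : (μ / π) * (nn t * Φ (μ ^ 2 * cc t)) = ((μ * nn t) / π) * Φ (μ ^ 2 * cc t) := by ring
      rw [this]
      exact mul_le_mul_of_nonneg_right (div_le_div_of_nonneg_right hbμ hπ.le) (hΦ0 _)
    rw [hA]
    simp only
    linarith
  have hint_left : IntegrableOn (fun t => A t - μ ^ 2 * cc t * r) (Ioo (0:ℝ) 1) := by
    refine hAi.sub ?_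
    exact (hcc1.const_mul (μ ^ 2)).mul_const r
  have hint_right : IntegrableOn (fun t => (μ / π) * (nn t * Φ (μ ^ 2 * cc t))) (Ioo (0:ℝ) 1) :=
    hΦi.const_mul _
  have hmono := setIntegral_mono_on hint_left hint_right measurableSet_Ioo hpt
  rw [integral_sub hAi ((hcc1.const_mul (μ ^ 2)).mul_const r), integral_mul_const,
    integral_const_mul (μ ^ 2), hcc2, integral_const_mul (μ / π)] at hmono
  -- conclude
  have hμ2 : 0 < μ ^ 2 := by positivity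
  have h5 : (1 / μ ^ 2) * (∫ t in Ioo (0:ℝ) 1, A t) - ℓ * r ≤
      (1 / μ) * ((1 / π) * ∫ t in Ioo (0:ℝ) 1, nn t * Φ (μ ^ 2 * cc t)) := by
    have h6 := mul_le_mul_of_nonneg_left hmono (by positivity : 0 ≤ 1 / μ ^ 2)
    have e1 : (1 / μ ^ 2) * ((∫ t in Ioo (0:ℝ) 1, A t) - μ ^ 2 * ℓ * r) =
        (1 / μ ^ 2) * (∫ t in Ioo (0:ℝ) 1, A t) - ℓ * r := by
      generalize (∫ t in Ioo (0:ℝ) 1, A t) = I
      field_simp
    have e2 : (1 / μ ^ 2) * ((μ / π) * ∫ t in Ioo (0:ℝ) 1, nn t * Φ (μ ^ 2 * cc t)) =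
        (1 / μ) * ((1 / π) * ∫ t in Ioo (0:ℝ) 1, nn t * Φ (μ ^ 2 * cc t)) := by
      have : μ ≠ 0 := hμ.ne'
      generalize (∫ t in Ioo (0:ℝ) 1, nn t * Φ (μ ^ 2 * cc t)) = I
      field_simp
    rw [e1, e2] at h6
    exact h6
  linarith

end Vale.Agent.P371
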