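import Mathlib

/-!
Finite dimensional spectral toolkit for Hermitian complex matrices:
positive part, negative part, support projection, Ky Fan inequality.
-/

set_option linter.unusedSectionVars false
set_option linter.unusedSimpArgs false
set_option linter.unusedVariables false

open Matrix
open scoped ComplexOrder

namespace Vale.Agent.P371

variable {ι : Type*} [Fintype ι] [DecidableEq ι]

/-- Real part of the trace. -/
noncomputable def rtr (A : Matrix ι ι ℂ) : ℝ := (Matrix.trace A).re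

lemma rtr_add (A B : Matrix ι ι ℂ) : rtr (A + B) = rtr A + rtr B := by
  simp [rtr, trace_add]

lemma rtr_sub (A B : Matrix ι ι ℂ) : rtr (A - B) = rtr A - rtr B := by
  simp [rtr, trace_sub]

lemma rtr_neg (A : Matrix ι ι ℂ) : rtr (-A) = - rtr A := by
  simp [rtr, trace_neg]

lemma rtr_zero : rtr (0 : Matrix ι ι ℂ) = 0 := by simp [rtr]

lemma rtr_smul (r : ℝ) (A : Matrix ι ι ℂ) : rtr ((r : ℂ) • A) = r * rtr A := by
  simp [rtr, trace_smul]

lemma rtr_mul_comm (A B : Matrix ι ι ℂ) : rtr (A * B) = rtr (B * A) := by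
  unfold rtr; rw [trace_mul_comm]

lemma rtr_nonneg {A : Matrix ι ι ℂ} (hA : A.PosSemidef) : 0 ≤ rtr A := by
  have h := hA.trace_nonneg
  exact (Complex.le_def.mp h).1

/-- Functional calculus on a Hermitian matrix given by a function on the eigen-index. -/
noncomputable def fc {A : Matrix ι ι ℂ} (hA : A.IsHermitian) (f : ι → ℝ) : Matrix ι ι ℂ :=
  (hA.eigenvectorUnitary : Matrix ι ι ℂ) * diagonal (fun i => (f i : ℂ)) *
    star (hA.eigenvectorUnitary : Matrix ι ι ℂ)

section fc
variable {A : Matrix ι ι ℂ} (hA : A.IsHermitian)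

lemma unitary_star_mul : star (hA.eigenvectorUnitary : Matrix ι ι ℂ) *
    (hA.eigenvectorUnitary : Matrix ι ι ℂ) = 1 :=
  Unitary.coe_star_mul_self hA.eigenvectorUnitary

lemma unitary_mul_star : (hA.eigenvectorUnitary : Matrix ι ι ℂ) *
    star (hA.eigenvectorUnitary : Matrix ι ι ℂ) = 1 :=
  Unitary.coe_mul_star_self hA.eigenvectorUnitary

lemma fc_eigenvalues : fc hA hA.eigenvalues = A := by
  conv_rhs => rw [hA.spectral_theorem]
  simp only [fc, Unitary.conjStarAlgAut_apply]
  rfl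

lemma fc_mul (f g : ι → ℝ) : fc hA f * fc hA g = fc hA (fun i => f i * g i) := by
  unfold fc
  have h := unitary_star_mul hA
  calc _ = (hA.eigenvectorUnitary : Matrix ι ι ℂ) * diagonal (fun i => (f i : ℂ)) *
        (star (hA.eigenvectorUnitary : Matrix ι ι ℂ) * (hA.eigenvectorUnitary : Matrix ι ι ℂ)) *
        diagonal (fun i => (g i : ℂ)) * star (hA.eigenvectorUnitary : Matrix ι ι ℂ) := by
          simp only [Matrix.mul_assoc]
    _ = _ := by
          rw [h, Matrix.mul_one, Matrix.mul_assoc (hA.eigenvectorUnitary : Matrix ι ι ℂ),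
            diagonal_mul_diagonal]
          simp

lemma fc_add (f g : ι → ℝ) : fc hA f + fc hA g = fc hA (fun i => f i + g i) := by
  unfold fc
  rw [← Matrix.add_mul, ← Matrix.mul_add, diagonal_add]
  simp

lemma fc_sub (f g : ι → ℝ) : fc hA f - fc hA g = fc hA (fun i => f i - g i) := by
  unfold fc
  rw [← Matrix.sub_mul, ← Matrix.mul_sub, diagonal_sub]
  simp

lemma fc_one : fc hA (fun _ => 1) = 1 := by
  unfold fc
  simp only [Complex.ofReal_one]
  rw [show diagonal (fun _ : ι => (1 : ℂ)) = 1 from diagonal_one, Matrix.mul_one,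
    unitary_mul_star hA]

lemma fc_posSemidef {f : ι → ℝ} (hf : ∀ i, 0 ≤ f i) : (fc hA f).PosSemidef := by
  unfold fc
  have hd : (diagonal (fun i => (f i : ℂ))).PosSemidef := by
    apply PosSemidef.diagonal
    intro i
    simpa [Pi.zero_apply, Complex.zero_le_real] using hf i
  have := hd.mul_mul_conjTranspose_same (hA.eigenvectorUnitary : Matrix ι ι ℂ)
  simpa [star_eq_conjTranspose] using this

lemma rtr_fc (f : ι → ℝ) : rtr (fc hA f) = ∑ i, f i := by
  unfold rtr fc
  rw [trace_mul_comm, ← Matrix.mul_assoc, unitary_star_mul hA, Matrix.one_mul, trace_diagonal]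
  simp

lemma fc_rank (f : ι → ℝ) : (fc hA f).rank = Fintype.card {i // f i ≠ 0} := by
  classical
  unfold fc
  have hU : IsUnit (hA.eigenvectorUnitary : Matrix ι ι ℂ).det :=
    Matrix.isUnit_det_of_right_inverse (unitary_mul_star hA)
  have hUs : IsUnit (star (hA.eigenvectorUnitary : Matrix ι ι ℂ)).det :=
    Matrix.isUnit_det_of_left_inverse (unitary_mul_star hA)
  rw [Matrix.rank_mul_eq_left_of_isUnit_det _ _ hUs, Matrix.rank_mul_eq_right_of_isUnit_det _ _ hU,
    Matrix.rank_diagonal]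
  simp

lemma fc_entry_bound (f : ι → ℝ) (a b : ι) :
    ‖fc hA f a b‖ ≤ ∑ i, |f i| := by
  unfold fc
  rw [Matrix.mul_assoc, Matrix.mul_apply]
  refine (norm_sum_le _ _).trans ?_
  refine Finset.sum_le_sum (fun i _ => ?_)
  rw [norm_mul, Matrix.diagonal_mul]
  have h1 : ‖(hA.eigenvectorUnitary : Matrix ι ι ℂ) a i‖ ≤ 1 :=
    entry_norm_bound_of_unitary hA.eigenvectorUnitary.2 a i
  have h2 : ‖star (hA.eigenvectorUnitary : Matrix ι ι ℂ) i b‖ ≤ 1 := by
    have : star (hA.eigenvectorUnitary : Matrix ι ι ℂ) i b =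
        star ((hA.eigenvectorUnitary : Matrix ι ι ℂ) b i) := by
      simp [star_eq_conjTranspose, conjTranspose_apply]
    rw [this, norm_star]
    exact entry_norm_bound_of_unitary hA.eigenvectorUnitary.2 b i
  rw [norm_mul, Complex.norm_real, Real.norm_eq_abs]
  calc _ ≤ 1 * (|f i| * 1) := by gcongr
    _ = |f i| := by ring

end fc

/-- The structure of a Hermitian `A`: `A = Qp - Qn`, with `P` the spectral projection onto
the positive eigenvalues. -/
structure TopData (A P Qp Qn : Matrix ι ι ℂ) : Prop where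
  hP : P.PosSemidef
  hP1 : (1 - P).PosSemidef
  hPP : P * P = P
  hQp : Qp.PosSemidef
  hQn : Qn.PosSemidef
  eq : A = Qp - Qn
  QpP : Qp * P = Qp
  PQp : P * Qp = Qp
  QnP : Qn * P = 0
  PQn : P * Qn = 0
  rank : (P.rank : ℝ) = rtr P

/-- support projection of the positive part -/
noncomputable def pP (A : Matrix ι ι ℂ) : Matrix ι ι ℂ :=
  by classical exact if h : A.IsHermitian then fc h (fun i => if 0 < h.eigenvalues i then 1 else 0) else 0

/-- positive part -/
noncomputable def pPos (A : Matrix ι ι ℂ) : Matrix ι ι ℂ :=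
  by classical exact if h : A.IsHermitian then fc h (fun i => max (h.eigenvalues i) 0) else 0

/-- negative part -/
noncomputable def pNeg (A : Matrix ι ι ℂ) : Matrix ι ι ℂ :=
  by classical exact if h : A.IsHermitian then fc h (fun i => max (- h.eigenvalues i) 0) else 0

lemma pP_eq {A : Matrix ι ι ℂ} (h : A.IsHermitian) :
    pP A = fc h (fun i => if 0 < h.eigenvalues i then 1 else 0) := by
  simp [pP, h]

lemma pPos_eq {A : Matrix ι ι ℂ} (h : A.IsHermitian) :
    pPos A = fc h (fun i => max (h.eigenvalues i) 0) := by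
  simp [pPos, h]

lemma pNeg_eq {A : Matrix ι ι ℂ} (h : A.IsHermitian) :
    pNeg A = fc h (fun i => max (- h.eigenvalues i) 0) := by
  simp [pNeg, h]

theorem topData {A : Matrix ι ι ℂ} (h : A.IsHermitian) : TopData A (pP A) (pPos A) (pNeg A) := by
  rw [pP_eq h, pPos_eq h, pNeg_eq h]
  refine ⟨?_, ?_, ?_, ?_, ?_, ?_, ?_, ?_, ?_, ?_, ?_⟩
  · apply fc_posSemidef; intro i; split_ifs <;> norm_num
  · conv => arg 1; arg 1; rw [← fc_one h]
    rw [fc_sub]
    apply fc_posSemidef; intro i; split_ifs <;> norm_num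
  · rw [fc_mul]; congr 1; ext i; split_ifs <;> norm_num
  · apply fc_posSemidef; intro i; exact le_max_right _ _
  · apply fc_posSemidef; intro i; exact le_max_right _ _
  · conv_lhs => rw [← fc_eigenvalues h]
    rw [fc_sub]; congr 1; ext i
    rcases le_total (h.eigenvalues i) 0 with hi | hi
    · rw [max_eq_right hi, max_eq_left (by linarith)]; ring
    · rw [max_eq_left hi, max_eq_right (by linarith)]; ring
  · rw [fc_mul]; congr 1; ext i
    by_cases hi : 0 < h.eigenvalues i
    · simp [hi]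
    · have : h.eigenvalues i ≤ 0 := not_lt.mp hi
      simp [hi, max_eq_right this]
  · rw [fc_mul]; congr 1; ext i
    by_cases hi : 0 < h.eigenvalues i
    · simp [hi]
    · have : h.eigenvalues i ≤ 0 := not_lt.mp hi
      simp [hi, max_eq_right this]
  · have : fc h (fun i => (max (- h.eigenvalues i) 0) * (if 0 < h.eigenvalues i then (1:ℝ) else 0))
        = fc h (fun _ => (0:ℝ)) := by
      congr 1; ext i
      by_cases hi : 0 < h.eigenvalues i
      · simp [hi, max_eq_right (by linarith : - h.eigenvalues i ≤ 0)]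
      · simp [hi]
    rw [fc_mul, this]; simp [fc]
  · have : fc h (fun i => (if 0 < h.eigenvalues i then (1:ℝ) else 0) * (max (- h.eigenvalues i) 0))
        = fc h (fun _ => (0:ℝ)) := by
      congr 1; ext i
      by_cases hi : 0 < h.eigenvalues i
      · simp [hi, max_eq_right (by linarith : - h.eigenvalues i ≤ 0)]
      · simp [hi]
    rw [fc_mul, this]; simp [fc]
  · rw [fc_rank, rtr_fc]
    classical
    have : (∑ i, if 0 < h.eigenvalues i then (1:ℝ) else 0) =
        ((Finset.univ.filter fun i => 0 < h.eigenvalues i).card : ℝ) := by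
      rw [Finset.sum_ite]; simp
    rw [this, Fintype.card_subtype]
    congr 2
    ext i
    by_cases hi : 0 < h.eigenvalues i <;> simp [hi]

lemma rtr_pPos {A : Matrix ι ι ℂ} (h : A.IsHermitian) :
    rtr (pPos A) = ∑ i, max (h.eigenvalues i) 0 := by
  rw [pPos_eq h, rtr_fc]

lemma pP_entry_bound {A : Matrix ι ι ℂ} (h : A.IsHermitian) (a b : ι) :
    ‖pP A a b‖ ≤ Fintype.card ι := by
  rw [pP_eq h]
  refine (fc_entry_bound h _ a b).trans ?_
  calc _ ≤ ∑ _i : ι, (1:ℝ) := by
        refine Finset.sum_le_sum (fun i _ => ?_)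
        split_ifs <;> norm_num
    _ = _ := by simp

/-- A positive semidefinite matrix has a Hermitian square root. -/
lemma exists_sqrt {A : Matrix ι ι ℂ} (hA : A.PosSemidef) :
    ∃ T : Matrix ι ι ℂ, T.PosSemidef ∧ T * T = A := by
  refine ⟨fc hA.1 (fun i => Real.sqrt (hA.1.eigenvalues i)), ?_, ?_⟩
  · apply fc_posSemidef; intro i; exact Real.sqrt_nonneg _
  · rw [fc_mul]
    conv_rhs => rw [← fc_eigenvalues hA.1]
    congr 1; ext i
    exact Real.mul_self_sqrt (hA.eigenvalues_nonneg i)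

/-- trace of a product of two positive semidefinite matrices is nonnegative -/
lemma rtr_mul_nonneg {A B : Matrix ι ι ℂ} (hA : A.PosSemidef) (hB : B.PosSemidef) :
    0 ≤ rtr (A * B) := by
  obtain ⟨T, hT, hTT⟩ := exists_sqrt hB
  have h : (T * A * Tᴴ).PosSemidef := hA.mul_mul_conjTranspose_same T
  have hTh : Tᴴ = T := hT.1
  have := rtr_nonneg h
  rw [hTh] at this
  rw [← hTT, ← Matrix.mul_assoc, rtr_mul_comm, ← Matrix.mul_assoc]
  exact this

section topdata
variable {A P Qp Qn : Matrix ι ι ℂ} (H : TopData A P Qp Qn)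
include H

/-- Ky Fan: `Tr (S A) ≤ Tr A_+` for `0 ≤ S ≤ 1`. -/
lemma kyFan {S : Matrix ι ι ℂ} (hS : S.PosSemidef) (hS1 : (1 - S).PosSemidef) :
    rtr (S * A) ≤ rtr Qp := by
  have h1 := rtr_mul_nonneg hS1 H.hQp
  have h2 := rtr_mul_nonneg hS H.hQn
  rw [Matrix.sub_mul, Matrix.one_mul, rtr_sub] at h1
  rw [H.eq, Matrix.mul_sub, rtr_sub]
  linarith

lemma attain : rtr (P * A) = rtr Qp := by
  rw [H.eq, Matrix.mul_sub, H.PQp, H.PQn, sub_zero]

/-- sum of squares of differences lemma: for `A = M - θ`, `P` the top projection,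
`Tr P (Φ² M + M Φ² - 2 Φ M Φ) ≥ 0`. -/
lemma sos_nonneg {M Φ : Matrix ι ι ℂ} {θ : ℂ} (hM : A = M - θ • 1) (hΦ : Φ.IsHermitian) :
    0 ≤ rtr (P * (Φ * Φ * M + M * (Φ * Φ) - (2:ℂ) • (Φ * M * Φ))) := by
  have hX : Φ * Φ * M + M * (Φ * Φ) - (2:ℂ) • (Φ * M * Φ) =
      (Φ * Φ * Qp + Qp * (Φ * Φ) - (2:ℂ) • (Φ * Qp * Φ)) -
      (Φ * Φ * Qn + Qn * (Φ * Φ) - (2:ℂ) • (Φ * Qn * Φ)) := by
    have hM' : M = Qp - Qn + θ • 1 := by
      rw [← H.eq, hM]; abel
    rw [hM']
    simp only [Matrix.mul_add, Matrix.add_mul, Matrix.mul_sub, Matrix.sub_mul, Matrix.mul_smul,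
      Matrix.smul_mul, Matrix.mul_one, Matrix.one_mul, smul_add, smul_sub, Matrix.mul_assoc]
    rw [two_smul (R := ℂ) (M := Matrix ι ι ℂ) , two_smul (R := ℂ) (M := Matrix ι ι ℂ),
      two_smul (R := ℂ) (M := Matrix ι ι ℂ)]
    abel
  have hΦ' : Φᴴ = Φ := hΦ
  -- positive term
  have h1 : rtr (P * (Φ * Φ * Qp)) = rtr (Φ * Φ * Qp) := by
    rw [rtr_mul_comm, Matrix.mul_assoc, H.QpP]
  have h2 : rtr (P * (Qp * (Φ * Φ))) = rtr (Φ * Φ * Qp) := by
    rw [← Matrix.mul_assoc, H.PQp, rtr_mul_comm]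
  have h3 : rtr (P * (Φ * Qp * Φ)) ≤ rtr (Φ * Φ * Qp) := by
    have hpsd : (Φ * Qp * Φ).PosSemidef := by
      have := H.hQp.mul_mul_conjTranspose_same Φ
      rwa [hΦ'] at this
    have := rtr_mul_nonneg H.hP1 hpsd
    rw [Matrix.sub_mul, Matrix.one_mul, rtr_sub] at this
    have h4 : rtr (Φ * Qp * Φ) = rtr (Φ * Φ * Qp) := by
      rw [rtr_mul_comm, ← Matrix.mul_assoc]
    linarith
  -- negative term
  have h5 : rtr (P * (Φ * Φ * Qn)) = 0 := by
    rw [rtr_mul_comm, Matrix.mul_assoc, H.QnP, Matrix.mul_zero, rtr_zero]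
  have h6 : rtr (P * (Qn * (Φ * Φ))) = 0 := by
    rw [← Matrix.mul_assoc, H.PQn, Matrix.zero_mul, rtr_zero]
  have h7 : 0 ≤ rtr (P * (Φ * Qn * Φ)) := by
    have hpsd : (Φ * Qn * Φ).PosSemidef := by
      have := H.hQn.mul_mul_conjTranspose_same Φ
      rwa [hΦ'] at this
    exact rtr_mul_nonneg H.hP hpsd
  have h2c : ∀ X : Matrix ι ι ℂ, rtr (P * ((2:ℂ) • X)) = 2 * rtr (P * X) := by
    intro X
    rw [Matrix.mul_smul]
    exact_mod_cast rtr_smul 2 (P * X)
  rw [hX, Matrix.mul_sub, rtr_sub, Matrix.mul_sub, Matrix.mul_sub, rtr_sub, rtr_sub,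
    Matrix.mul_add, Matrix.mul_add, rtr_add, rtr_add, h1, h2, h5, h6, h2c, h2c]
  linarith

end topdata

end Vale.Agent.P371
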